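import Vale.Agent.P032.Defs

open MeasureTheory Filter Topology

namespace Vale.Agent.P032

namespace AreaAux

/-- real form of the two-step map -/
noncomputable def FF (g : ℂ) (p : ℝ × ℝ) : ℝ × ℝ :=
  (g.re + Real.cos p.1 + Real.cos p.2, g.im + Real.sin p.1 + Real.sin p.2)

/-- its derivative -/
noncomputable def FD (p : ℝ × ℝ) : ℝ × ℝ →L[ℝ] ℝ × ℝ :=
  (Matrix.toLin (.finTwoProd ℝ) (.finTwoProd ℝ)
    !![-Real.sin p.1, -Real.sin p.2; Real.cos p.1, Real.cos p.2]).toContinuousLinearMap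

theorem hasFD (g : ℂ) (p : ℝ × ℝ) : HasFDerivAt (FF g) (FD p) p := by
  have h1 := ((Real.hasDerivAt_cos p.1).comp_hasFDerivAt p
    (hasFDerivAt_fst (𝕜 := ℝ) (E := ℝ) (F := ℝ) (p := p))).const_add g.re
  have h2 := (Real.hasDerivAt_cos p.2).comp_hasFDerivAt p
    (hasFDerivAt_snd (𝕜 := ℝ) (E := ℝ) (F := ℝ) (p := p))
  have h3 := ((Real.hasDerivAt_sin p.1).comp_hasFDerivAt p
    (hasFDerivAt_fst (𝕜 := ℝ) (E := ℝ) (F := ℝ) (p := p))).const_add g.im
  have h4 := (Real.hasDerivAt_sin p.2).comp_hasFDerivAt p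
    (hasFDerivAt_snd (𝕜 := ℝ) (E := ℝ) (F := ℝ) (p := p))
  have h := (h1.add h2).prodMk (h3.add h4)
  refine HasFDerivAt.congr_fderiv (f := FF g) h ?_
  unfold FD
  rw [Matrix.toLin_finTwoProd_toContinuousLinearMap]

theorem det_FD (p : ℝ × ℝ) : (FD p).det = Real.sin (p.2 - p.1) := by
  unfold FD
  simp only [LinearMap.det_toContinuousLinearMap, LinearMap.det_toLin, Matrix.det_fin_two_of]
  rw [Real.sin_sub]
  ring

theorem sin_low {a b s r x y : ℝ} (hab : s ≤ |Real.sin (a - b)|) (hr : r ≤ s / 4)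
    (hx : x ∈ Set.Icc (a - r) (a + r)) (hy : y ∈ Set.Icc (b - r) (b + r)) :
    s / 2 ≤ |Real.sin (y - x)| := by
  have h1 : |Real.sin (x - y) - Real.sin (a - b)| ≤ |(x - y) - (a - b)| :=
    Real.abs_sin_sub_sin_le _ _
  have h2 : |(x - y) - (a - b)| ≤ 2 * r := by
    rw [abs_le]; constructor <;> linarith [hx.1, hx.2, hy.1, hy.2]
  have h3 : |Real.sin (y - x)| = |Real.sin (x - y)| := by
    rw [← neg_sub, Real.sin_neg, abs_neg]
  have h4 := abs_sub_abs_le_abs_sub (Real.sin (a - b)) (Real.sin (x - y))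
  rw [abs_sub_comm] at h4
  rw [h3]; linarith

theorem eq_of_sin_half {x y r : ℝ} (h : Real.sin ((x - y) / 2) = 0) (hr : |x - y| ≤ r)
    (hr1 : r ≤ 1) : x = y := by
  have hpi := Real.pi_gt_three
  rw [abs_le] at hr
  have := (Real.sin_eq_zero_iff_of_lt_of_lt (x := (x - y) / 2) (by linarith [hr.1])
    (by linarith [hr.2])).1 h
  linarith

theorem injOn_FF (g : ℂ) {a b s r : ℝ} (hs : 0 < s) (hab : s ≤ |Real.sin (a - b)|)
    (hr : r ≤ s / 4) :
    Set.InjOn (FF g) (Set.Icc (a - r) (a + r) ×ˢ Set.Icc (b - r) (b + r)) := by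
  rintro ⟨x, y⟩ ⟨hx, hy⟩ ⟨x', y'⟩ ⟨hx', hy'⟩ h
  simp only [FF, Prod.mk.injEq] at h hx hy hx' hy' ⊢
  obtain ⟨hc, hsn⟩ := h
  have hs1 : s ≤ 1 := hab.trans (Real.abs_sin_le_one _)
  have e1 := Real.cos_sub_cos x x'
  have e2 := Real.cos_sub_cos y' y
  have e3 := Real.sin_sub_sin x x'
  have e4 := Real.sin_sub_sin y' y
  set u := Real.sin ((x - x') / 2) with hu
  set v := Real.sin ((y' - y) / 2) with hv
  set m := (x + x') / 2 with hm
  set n := (y' + y) / 2 with hn
  have hm' : m ∈ Set.Icc (a - r) (a + r) := by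
    constructor <;> linarith [hx.1, hx.2, hx'.1, hx'.2]
  have hn' : n ∈ Set.Icc (b - r) (b + r) := by
    constructor <;> linarith [hy.1, hy.2, hy'.1, hy'.2]
  have hlow := sin_low hab hr hm' hn'
  have hne : Real.sin (n - m) ≠ 0 := by
    intro h0; rw [h0, abs_zero] at hlow; linarith
  have q1 : u * Real.sin m = v * Real.sin n := by linarith
  have q2 : u * Real.cos m = v * Real.cos n := by linarith
  have hu0 : u = 0 := by
    have : u * Real.sin (n - m) = 0 := by
      rw [Real.sin_sub]; linear_combination (Real.sin n) * q2 - (Real.cos n) * q1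
    exact (mul_eq_zero.1 this).resolve_right hne
  have hv0 : v = 0 := by
    have : v * Real.sin (n - m) = 0 := by
      rw [Real.sin_sub]; linear_combination (Real.sin m) * q2 - (Real.cos m) * q1
    exact (mul_eq_zero.1 this).resolve_right hne
  refine ⟨eq_of_sin_half (r := 2 * r) hu0 ?_ (by linarith),
    (eq_of_sin_half (r := 2 * r) hv0 ?_ (by linarith)).symm⟩
  · rw [abs_le]; constructor <;> linarith [hx.1, hx.2, hx'.1, hx'.2]
  · rw [abs_le]; constructor <;> linarith [hy.1, hy.2, hy'.1, hy'.2]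

end AreaAux

open AreaAux in
/-- area lower bound for the two-step map -/
theorem area_lower (g : ℂ) (a b s r : ℝ) (hs : 0 < s) (hab : s ≤ |Real.sin (a - b)|)
    (hr : r ≤ s / 4) (P : Set (ℝ × ℝ)) (hP : MeasurableSet P)
    (hsub : P ⊆ Set.Icc (a - r) (a + r) ×ˢ Set.Icc (b - r) (b + r)) :
    ENNReal.ofReal (s / 2) * volume P ≤
      volume ((fun p : ℝ × ℝ => g + ee p.1 + ee p.2) '' P) := by
  have h1 := lintegral_abs_det_fderiv_le_addHaar_image (volume : Measure (ℝ × ℝ)) hP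
    (fun p _ => (hasFD g p).hasFDerivWithinAt) ((injOn_FF g hs hab hr).mono hsub)
  have h2 : ENNReal.ofReal (s / 2) * volume P ≤ ∫⁻ p in P, ENNReal.ofReal |(FD p).det| := by
    rw [← setLIntegral_const]
    refine setLIntegral_mono' hP fun p hp => ?_
    rw [det_FD]
    exact ENNReal.ofReal_le_ofReal (sin_low hab hr (hsub hp).1 (hsub hp).2)
  have h3 : (fun p : ℝ × ℝ => g + ee p.1 + ee p.2) '' P =
      Complex.measurableEquivRealProd ⁻¹' (FF g '' P) := by
    ext z
    simp only [Set.mem_image, Set.mem_preimage, Complex.measurableEquivRealProd_apply, FF,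
      Prod.mk.injEq]
    constructor
    · rintro ⟨p, hp, rfl⟩
      exact ⟨p, hp, by simp [ee_re], by simp [ee_im]⟩
    · rintro ⟨p, hp, h5, h6⟩
      refine ⟨p, hp, Complex.ext ?_ ?_⟩
      · simp [ee_re, ← h5]
      · simp [ee_im, ← h6]
  rw [h3, Complex.volume_preserving_equiv_real_prod.measure_preimage_equiv]
  exact h2.trans h1

end Vale.Agent.P032
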