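import Vale.Agent.P032.CTwo

open Filter Topology Real

namespace Vale.Agent.P032

variable {F : Fin 5 → Set ℂ}

theorem CTriAux.cross (h : Cfg F) {p' q' : ℂ} {α β η δ : ℝ}
    (H : ∀ w : ℂ, ‖w - (ee α + ee β)‖ < δ →
      ∃ a' b', |a' - α| < η ∧ |b' - β| < η ∧ w = ee a' + ee b')
    (hd : ‖q' - p' - (ee α + ee β)‖ < δ) {y u : Fin 5}
    (h1 : ∀ s, |s - α| ≤ η → p' + ee s ∈ interior (F y))
    (h2 : ∀ s, |s - β| ≤ η → q' + ee (s + π) ∈ interior (F u)) : y = u := by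
  obtain ⟨a', b', ha, hb, e⟩ := H _ hd
  by_contra hne
  have h3 := h1 a' ha.le
  have h4 := h2 b' hb.le
  have e2 : q' + ee (b' + π) = p' + ee a' := by
    rw [ee_add_pi]
    linear_combination e
  rw [e2] at h4
  exact h.disj y u hne _ h3 (interior_subset h4)

theorem CTriAux.near {S : Set ℂ} {c z m : ℂ} {θ ψ ρ : ℝ} (hS : Metric.ball m ρ ⊆ S)
    (e : c + ee θ = m) (hz : ‖z - c‖ < ρ / 2) (hψ : |ψ - θ| ≤ ρ / 2) : z + ee ψ ∈ S := by
  refine hS ?_
  rw [Metric.mem_ball, dist_eq_norm, ← e]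
  have h1 := norm_ee_sub_ee_le ψ θ
  have h2 := norm_add_le (z - c) (ee ψ - ee θ)
  have e2 : z + ee ψ - (c + ee θ) = z - c + (ee ψ - ee θ) := by ring
  rw [e2]
  linarith

theorem CTriAux.six {a b i j x y : Fin 5} (h : [a, b, i, j, x, y].Nodup) : False := by
  have := h.length_le_card
  simp at this

theorem CTriAux.hex2 (φ : ℝ) : ee φ + ee (φ + 2 * π / 3) = ee (φ + π / 3) := by
  have := ee_hex (φ + π / 3)
  rw [show φ + π / 3 - π / 3 = φ by ring, show φ + π / 3 + π / 3 = φ + 2 * π / 3 by ring] at this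
  exact this

theorem CTriAux.sin_ne : sin (2 * π / 3) ≠ 0 :=
  (sin_pos_of_pos_of_lt_pi (by positivity) (by linarith [pi_pos])).ne'

/-- rigidity of three-coloured unit triangles -/
theorem Cfg.tri (h : Cfg F) {a b : Fin 5} (hab : a ≠ b) (p : ℂ) (φ : ℝ) (hp : p ∈ RR F a b)
    (hq : p + ee φ ∈ RR F a b) (hr : p + ee (φ + π / 3) ∈ RR F a b) :
    ∃ c, p ∈ interior (F c) := by
  by_contra hcon
  obtain ⟨i, hi⟩ := h.cover p
  obtain ⟨j, hji, hj⟩ : ∃ j, j ≠ i ∧ p ∈ F j := by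
    by_contra hn
    exact hcon ⟨i, h.mem_int fun l hl hm => hn ⟨l, hl, hm⟩⟩
  have hia : i ≠ a := fun e => hp.1 (e ▸ hi)
  have hib : i ≠ b := fun e => hp.2 (e ▸ hi)
  have hja : j ≠ a := fun e => hp.1 (e ▸ hj)
  have hjb : j ≠ b := fun e => hp.2 (e ▸ hj)
  have ho := h.isOpen_RR a b
  obtain ⟨ρ1, hρ1, b1⟩ := Metric.isOpen_iff.1 ho _ hp
  obtain ⟨ρ2, hρ2, b2⟩ := Metric.isOpen_iff.1 ho _ hq
  obtain ⟨ρ3, hρ3, b3⟩ := Metric.isOpen_iff.1 ho _ hr
  obtain ⟨ρ, hρ, r1, r2, r3⟩ : ∃ ρ, 0 < ρ ∧ ρ ≤ ρ1 ∧ ρ ≤ ρ2 ∧ ρ ≤ ρ3 :=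
    ⟨min ρ1 (min ρ2 ρ3), by positivity, min_le_left _ _,
      (min_le_right _ _).trans (min_le_left _ _), (min_le_right _ _).trans (min_le_right _ _)⟩
  have B1 := (Metric.ball_subset_ball r1).trans b1
  have B2 := (Metric.ball_subset_ball r2).trans b2
  have B3 := (Metric.ball_subset_ball r3).trans b3
  have hη : 0 < ρ / 2 := by positivity
  obtain ⟨δ1, hδ1, H1⟩ := two_step_open (φ + π / 3) (φ - π / 3)
    (by rw [show φ + π / 3 - (φ - π / 3) = 2 * π / 3 by ring]; exact CTriAux.sin_ne) _ hη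
  obtain ⟨δ2, hδ2, H2⟩ := two_step_open φ (φ + 2 * π / 3)
    (by
      rw [show φ - (φ + 2 * π / 3) = -(2 * π / 3) by ring, sin_neg]
      exact neg_ne_zero.2 CTriAux.sin_ne) _ hη
  obtain ⟨d, hd, d1, d2, d3⟩ : ∃ d, 0 < d ∧ d ≤ ρ / 2 ∧ d ≤ δ1 / 2 ∧ d ≤ δ2 / 2 :=
    ⟨min (ρ / 2) (min (δ1 / 2) (δ2 / 2)), by positivity, min_le_left _ _,
      (min_le_right _ _).trans (min_le_left _ _), (min_le_right _ _).trans (min_le_right _ _)⟩
  -- the points near q and r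
  obtain ⟨q', hq', hq2⟩ := Metric.mem_closure_iff.1 (h.dense_int (p + ee φ)) d hd
  obtain ⟨r', hr', hr2⟩ := Metric.mem_closure_iff.1 (h.dense_int (p + ee (φ + π / 3))) d hd
  obtain ⟨m, hm⟩ := Set.mem_iUnion.1 hq'
  obtain ⟨m', hm'⟩ := Set.mem_iUnion.1 hr'
  rw [dist_comm, dist_eq_norm] at hq2 hr2
  have hqR : q' ∈ RR F a b := B2 (by rw [Metric.mem_ball, dist_eq_norm]; linarith)
  have hrR : r' ∈ RR F a b := B3 (by rw [Metric.mem_ball, dist_eq_norm]; linarith)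
  have e1 : p + ee φ + ee (φ + 2 * π / 3) = p + ee (φ + π / 3) := by
    rw [add_assoc, CTriAux.hex2]
  have e2 : p + ee φ + ee (φ + 2 * π / 3 + π / 3) = p := by
    rw [show φ + 2 * π / 3 + π / 3 = φ + π by ring, ee_add_pi]; ring
  have e3 : p + ee (φ + π / 3) + ee (φ + 4 * π / 3) = p := by
    rw [show φ + 4 * π / 3 = φ + π / 3 + π by ring, ee_add_pi]; ring
  have e4 : p + ee (φ + π / 3) + ee (φ + 4 * π / 3 + π / 3) = p + ee φ := by
    rw [show φ + 4 * π / 3 + π / 3 = φ - π / 3 + 2 * π by ring, ee_add_two_pi, ← ee_hex φ]; ring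
  obtain ⟨u, u', -, -, -, hu⟩ := h.arc_mono hab (i := m)
    (fun e => hqR.1 (e ▸ interior_subset hm)) (fun e => hqR.2 (e ▸ interior_subset hm)) hm
    (φ + 2 * π / 3) (ρ / 2) hη.le fun ψ hψ =>
      ⟨CTriAux.near B3 e1 (by linarith) hψ,
        CTriAux.near B1 e2 (by linarith) (by rwa [add_sub_add_right_eq_sub])⟩
  obtain ⟨v', v, -, -, -, hv⟩ := h.arc_mono hab (i := m')
    (fun e => hrR.1 (e ▸ interior_subset hm')) (fun e => hrR.2 (e ▸ interior_subset hm')) hm'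
    (φ + 4 * π / 3) (ρ / 2) hη.le fun ψ hψ =>
      ⟨CTriAux.near B1 e3 (by linarith) hψ,
        CTriAux.near B2 e4 (by linarith) (by rwa [add_sub_add_right_eq_sub])⟩
  have key : ∀ l, l ≠ a → l ≠ b → p ∈ F l →
      v ≠ u ∧ v ≠ l ∧ u ≠ l ∧ v ≠ a ∧ v ≠ b ∧ u ≠ a ∧ u ≠ b := by
    intro l hla hlb hl
    obtain ⟨p', hp', hp2⟩ := Metric.mem_closure_iff.1 (h.reg l hl) d hd
    rw [dist_comm, dist_eq_norm] at hp2
    have hR : ∀ ψ, |ψ - φ| ≤ ρ / 2 → p' + ee ψ ∈ RR F a b ∧ p' + ee (ψ + π / 3) ∈ RR F a b :=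
      fun ψ hψ => ⟨CTriAux.near B2 rfl (by linarith) hψ,
        CTriAux.near B3 rfl (by linarith) (by rwa [add_sub_add_right_eq_sub])⟩
    obtain ⟨x, y, hxy, hxl, hyl, hx⟩ := h.arc_mono hab hla hlb hp' φ (ρ / 2) hη.le hR
    have hyu : y = u := by
      refine CTriAux.cross h (p' := p') (q' := q') H1 ?_ (fun s hs => ?_) fun s hs => ?_
      · have e : q' - p' - (ee (φ + π / 3) + ee (φ - π / 3)) = (q' - (p + ee φ)) - (p' - p) := by
          rw [← ee_hex φ]; ring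
        have := norm_sub_le (q' - (p + ee φ)) (p' - p)
        rw [e]; linarith
      · have := (hx (s - π / 3) (by rwa [show s - π / 3 - φ = s - (φ + π / 3) by ring])).2
        rwa [sub_add_cancel] at this
      · exact (hu (s + π) (by rwa [show s + π - (φ + 2 * π / 3) = s - (φ - π / 3) by ring])).1
    have hxv : x = v := by
      refine CTriAux.cross h (p' := p') (q' := r') H2 ?_ (fun s hs => (hx s hs).1) fun s hs => ?_
      · have e : r' - p' - (ee φ + ee (φ + 2 * π / 3)) =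
            (r' - (p + ee (φ + π / 3))) - (p' - p) := by
          rw [CTriAux.hex2]; ring
        have := norm_sub_le (r' - (p + ee (φ + π / 3))) (p' - p)
        rw [e]; linarith
      · have := (hv (s + 2 * π / 3)
          (by rwa [show s + 2 * π / 3 - (φ + 4 * π / 3) = s - (φ + 2 * π / 3) by ring])).2
        rwa [show s + 2 * π / 3 + π / 3 = s + π by ring] at this
    subst hyu hxv
    have h0 : |φ - φ| ≤ ρ / 2 := by rw [sub_self, abs_zero]; exact hη.le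
    obtain ⟨R1, R2⟩ := hR φ h0
    obtain ⟨I1, I2⟩ := hx φ h0
    exact ⟨hxy, hxl, hyl, fun e => R1.1 (e ▸ interior_subset I1),
      fun e => R1.2 (e ▸ interior_subset I1), fun e => R2.1 (e ▸ interior_subset I2),
      fun e => R2.2 (e ▸ interior_subset I2)⟩
  obtain ⟨k1, k2, k3, k4, k5, k6, k7⟩ := key i hia hib hi
  obtain ⟨-, k8, k9, -⟩ := key j hja hjb hj
  refine CTriAux.six (a := a) (b := b) (i := i) (j := j) (x := v) (y := u) ?_
  simp [hab, hia.symm, hib.symm, hja.symm, hjb.symm, hji.symm, k1, k2.symm, k3.symm, k4.symm,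
    k5.symm, k6.symm, k7.symm, k8.symm, k9.symm]

theorem Cfg.tri' (h : Cfg F) {a b : Fin 5} (hab : a ≠ b) (p : ℂ) (φ : ℝ) (hp : p ∈ RR F a b)
    (hq : p + ee φ ∈ RR F a b) (hr : p + ee (φ + π / 3) ∈ RR F a b) :
    ∃ c, p + ee (φ + π / 3) ∈ interior (F c) := by
  refine h.tri hab _ (φ + π / 3 + π) hr ?_ ?_
  · rw [ee_add_pi, add_neg_cancel_right]; exact hp
  · have e : p + ee (φ + π / 3) + ee (φ + π / 3 + π + π / 3) = p + ee φ := by
      rw [show φ + π / 3 + π + π / 3 = φ - π / 3 + 2 * π by ring, ee_add_two_pi, ← ee_hex φ]; ring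
    rw [e]; exact hq

end Vale.Agent.P032
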