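import Vale.Agent.P032.CEx
import Vale.Agent.P032.CTri

open Filter Topology Real

namespace Vale.Agent.P032

variable {F : Fin 5 → Set ℂ} {a b : Fin 5} {α β : ℝ}

theorem NC.base_RR (h : NC F a b α β) {s t : ℝ} (hs : 0 < s) (hsβ : s < β) (hs1 : s ≤ 1 / 10)
    (ht1 : -(1 / 10) < t) (ht : t < 0) (hb : α + t ∈ UU F b) :
    ee (α - π / 3 + s) + ee (α + π / 3 + t) ∈ RR F a b := by
  have h1 := (cen_hex h.cfg (fun t => (h.cen t).symm) hb).1
  have h2 := (cen_hex h.cfg h.cen (h.gap s hs hsβ)).2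
  have h3 := h.cfg.RR_of_UU h1 h2
    (sin_pos_of_pos_of_lt_pi (by linarith [pi_gt_three]) (by linarith [pi_gt_three])).ne'
  rwa [add_comm, show α + s - π / 3 = α - π / 3 + s by ring,
    show α + t + π / 3 = α + π / 3 + t by ring] at h3

theorem NC.left_ev (h : NC F a b α β) {P : ℝ → Prop} (hP : ∀ᶠ t in 𝓝 (0 : ℝ), P t) {ε : ℝ}
    (hε : 0 < ε) : ∃ t, -ε < t ∧ t < 0 ∧ α + t ∈ UU F b ∧ P t := by
  obtain ⟨r, hr, hr'⟩ := Metric.eventually_nhds_iff.1 hP
  obtain ⟨t, h1, h2, h3⟩ := h.left (min r ε) (lt_min hr hε)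
  refine ⟨t, by linarith [min_le_right r ε], h2, h3, hr' ?_⟩
  rw [Real.dist_eq, sub_zero, abs_of_neg h2]
  linarith [min_le_left r ε]

theorem NC.exists_armC (h : NC F a b α β) : ∃ c, c ≠ a ∧ c ≠ b ∧ ArmC F α c := by
  obtain ⟨ε, hε, hβ, h10, H⟩ := h.tri_ex
  have hc := continuous_ee
  have ho := h.cfg.isOpen_RR a b
  obtain ⟨c, h1, h2, h3⟩ := arm_of_approx (a := a) (b := b) h.cfg
    (fun s => ee (α - π / 3 + s) + ee (α + π / 3)) (by fun_prop) (ε / 2) (by positivity)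
    fun s₁ δ hs₁ _ hδ => by
      have key := (isCompact_Icc (a := s₁) (b := ε / 2)).eventually_forall_of_forall_eventually
        (x₀ := (0 : ℝ)) (P := fun t s => ∃ φ,
          ee (α - π / 3 + s) + ee (α + π / 3 + t) + ee φ ∈ RR F a b ∧
          ee (α - π / 3 + s) + ee (α + π / 3 + t) + ee (φ + π / 3) ∈ RR F a b) fun s hs => by
          have s0 : 0 < s := hs₁.trans_le hs.1
          obtain ⟨d, hd, hd'⟩ := ivt_t α s ε s0 (by linarith [hs.2]) hε (by linarith)
          obtain ⟨s', a1, a2, a3⟩ := h.left (min d ε) (lt_min hd hε)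
          obtain ⟨t', b1, b2, b3⟩ := hd' s' (by linarith [min_le_left d ε]) a2
          obtain ⟨φ, -, c1, c2⟩ := H s s' t' s0 (by linarith [hs.2])
            (by linarith [min_le_right d ε]) a2 b1 b2 a3 b3
          have e : ∀ ψ, ee (α - π / 3 + s) + ee (α + π / 3) + ee ψ ∈ RR F a b →
              ∀ᶠ z : ℝ × ℝ in 𝓝 (0, s),
                ee (α - π / 3 + z.2) + ee (α + π / 3 + z.1) + ee ψ ∈ RR F a b := fun ψ hψ =>
            (show Continuous fun z : ℝ × ℝ =>
              ee (α - π / 3 + z.2) + ee (α + π / 3 + z.1) + ee ψ by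
                fun_prop).continuousAt.eventually_mem (ho.mem_nhds (by simpa using hψ))
          filter_upwards [e _ c1, e _ c2] with z z1 z2 using ⟨φ, z1, z2⟩
      obtain ⟨t, t1, t2, t3, t4⟩ := h.left_ev key (lt_min hδ (by norm_num : (0 : ℝ) < 1 / 10))
      refine ⟨ee (α + π / 3 + t) - ee (α + π / 3), (norm_ee_sub_ee_le _ _).trans ?_,
        fun s hs hs' => ?_⟩
      · rw [add_sub_cancel_left, abs_of_neg t2]
        linarith [min_le_left δ (1 / 10)]
      · obtain ⟨φ, c1, c2⟩ := t4 s ⟨hs, hs'⟩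
        have c0 := h.base_RR (hs₁.trans_le hs) (by linarith) (by linarith)
          (by linarith [min_le_right δ (1 / 10)]) t2 t3
        rw [add_assoc, add_sub_cancel]
        exact ⟨c0, h.cfg.tri h.ne _ φ c0 c1 c2⟩
  exact ⟨c, h1, h2, ε / 2, by positivity, h3⟩

end Vale.Agent.P032
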