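import Vale.Agent.P032.CArmC

open Filter Topology Real

namespace Vale.Agent.P032

variable {F : Fin 5 → Set ℂ} {a b : Fin 5} {α β : ℝ}

theorem NC.exists_armD_next (h : NC F a b α β) :
    ∃ c, c ≠ a ∧ c ≠ b ∧ ArmD F (α + π / 3) c := by
  obtain ⟨ε, hε, hβ, h10, H⟩ := h.tri_ex
  have hc := continuous_ee
  have ho := h.cfg.isOpen_RR a b
  have pi := pi_gt_three
  have rot : ∀ φ, ee (-(π / 3)) * ee (φ + π / 3) = ee φ := fun φ => by
    rw [← ee_add]
    congr 1
    ring
  obtain ⟨c, h1, h2, h3⟩ := arm_of_approx (a := a) (b := b) h.cfg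
    (fun t => ee α + ee (α + 2 * π / 3 + t)) (by fun_prop) (ε / 2) (by positivity)
    fun t₁ δ ht₁ _ hδ => by
      obtain ⟨d, hd, hd'⟩ := ivt_s α t₁ (ε / 2) ht₁ (by positivity) (by linarith)
      obtain ⟨s', a1, a2, a3⟩ := h.left (min (min d ε) (δ / 2))
        (lt_min (lt_min hd hε) (by positivity))
      have m1 := (min_le_left (min d ε) (δ / 2)).trans (min_le_left d ε)
      have m2 := (min_le_left (min d ε) (δ / 2)).trans (min_le_right d ε)
      have m3 := min_le_right (min d ε) (δ / 2)
      have hZ : IsCompact (Set.Icc (0 : ℝ) (ε / 2) ×ˢ Set.Icc t₁ (ε / 2) ∩ {y : ℝ × ℝ |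
          ‖(ee (α + s') + ee (α + 2 * π / 3 + y.2)) -
            (ee (α - π / 3 + y.1) + ee (α + π / 3))‖ = 1}) :=
        (isCompact_Icc.prod isCompact_Icc).inter_right (isClosed_eq (by fun_prop) continuous_const)
      have key := hZ.eventually_forall_of_forall_eventually (x₀ := (0 : ℝ)) (P := fun t y =>
        ee (α - π / 3 + y.1) + ee (α + π / 3 + t) + ee (-(π / 3)) *
          ((ee (α + s') + ee (α + 2 * π / 3 + y.2)) - (ee (α - π / 3 + y.1) + ee (α + π / 3))) ∈
            RR F a b ∧ ee (α + s') + ee (α + 2 * π / 3 + y.2) +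
              (ee (α + π / 3 + t) - ee (α + π / 3)) ∈ RR F a b) fun y hy => by
          obtain ⟨⟨⟨y1, y2⟩, y3, y4⟩, y5⟩ := hy
          have y0 : 0 < y.1 := by
            refine y1.lt_of_ne fun e => ?_
            rw [Set.mem_ofPred_eq, ← e, add_zero, ee_hex] at y5
            refine ((norm_three_lt_one _ _ _).2 ?_).ne y5
            refine mul_neg_of_neg_of_pos (mul_neg_of_pos_of_neg ?_ ?_) ?_
            · exact cos_pos_of_mem_Ioo ⟨by linarith, by linarith⟩
            · exact sin_neg_of_neg_of_neg_pi_lt (by linarith) (by linarith)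
            · exact sin_pos_of_pos_of_lt_pi (by linarith) (by linarith)
          obtain ⟨φ, c0, c1, c2⟩ := H y.1 s' y.2 y0 (by linarith) (by linarith) a2 (by linarith)
            (by linarith) a3 y5
          refine Eventually.and
            (ContinuousAt.eventually_mem (by fun_prop) (ho.mem_nhds ?_))
            (ContinuousAt.eventually_mem (by fun_prop) (ho.mem_nhds ?_))
          · simpa only [c0, add_zero, add_sub_cancel_left, rot] using c1
          · simpa only [c0, add_zero, sub_self] using c2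
      obtain ⟨t, t1, t2, t3, t4⟩ := h.left_ev key
        (lt_min (half_pos hδ) (by norm_num : (0 : ℝ) < 1 / 10))
      refine ⟨ee (α + s') - ee α + (ee (α + π / 3 + t) - ee (α + π / 3)),
        (norm_add_le_of_le (norm_ee_sub_ee_le _ _) (norm_ee_sub_ee_le _ _)).trans ?_,
        fun t' hs hs' => ?_⟩
      · rw [add_sub_cancel_left, add_sub_cancel_left, abs_of_neg t2, abs_of_neg a2]
        linarith [min_le_left (δ / 2) (1 / 10)]
      · obtain ⟨s, b1, b2, b3⟩ := hd' s' (by linarith) a2 t' hs (by linarith)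
        obtain ⟨c1, c2⟩ := t4 (s, t') ⟨⟨⟨b1.le, b2.le⟩, hs, hs'⟩, b3⟩
        obtain ⟨φ, e, -⟩ := H s s' t' b1 (by linarith) (by linarith) a2 (by linarith)
          (by linarith) a3 b3
        have c0 := h.base_RR b1 (by linarith) (by linarith)
          (by linarith [min_le_right (δ / 2) (1 / 10)]) t2 t3
        have e1 : ee α + ee (α + 2 * π / 3 + t') +
            (ee (α + s') - ee α + (ee (α + π / 3 + t) - ee (α + π / 3))) =
            ee (α - π / 3 + s) + ee (α + π / 3 + t) + ee (φ + π / 3) := by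
          linear_combination e
        have e2 : ee (α + s') + ee (α + 2 * π / 3 + t') + (ee (α + π / 3 + t) - ee (α + π / 3)) =
            ee (α - π / 3 + s) + ee (α + π / 3 + t) + ee (φ + π / 3) := by
          linear_combination e
        simp only [e2] at c2
        simp only [e, add_sub_cancel_left, rot] at c1
        rw [e1]
        exact ⟨c2, h.cfg.tri' h.ne _ φ c0 c1 c2⟩
  refine ⟨c, h1, h2, ε / 2, by positivity, fun t t0 t1 => ?_⟩
  rw [add_sub_cancel_right, show α + π / 3 + π / 3 + t = α + 2 * π / 3 + t by ring]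
  exact h3 t t0 t1

theorem NC.exists_armD (h : NC F a b α β) : ∃ c, c ≠ a ∧ c ≠ b ∧ ArmD F α c := by
  obtain ⟨c, h1, h2, h3⟩ := h.prev.exists_armD_next
  exact ⟨c, h2, h1, by rwa [sub_add_cancel] at h3⟩

end Vale.Agent.P032
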