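import Vale.Agent.P032.CGeo

open Filter Topology Real

namespace Vale.Agent.P032

variable {F : Fin 5 → Set ℂ}

/-- an open free set is free from its closure -/
theorem free_closure {O : Set ℂ} (ho : IsOpen O) (hf : Free O) {x y : ℂ} (hx : x ∈ closure O)
    (hy : y ∈ O) : ‖x - y‖ ≠ 1 := by
  intro h
  have hop : IsOpen {z : ℂ | z + (y - x) ∈ O} := ho.preimage (by fun_prop)
  obtain ⟨z, hz1, hz2⟩ := mem_closure_iff.1 hx _ hop (by simpa using hy)
  refine hf z hz2 _ hz1 ?_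
  rw [show z - (z + (y - x)) = x - y by ring, h]

theorem free_int_closure {O : Set ℂ} (ho : IsOpen O) (hf : Free O) {x y : ℂ} (hx : x ∈ closure O)
    (hy : y ∈ interior (closure O)) : ‖x - y‖ ≠ 1 := by
  intro h
  have hop : IsOpen {z : ℂ | z + (y - x) ∈ interior (closure O)} :=
    isOpen_interior.preimage (by fun_prop)
  obtain ⟨z, hz1, hz2⟩ := mem_closure_iff.1 hx _ hop (by simpa using hy)
  refine free_closure ho hf (interior_subset hz1) hz2 ?_
  rw [show z + (y - x) - z = -(x - y) by ring, norm_neg, h]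

theorem exists_cfg (O : Fin 5 → Set ℂ) (ho : ∀ i, IsOpen (O i)) (hf : ∀ i, Free (O i))
    (hd : Dense (⋃ i, O i)) : ∃ F : Fin 5 → Set ℂ, Cfg F := by
  classical
  let O' : Fin 5 → Set ℂ := fun i => O i \ ⋃ j ∈ Finset.univ.filter (· < i), closure (O j)
  have ho' : ∀ i, IsOpen (O' i) := fun i =>
    (ho i).sdiff (isClosed_biUnion_finset fun j _ => isClosed_closure)
  have hf' : ∀ i, Free (O' i) := fun i x hx y hy => hf i x hx.1 y hy.1
  have hdisj : ∀ i j, i ≠ j → Disjoint (O' i) (O' j) := by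
    have key : ∀ i j, i < j → Disjoint (O' i) (O' j) := by
      intro i j hij
      rw [Set.disjoint_left]
      intro z hz hz'
      exact hz'.2 (Set.mem_biUnion (x := i) (by simpa using hij) (subset_closure hz.1))
    intro i j hij
    rcases lt_or_gt_of_ne hij with h | h
    · exact key i j h
    · exact (key j i h).symm
  have hcov : ∀ z, ∃ i, z ∈ closure (O' i) := by
    intro z
    have hd' : z ∈ closure (⋃ i, O' i) := by
      refine _root_.mem_closure_iff.2 fun V hV hzV => ?_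
      let S : Finset (Fin 5) := Finset.univ.filter fun i => (V ∩ O i).Nonempty
      have hS : S.Nonempty := by
        obtain ⟨w, hw1, hw2⟩ := hd.inter_open_nonempty V hV ⟨z, hzV⟩
        obtain ⟨i, hi⟩ := Set.mem_iUnion.1 hw2
        exact ⟨i, by simpa [S] using ⟨w, hw1, hi⟩⟩
      have hm := S.min'_mem hS
      obtain ⟨w, hw1, hw2⟩ : (V ∩ O (S.min' hS)).Nonempty := by simpa [S] using hm
      refine ⟨w, hw1, Set.mem_iUnion.2 ⟨S.min' hS, hw2, ?_⟩⟩
      intro hw
      simp only [Set.mem_iUnion] at hw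
      obtain ⟨j, hj, hwj⟩ := hw
      have hj' : j < S.min' hS := by simpa using hj
      have : j ∈ S := by
        simpa [S] using mem_closure_iff.1 hwj V hV hw1
      exact absurd (S.min'_le j this) (not_le.2 hj')
    rw [closure_iUnion_of_finite] at hd'
    exact Set.mem_iUnion.1 hd'
  refine ⟨fun i => closure (O' i), fun i => isClosed_closure, hcov, fun i => ?_, fun i x hx y hy =>
    free_int_closure (ho' i) (hf' i) hx hy, fun i j hij z hz hzj => ?_⟩
  · exact closure_mono (interior_maximal subset_closure (ho' i))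
  · obtain ⟨w, hw1, hw2⟩ := mem_closure_iff.1 hzj _ isOpen_interior hz
    obtain ⟨u, hu1, hu2⟩ := mem_closure_iff.1 (interior_subset hw1) _ (ho' j) hw2
    exact Set.disjoint_left.1 (hdisj i j hij) hu2 hu1

theorem shift_eq (x : ℂ) (i : Fin 5) : shift F x i = (Homeomorph.addLeft x) ⁻¹' F i := rfl

theorem Cfg.shift (h : Cfg F) (x : ℂ) : Cfg (shift F x) := by
  refine ⟨fun i => ?_, fun z => h.cover (x + z), fun i => ?_, fun i a ha b hb => ?_,
    fun i j hij z hz => ?_⟩
  · rw [shift_eq]; exact (h.closed i).preimage (Homeomorph.addLeft x).continuous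
  · rw [shift_eq, ← Homeomorph.preimage_interior, ← Homeomorph.preimage_closure]
    exact Set.preimage_mono (h.reg i)
  · rw [shift_eq, ← Homeomorph.preimage_interior] at hb
    have := h.free i (x + a) ha (x + b) hb
    rwa [show x + a - (x + b) = a - b by ring] at this
  · rw [shift_eq, ← Homeomorph.preimage_interior] at hz
    exact h.disj i j hij (x + z) hz

theorem Cfg.perm (h : Cfg F) (σ : Fin 5 → Fin 5) (hσ : Function.Bijective σ) : Cfg (F ∘ σ) := by
  refine ⟨fun i => h.closed _, fun z => ?_, fun i => h.reg _, fun i => h.free _,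
    fun i j hij => h.disj _ _ fun e => hij (hσ.1 e)⟩
  obtain ⟨i, hi⟩ := h.cover z
  obtain ⟨j, rfl⟩ := hσ.2 i
  exact ⟨j, hi⟩

theorem adj_shift (x : ℂ) (a b : Fin 5) : Adj (shift F x) 0 a b ↔ Adj F x a b := by
  have : Pur (shift F x) a b = (Homeomorph.addLeft x) ⁻¹' Pur F a b := rfl
  unfold Adj
  rw [this, ← Homeomorph.preimage_closure]
  simp

theorem adj_perm (σ : Fin 5 → Fin 5) (hσ : Function.Bijective σ) (y : ℂ) (a b : Fin 5) :
    Adj (F ∘ σ) y a b ↔ Adj F y (σ a) (σ b) := by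
  have : Pur (F ∘ σ) a b = Pur F (σ a) (σ b) := by
    ext z
    simp only [Pur, Set.mem_setOf_eq, Function.comp]
    constructor
    · rintro ⟨h1, h2, h3, h4⟩
      refine ⟨fun e => h1 (hσ.1 e), h2, h3, fun l hl hl' => ?_⟩
      obtain ⟨m, rfl⟩ := hσ.2 l
      exact h4 m (fun e => hl (e ▸ rfl)) (fun e => hl' (e ▸ rfl))
    · rintro ⟨h1, h2, h3, h4⟩
      exact ⟨fun e => h1 (e ▸ rfl), h2, h3, fun l hl hl' =>
        h4 _ (fun e => hl (hσ.1 e)) (fun e => hl' (hσ.1 e))⟩
  unfold Adj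
  rw [this]

theorem Adj.symm {y : ℂ} {a b : Fin 5} (h : Adj F y a b) : Adj F y b a := by
  refine closure_mono (fun z hz => ?_) h
  exact ⟨hz.1.symm, hz.2.2.1, hz.2.1, fun l h1 h2 => hz.2.2.2 l h2 h1⟩

theorem Adj.mem (hF : Cfg F) {y : ℂ} {a b : Fin 5} (h : Adj F y a b) :
    a ≠ b ∧ y ∈ F a ∧ y ∈ F b := by
  refine ⟨?_, (hF.closed a).closure_subset_iff.2 (fun z hz => hz.2.1) h,
    (hF.closed b).closure_subset_iff.2 (fun z hz => hz.2.2.1) h⟩
  obtain ⟨z, hz⟩ := closure_nonempty_iff.1 ⟨y, h⟩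
  exact hz.1

theorem Cfg.dense_int (h : Cfg F) : Dense (⋃ i, interior (F i)) := by
  intro z
  obtain ⟨i, hi⟩ := h.cover z
  exact closure_mono (Set.subset_iUnion (fun i => interior (F i)) i) (h.reg i hi)

theorem Cfg.mem_int (h : Cfg F) {z : ℂ} {a : Fin 5} (hz : ∀ l, l ≠ a → z ∉ F l) :
    z ∈ interior (F a) := by
  have hop : IsOpen (⋂ l : {l : Fin 5 // l ≠ a}, (F l)ᶜ) :=
    isOpen_iInter_of_finite fun l => (h.closed l).isOpen_compl
  refine interior_maximal (fun w hw => ?_) hop (Set.mem_iInter.2 fun l => hz l l.2)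
  obtain ⟨i, hi⟩ := h.cover w
  by_cases e : i = a
  · exact e ▸ hi
  · exact absurd hi (Set.mem_iInter.1 hw ⟨i, e⟩)

theorem Cfg.isOpen_RR (h : Cfg F) (a b : Fin 5) : IsOpen (RR F a b) :=
  (h.closed a).isOpen_compl.inter (h.closed b).isOpen_compl

/-- a connected set of interior points is monochromatic -/
theorem Cfg.mono_conn (h : Cfg F) {S : Set ℂ} (hS : IsPreconnected S) (hne : S.Nonempty)
    (hm : ∀ z ∈ S, ∃ c, z ∈ interior (F c)) : ∃ c, S ⊆ interior (F c) := by
  obtain ⟨z, hz⟩ := hne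
  obtain ⟨c, hc⟩ := hm z hz
  refine ⟨c, hS.subset_left_of_subset_union (v := ⋃ l : {l : Fin 5 // l ≠ c}, interior (F l))
    isOpen_interior (isOpen_iUnion fun _ => isOpen_interior) ?_ ?_ ⟨z, hz, hc⟩⟩
  · rw [Set.disjoint_left]
    intro w hw hw'
    obtain ⟨l, hl⟩ := Set.mem_iUnion.1 hw'
    exact h.disj c l (Ne.symm l.2) w hw (interior_subset hl)
  · intro w hw
    obtain ⟨l, hl⟩ := hm w hw
    by_cases e : l = c
    · exact Or.inl (e ▸ hl)
    · exact Or.inr (Set.mem_iUnion.2 ⟨⟨l, e⟩, hl⟩)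

/-- shadow lemma -/
theorem Cfg.shadow (h : Cfg F) {K : Set ℂ} (hK : IsPreconnected K) {i : Fin 5} (hKi : K ⊆ F i)
    {w p q : ℂ} (hp : p ∈ K) (hq : q ∈ K) (h1 : ‖w - p‖ < 1) (h2 : 1 < ‖w - q‖) : w ∉ F i := by
  intro hw
  have hop : IsOpen {u : ℂ | ‖u - p‖ < 1 ∧ 1 < ‖u - q‖} :=
    (isOpen_lt (f := fun u : ℂ => ‖u - p‖) (by fun_prop) continuous_const).inter
      (isOpen_lt (g := fun u : ℂ => ‖u - q‖) continuous_const (by fun_prop))
  obtain ⟨u, ⟨hu1, hu2⟩, hu⟩ := mem_closure_iff.1 (h.reg i hw) _ hop ⟨h1, h2⟩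
  have hc : ContinuousOn (fun x : ℂ => ‖u - x‖) K := by fun_prop
  obtain ⟨x, hx, hx1⟩ := hK.intermediate_value hp hq hc ⟨hu1.le, hu2.le⟩
  refine h.free i x (hKi hx) u hu ?_
  rw [norm_sub_rev]; exact hx1

/-- shadow of a path -/
theorem Cfg.shadow_path (h : Cfg F) {γ : ℝ → ℂ} (hγ : Continuous γ) {i : Fin 5} {l r : ℝ}
    (hi : ∀ s, l ≤ s → s ≤ r → γ s ∈ F i) {w : ℂ} {s s' : ℝ} (hs : l ≤ s ∧ s ≤ r)
    (hs' : l ≤ s' ∧ s' ≤ r) (h1 : ‖w - γ s‖ < 1) (h2 : 1 < ‖w - γ s'‖) : w ∉ F i :=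
  h.shadow (K := γ '' Set.Icc l r) (isPreconnected_Icc.image γ hγ.continuousOn)
    (by rintro _ ⟨u, hu, rfl⟩; exact hi u hu.1 hu.2) ⟨s, hs, rfl⟩ ⟨s', hs', rfl⟩ h1 h2

theorem isOpen_UU (i : Fin 5) : IsOpen (UU F i) := isOpen_interior

theorem UU_mem {i : Fin 5} {t : ℝ} (ht : t ∈ UU F i) : ee t ∈ F i :=
  (interior_subset ht : t ∈ {t : ℝ | ee t ∈ F i})

theorem UU_add_two_pi {i : Fin 5} (t : ℝ) : t + 2 * π ∈ UU F i ↔ t ∈ UU F i := by
  have : (Homeomorph.addRight (2 * π)) ⁻¹' {t : ℝ | ee t ∈ F i} = {t : ℝ | ee t ∈ F i} := by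
    ext s; simp [ee_add_two_pi]
  unfold UU
  conv_rhs => rw [← this, ← Homeomorph.preimage_interior]
  simp

theorem Cfg.UU_two (h : Cfg F) {i : Fin 5} {t : ℝ} (ht : t ∈ UU F i) (s : ℝ)
    (hs : sin (t - s) ≠ 0) : ee t + ee s ∉ F i := by
  obtain ⟨η, hη, hb⟩ := Metric.isOpen_iff.1 (isOpen_UU i) t ht
  -- P(u) = cos((t-s)/2) sin((s-t-u)/2) keeps its sign near 0
  have hP0 : cos ((t - s) / 2) * sin ((s - t) / 2) ≠ 0 := by
    intro e
    apply hs
    have : sin (t - s) = 2 * sin ((t - s) / 2) * cos ((t - s) / 2) := by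
      rw [← sin_two_mul]; congr 1; ring
    rw [this, show (t - s) / 2 = -((s - t) / 2) by ring, sin_neg,
      show -((s - t) / 2) = (t - s) / 2 by ring]
    linear_combination (-2) * e
  set P : ℝ → ℝ := fun u => cos ((t - s) / 2) * sin ((s - t) / 2) *
    (cos ((t - s) / 2) * sin ((s - (t + u)) / 2)) with hP
  have hPc : Continuous P := by rw [hP]; fun_prop
  have hPpos : 0 < P 0 := by
    simp only [hP, add_zero]
    exact mul_self_pos.2 hP0
  obtain ⟨δ, hδ, hδP⟩ := Metric.isOpen_iff.1 (isOpen_lt continuous_const hPc) 0 hPpos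
  set u := min (min η δ) 1 / 2 with hu
  have hu0 : 0 < u := by positivity
  have hu1 : u < η := by
    have := min_le_left (min η δ) 1; have := min_le_left η δ; linarith
  have hu2 : u < δ := by
    have := min_le_left (min η δ) 1; have := min_le_right η δ; linarith
  have hu3 : u ≤ 1 / 2 := by have := min_le_right (min η δ) 1; linarith
  have hsin : 0 < sin (u / 2) := sin_pos_of_pos_of_lt_pi (by linarith) (by linarith [pi_gt_three])
  have hp1 : 0 < P u := hδP (by simpa [abs_of_pos hu0] using hu2)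
  have hp2 : 0 < P (-u) := hδP (by simpa [abs_of_pos hu0] using hu2)
  have hin : ∀ v, t - u ≤ v → v ≤ t + u → ee v ∈ F i := fun v h1 h2 =>
    UU_mem (hb (by rw [Metric.mem_ball, Real.dist_eq, abs_lt]; constructor <;> linarith))
  have e1 : sin ((t - (t + u)) / 2) = -sin (u / 2) := by
    rw [← sin_neg]; congr 1; ring
  have e2 : sin ((t - (t - u)) / 2) = sin (u / 2) := by congr 1; ring
  simp only [hP] at hp1 hp2
  rw [show t + -u = t - u by ring] at hp2
  rcases lt_or_gt_of_ne hP0 with hn | hn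
  · have a1 : cos ((t - s) / 2) * sin ((s - (t + u)) / 2) < 0 := by
      by_contra hc; push Not at hc; nlinarith
    have a2 : cos ((t - s) / 2) * sin ((s - (t - u)) / 2) < 0 := by
      by_contra hc; push Not at hc; nlinarith
    refine h.shadow_path continuous_ee hin (s := t - u) (s' := t + u) ⟨le_rfl, by linarith⟩
      ⟨by linarith, le_rfl⟩ ?_ ?_
    · rw [norm_three_lt_one, e2]; nlinarith
    · rw [one_lt_norm_three, e1]; nlinarith
  · have a1 : 0 < cos ((t - s) / 2) * sin ((s - (t + u)) / 2) := by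
      by_contra hc; push Not at hc; nlinarith
    have a2 : 0 < cos ((t - s) / 2) * sin ((s - (t - u)) / 2) := by
      by_contra hc; push Not at hc; nlinarith
    refine h.shadow_path continuous_ee hin (s := t + u) (s' := t - u) ⟨by linarith, le_rfl⟩
      ⟨le_rfl, by linarith⟩ ?_ ?_
    · rw [norm_three_lt_one, e1]; nlinarith
    · rw [one_lt_norm_three, e2]; nlinarith

theorem Cfg.UU_hex (h : Cfg F) {i : Fin 5} {t : ℝ} (ht : t ∈ UU F i) :
    ee (t + π / 3) ∉ F i ∧ ee (t - π / 3) ∉ F i := by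
  have hs : sin (2 * π / 3) ≠ 0 :=
    (sin_pos_of_pos_of_lt_pi (by positivity) (by linarith [pi_pos])).ne'
  constructor
  · have := h.UU_two ht (t + 2 * π / 3) (by
      rw [show t - (t + 2 * π / 3) = -(2 * π / 3) by ring, sin_neg]; exact neg_ne_zero.2 hs)
    rwa [← ee_hex (t + π / 3), show t + π / 3 - π / 3 = t by ring,
      show t + π / 3 + π / 3 = t + 2 * π / 3 by ring]
  · have := h.UU_two ht (t - 2 * π / 3) (by
      rw [show t - (t - 2 * π / 3) = 2 * π / 3 by ring]; exact hs)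
    rwa [← ee_hex (t - π / 3), show t - π / 3 + π / 3 = t by ring,
      show t - π / 3 - π / 3 = t - 2 * π / 3 by ring, add_comm]

end Vale.Agent.P032
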