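import Vale.Agent.P032.CBas

open Filter Topology Real

namespace Vale.Agent.P032

variable {F : Fin 5 → Set ℂ} {c : Fin 5}

theorem Arm.zero_mem {θ σ : ℝ} (h : Arm F c θ σ) : (0 : ℂ) ∈ F c := by
  obtain ⟨η, hη, h⟩ := h
  simpa using h θ θ (by simpa using hη.le) (by simpa using hη.le) (by simp)

theorem CCellAux.path {θ σ v : ℝ} (h : Arm F c θ σ) (hv : σ * sin (v - θ) ≠ 0) :
    ∃ K : Set ℂ, IsPreconnected K ∧ K ⊆ F c ∧ (0 : ℂ) ∈ K ∧ ∃ q ∈ K,
      (0 < σ * sin (v - θ) → ‖ee v - q‖ < 1) ∧ (σ * sin (v - θ) < 0 → 1 < ‖ee v - q‖) := by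
  obtain ⟨η, hη, h⟩ := h
  have hσ : σ ≠ 0 := left_ne_zero_of_mul hv
  set g : ℝ → ℝ := fun r => σ * sin (v - θ) *
    (σ * (cos ((v - θ) / 2) * sin ((v - (θ + σ * r)) / 2))) with hg
  have hgc : Continuous g := by rw [hg]; fun_prop
  have hg0 : 0 < g 0 := by
    have e : sin (v - θ) = 2 * sin ((v - θ) / 2) * cos ((v - θ) / 2) := by
      rw [← sin_two_mul]; congr 1; ring
    have e2 : g 0 = (σ * sin (v - θ)) ^ 2 / 2 := by
      simp only [hg, mul_zero, add_zero]
      generalize sin ((v - θ) / 2) = a at e ⊢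
      generalize cos ((v - θ) / 2) = b at e ⊢
      rw [e]; ring
    rw [e2]; positivity
  have h1 : ∀ᶠ r in 𝓝 (0 : ℝ), 0 < g r := hgc.continuousAt.eventually (lt_mem_nhds hg0)
  have h2 : ∀ᶠ r in 𝓝 (0 : ℝ), |σ * r| < min η 1 := by
    have hc : Continuous fun r : ℝ => |σ * r| := by fun_prop
    exact hc.continuousAt.eventually (gt_mem_nhds (by simpa using hη))
  obtain ⟨r, ⟨hr1, hr2⟩, hr⟩ :=
    (((h1.and h2).filter_mono nhdsWithin_le_nhds).and (self_mem_nhdsWithin (s := Set.Ioi 0))).exists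
  have hr0 : 0 < r := hr
  have hcont : Continuous fun s : ℝ => ee (θ + σ * s) - ee θ :=
    (continuous_ee.comp (by fun_prop)).sub continuous_const
  refine ⟨(fun s : ℝ => ee (θ + σ * s) - ee θ) '' Set.Icc 0 r,
    isPreconnected_Icc.image _ hcont.continuousOn, ?_, ⟨0, ⟨le_rfl, hr0.le⟩, by simp⟩,
    _, ⟨r, ⟨hr0.le, le_rfl⟩, rfl⟩, ?_⟩
  · rintro _ ⟨s, ⟨hs0, hsr⟩, rfl⟩
    refine h _ _ ?_ (by simpa using hη.le) ?_
    · rw [add_sub_cancel_left, abs_mul, abs_of_nonneg hs0]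
      rw [abs_mul, abs_of_pos hr0] at hr2
      exact (mul_le_mul_of_nonneg_left hsr (abs_nonneg _)).trans (hr2.le.trans (min_le_left _ _))
    · rw [add_sub_cancel_left, ← mul_assoc]
      exact mul_nonneg (mul_self_nonneg σ) hs0
  · have e : ee v - (ee (θ + σ * r) - ee θ) = ee v + ee θ - ee (θ + σ * r) := by ring
    have hs : 0 < σ * sin (σ * r / 2) := by
      have h3 := abs_lt.1 (hr2.trans_le (min_le_right _ _))
      have hpi := pi_gt_three
      rcases lt_or_gt_of_ne hσ with h4 | h4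
      · have h5 : σ * r < 0 := mul_neg_of_neg_of_pos h4 hr0
        exact mul_pos_of_neg_of_neg h4 (sin_neg_of_neg_of_neg_pi_lt (by linarith) (by linarith))
      · have h5 : 0 < σ * r := mul_pos h4 hr0
        exact mul_pos h4 (sin_pos_of_pos_of_lt_pi (by linarith) (by linarith))
    have e3 : sin ((θ - (θ + σ * r)) / 2) = -sin (σ * r / 2) := by
      rw [← sin_neg]; congr 1; ring
    simp only [e]
    rw [norm_three_lt_one, one_lt_norm_three, e3]
    simp only [hg] at hr1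
    set A := cos ((v - θ) / 2) * sin ((v - (θ + σ * r)) / 2)
    set B := sin (σ * r / 2)
    set S := σ * sin (v - θ)
    have hσ2 : 0 < σ * σ := mul_self_pos.2 hσ
    constructor
    · intro hS
      have h6 : 0 < σ * A := (pos_iff_pos_of_mul_pos hr1).1 hS
      have h7 : 0 < σ * σ * (A * B) := by
        have := mul_pos h6 hs
        nlinarith
      have h8 : 0 < A * B := (pos_iff_pos_of_mul_pos h7).1 hσ2
      linarith
    · intro hS
      have h6 : σ * A < 0 := (neg_iff_neg_of_mul_pos hr1).1 hS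
      have h7 : 0 < σ * σ * (-(A * B)) := by
        have := mul_neg_of_neg_of_pos h6 hs
        nlinarith
      have h8 : 0 < -(A * B) := (pos_iff_pos_of_mul_pos h7).1 hσ2
      linarith

theorem Arm.outside (hF : Cfg F) {θ σ v : ℝ} (h : Arm F c θ σ) (hv : 0 < σ * sin (v - θ)) :
    ∃ ρ, 0 < ρ ∧ ∀ w : ℂ, ‖w - ee v‖ < ρ → 1 < ‖w‖ → w ∉ F c := by
  obtain ⟨K, hK, hKc, h0, q, hq, h1, -⟩ := CCellAux.path h hv.ne'
  have h2 := h1 hv
  refine ⟨1 - ‖ee v - q‖, by linarith, fun w hw hw1 => hF.shadow hK hKc hq h0 ?_ (by simpa)⟩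
  have := norm_sub_le_norm_sub_add_norm_sub w (ee v) q
  linarith

theorem Arm.inside (hF : Cfg F) {θ σ v : ℝ} (h : Arm F c θ σ) (hv : σ * sin (v - θ) < 0) :
    ∃ ρ, 0 < ρ ∧ ∀ w : ℂ, ‖w - ee v‖ < ρ → ‖w‖ < 1 → w ∉ F c := by
  obtain ⟨K, hK, hKc, h0, q, hq, -, h1⟩ := CCellAux.path h hv.ne
  have h2 := h1 hv
  refine ⟨‖ee v - q‖ - 1, by linarith, fun w hw hw1 => hF.shadow hK hKc h0 hq (by simpa) ?_⟩
  have := norm_sub_le_norm_sub_add_norm_sub (ee v) w q
  rw [norm_sub_rev (ee v) w] at this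
  linarith

theorem Arm.two (hF : Cfg F) {θ σ θ' σ' v : ℝ} (h : Arm F c θ σ) (h' : Arm F c θ' σ')
    (hv : 0 < σ * sin (v - θ)) (hv' : σ' * sin (v - θ') < 0) : ee v ∉ F c := by
  obtain ⟨K, hK, hKc, h0, q, hq, h1, -⟩ := CCellAux.path h hv.ne'
  obtain ⟨K', hK', hKc', h0', q', hq', -, h1'⟩ := CCellAux.path h' hv'.ne
  exact hF.shadow (hK.union 0 h0 h0' hK') (Set.union_subset hKc hKc') (Or.inl hq) (Or.inr hq')
    (h1 hv) (h1' hv')

theorem CCellAux.move {θ σ : ℝ} (h : Arm F c θ σ) :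
    ∃ η, 0 < η ∧ ∀ θ', |θ' - θ| ≤ η → Arm F c θ' σ := by
  obtain ⟨η, hη, h⟩ := h
  refine ⟨η / 2, half_pos hη, fun θ' hθ => ⟨η / 2, half_pos hη, fun s s' hs hs' h0 =>
    h s s' ?_ ?_ h0⟩⟩
  · have := abs_sub_le s θ' θ; linarith
  · have := abs_sub_le s' θ' θ; linarith

theorem Arm.both (hF : Cfg F) {θ : ℝ} (h : Arm F c θ 1) (h' : Arm F c θ (-1)) (v : ℝ) :
    ee v ∉ F c := by
  obtain ⟨θ', h1, h2, h3⟩ : ∃ θ', Arm F c θ' 1 ∧ Arm F c θ' (-1) ∧ sin (v - θ') ≠ 0 := by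
    by_cases h0 : sin (v - θ) = 0
    · obtain ⟨η, hη, hm⟩ := CCellAux.move h
      obtain ⟨η', hη', hm'⟩ := CCellAux.move h'
      set δ := min (min η η') 1 with hδ
      have hδ0 : 0 < δ := lt_min (lt_min hη hη') one_pos
      have hδ1 : δ ≤ 1 := min_le_right _ _
      have e : |θ + δ - θ| = δ := by rw [add_sub_cancel_left, abs_of_pos hδ0]
      refine ⟨θ + δ, hm _ (by rw [e]; exact (min_le_left _ _).trans (min_le_left _ _)),
        hm' _ (by rw [e]; exact (min_le_left _ _).trans (min_le_right _ _)), ?_⟩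
      have hpi := pi_gt_three
      have hs : 0 < sin δ := sin_pos_of_pos_of_lt_pi hδ0 (by linarith)
      have hc : cos (v - θ) ≠ 0 := by
        intro hc
        have := sin_sq_add_cos_sq (v - θ)
        rw [h0, hc] at this
        norm_num at this
      rw [show v - (θ + δ) = v - θ - δ by ring, sin_sub, h0, zero_mul, zero_sub]
      exact neg_ne_zero.2 (mul_ne_zero hc hs.ne')
    · exact ⟨θ, h, h', h0⟩
  rcases lt_or_gt_of_ne h3 with h4 | h4
  · exact Arm.two hF h2 h1 (by linarith) (by linarith)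
  · exact Arm.two hF h1 h2 (by linarith) (by linarith)

theorem CCellAux.miss (hF : Cfg F) (θ : ℝ) : ∃ η, 0 < η ∧ ∀ s s', |s - θ| ≤ η → |s' - θ| ≤ η →
    s ≠ s' → ∀ l, (θ ∈ UU F l ∨ θ + π ∈ UU F l) → ee s - ee s' ∉ F l := by
  have h1 : ∀ᶠ s in 𝓝 θ, ∀ l, (θ ∈ UU F l → s ∈ UU F l) ∧ (θ + π ∈ UU F l → s + π ∈ UU F l) := by
    rw [Filter.eventually_all]
    intro l
    refine Filter.Eventually.and ?_ ?_
    · by_cases h : θ ∈ UU F l
      · filter_upwards [(isOpen_UU l).mem_nhds h] with s hs _ using hs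
      · exact Filter.Eventually.of_forall fun s hs => absurd hs h
    · by_cases h : θ + π ∈ UU F l
      · have hc : Continuous fun s : ℝ => s + π := by fun_prop
        filter_upwards [hc.continuousAt.eventually ((isOpen_UU l).mem_nhds h)] with s hs _ using hs
      · exact Filter.Eventually.of_forall fun s hs => absurd hs h
  obtain ⟨ε, hε, h2⟩ := Metric.eventually_nhds_iff.1 h1
  refine ⟨min (ε / 2) 1, lt_min (half_pos hε) one_pos, fun s s' hs hs' hne l hl => ?_⟩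
  have a1 := hs.trans (min_le_left _ _)
  have a2 := hs'.trans (min_le_left _ _)
  have b1 := abs_le.1 (hs.trans (min_le_right _ _))
  have b2 := abs_le.1 (hs'.trans (min_le_right _ _))
  have hpi := pi_gt_three
  have hsin : sin (s - s') ≠ 0 := by
    rw [Ne, sin_eq_zero_iff_of_lt_of_lt (by linarith) (by linarith), sub_eq_zero]
    exact hne
  have e : ee s - ee s' = ee s + ee (s' + π) := by rw [ee_add_pi]; ring
  rw [e]
  rcases hl with hl | hl
  · refine hF.UU_two ((h2 (by rw [Real.dist_eq]; linarith) l).1 hl) _ ?_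
    rw [show s - (s' + π) = s - s' - π by ring, sin_sub_pi]
    exact neg_ne_zero.2 hsin
  · rw [add_comm]
    refine hF.UU_two ((h2 (by rw [Real.dist_eq]; linarith) l).2 hl) _ ?_
    rw [show s' + π - s = π - (s - s') by ring, sin_pi_sub]
    exact hsin

theorem CCellAux.of_open (hF : Cfg F) {θ σ η : ℝ} (hσ : σ = 1 ∨ σ = -1) (hη : 0 < η)
    (h : ∀ s s', |s - θ| ≤ η → |s' - θ| ≤ η → 0 < σ * (s - s') → ee s - ee s' ∈ F c) :
    Arm F c θ σ := by
  have hσσ : σ * σ = 1 := by rcases hσ with rfl | rfl <;> norm_num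
  have hσa : |σ| = 1 := by rcases hσ with rfl | rfl <;> norm_num
  have h0 : (0 : ℂ) ∈ F c := by
    have hcont : Continuous fun s : ℝ => ee (θ + σ * s) - ee θ :=
      (continuous_ee.comp (by fun_prop)).sub continuous_const
    have hcl := (hF.closed c).preimage hcont
    have hsub : Set.Ioo 0 η ⊆ (fun s : ℝ => ee (θ + σ * s) - ee θ) ⁻¹' F c := by
      intro s hs
      refine h _ _ ?_ (by simpa using hη.le) ?_
      · rw [add_sub_cancel_left, abs_mul, hσa, one_mul, abs_of_pos hs.1]; exact hs.2.le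
      · rw [add_sub_cancel_left, ← mul_assoc, hσσ, one_mul]; exact hs.1
    have h1 : (0 : ℝ) ∈ closure (Set.Ioo 0 η) := by
      rw [closure_Ioo hη.ne]; exact ⟨le_rfl, hη.le⟩
    simpa using hcl.closure_subset_iff.2 hsub h1
  refine ⟨η, hη, fun s s' hs hs' h1 => ?_⟩
  rcases h1.eq_or_lt with h2 | h2
  · have : s = s' := by
      rcases hσ with rfl | rfl <;> linarith
    rw [this, sub_self]; exact h0
  · exact h s s' hs hs' h2

/-- a cell missing four colours is an arm of the fifth -/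
theorem arm_of_four (hF : Cfg F) {θ : ℝ} (σ : ℝ) (hσ : σ = 1 ∨ σ = -1)
    (h : ∀ l, l ≠ c → θ ∈ UU F l ∨ θ + π ∈ UU F l) : Arm F c θ σ := by
  obtain ⟨η, hη, hm⟩ := CCellAux.miss hF θ
  refine CCellAux.of_open hF hσ hη fun s s' hs hs' h1 => ?_
  have hne : s ≠ s' := by rintro rfl; simp at h1
  obtain ⟨l, hl⟩ := hF.cover (ee s - ee s')
  by_cases hlc : l = c
  · exact hlc ▸ hl
  · exact absurd hl (hm s s' hs hs' hne l (h l hlc))

/-- a cell missing three colours, the other two being non-adjacent at the origin -/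
theorem arm_of_three (hF : Cfg F) {θ : ℝ} (σ : ℝ) (hσ : σ = 1 ∨ σ = -1) {c' : Fin 5}
    (hcc : c ≠ c') (hn : ¬ Adj F 0 c c')
    (h : ∀ l, l ≠ c → l ≠ c' → θ ∈ UU F l ∨ θ + π ∈ UU F l) :
    Arm F c θ σ ∨ Arm F c' θ σ := by
  obtain ⟨η0, hη0, hm⟩ := CCellAux.miss hF θ
  obtain ⟨ε, hε, hb⟩ : ∃ ε > 0, ∀ z ∈ Pur F c c', ε ≤ ‖z‖ := by
    rw [Adj, Metric.mem_closure_iff] at hn
    push Not at hn
    obtain ⟨ε, hε, hb⟩ := hn
    exact ⟨ε, hε, fun z hz => by simpa using hb z hz⟩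
  set η := min η0 (ε / 3) with hη
  have hη1 : 0 < η := lt_min hη0 (by linarith)
  have hηa : η ≤ η0 := min_le_left _ _
  have hηb : η ≤ ε / 3 := min_le_right _ _
  have hσσ : σ * σ = 1 := by rcases hσ with rfl | rfl <;> norm_num
  have hσa : |σ| = 1 := by rcases hσ with rfl | rfl <;> norm_num
  set D : Set (ℝ × ℝ) := {p | |p.1 - θ| ≤ η ∧ |p.2 - θ| ≤ η ∧ 0 < σ * (p.1 - p.2)} with hD
  have hDc : Convex ℝ D := by
    intro p hp q hq a b ha hb' hab
    obtain ⟨p1, p2, p3⟩ := hp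
    obtain ⟨q1, q2, q3⟩ := hq
    have hbb : b = 1 - a := by linarith
    subst hbb
    rw [abs_le] at p1 p2 q1 q2
    refine ⟨?_, ?_, ?_⟩
    · simp only [Prod.fst_add, Prod.smul_fst, smul_eq_mul]
      rw [abs_le]; constructor <;> nlinarith [p1.1, p1.2, q1.1, q1.2]
    · simp only [Prod.snd_add, Prod.smul_snd, smul_eq_mul]
      rw [abs_le]; constructor <;> nlinarith [p2.1, p2.2, q2.1, q2.2]
    · simp only [Prod.fst_add, Prod.smul_fst, Prod.snd_add, Prod.smul_snd, smul_eq_mul]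
      have e : σ * (a * p.1 + (1 - a) * q.1 - (a * p.2 + (1 - a) * q.2)) =
          a * (σ * (p.1 - p.2)) + (1 - a) * (σ * (q.1 - q.2)) := by ring
      rw [e]
      rcases ha.eq_or_lt with rfl | ha'
      · simpa using q3
      · exact add_pos_of_pos_of_nonneg (mul_pos ha' p3) (mul_nonneg hb' q3.le)
  have hcont : Continuous fun p : ℝ × ℝ => ee p.1 - ee p.2 :=
    (continuous_ee.comp continuous_fst).sub (continuous_ee.comp continuous_snd)
  have hmiss : ∀ p ∈ D, ∀ l, l ≠ c → l ≠ c' → ee p.1 - ee p.2 ∉ F l := by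
    intro p hp l h1 h2
    have hne : p.1 ≠ p.2 := by
      intro he
      have := hp.2.2
      rw [he] at this; simp at this
    exact hm _ _ (hp.1.trans hηa) (hp.2.1.trans hηa) hne l (h l h1 h2)
  have hp0 : (θ + σ * η, θ) ∈ D := by
    refine ⟨?_, by simpa using hη1.le, ?_⟩
    · simp only [add_sub_cancel_left, abs_mul, hσa, one_mul, abs_of_pos hη1, le_refl]
    · simp only [add_sub_cancel_left, ← mul_assoc, hσσ, one_mul, hη1]
  obtain ⟨e, he⟩ := hF.mono_conn (hDc.isPreconnected.image _ hcont.continuousOn)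
    ⟨_, _, hp0, rfl⟩ (by
      rintro _ ⟨p, hp, rfl⟩
      have hnp : ee p.1 - ee p.2 ∉ Pur F c c' := by
        intro hz
        have h1 := hb _ hz
        have h2 := norm_ee_sub_ee_le p.1 p.2
        have h3 := abs_sub_le p.1 θ p.2
        rw [abs_sub_comm θ] at h3
        have := hp.1
        have := hp.2.1
        linarith
      by_cases h1 : ee p.1 - ee p.2 ∈ F c
      · refine ⟨c, hF.mem_int fun l hl hz => ?_⟩
        by_cases h2 : l = c'
        · exact hnp ⟨hcc, h1, h2 ▸ hz, hmiss p hp⟩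
        · exact hmiss p hp l hl h2 hz
      · refine ⟨c', hF.mem_int fun l hl hz => ?_⟩
        by_cases h2 : l = c
        · exact h1 (h2 ▸ hz)
        · exact hmiss p hp l h2 hl hz)
  have harm : Arm F e θ σ := CCellAux.of_open hF hσ hη1 fun s s' hs hs' h1 =>
    interior_subset (he ⟨(s, s'), ⟨hs, hs', h1⟩, rfl⟩)
  by_cases h1 : e = c
  · exact Or.inl (h1 ▸ harm)
  · by_cases h2 : e = c'
    · exact Or.inr (h2 ▸ harm)
    · exact absurd (interior_subset (he ⟨_, hp0, rfl⟩)) (hmiss _ hp0 e h1 h2)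

/-- a generic hexagon -/
theorem dense_hex {S : Set ℝ} (hS : IsOpen S) (hd : Dense S) :
    Dense {t : ℝ | ∀ k : ℤ, t + k * (π / 3) ∈ S} := by
  have h := dense_iInter_of_isOpen (f := fun k : ℤ => (fun t : ℝ => t + k * (π / 3)) ⁻¹' S)
    (fun k => hS.preimage (by fun_prop)) fun k => hd.preimage (isOpenMap_add_right _)
  refine h.mono fun t ht k => ?_
  exact Set.mem_iInter.1 ht k

end Vale.Agent.P032
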