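import Vale.Agent.P032.CSh0

open Filter Topology Real

namespace Vale.Agent.P032

open CSh

variable {F : Fin 5 → Set ℂ} {α : ℝ} {c : Fin 5}

theorem armD_armC (h : Cfg F) (h1 : ArmD F α c) (h2 : ArmC F (α + π / 3) c) : False := by
  obtain ⟨ε₁, p₁, h1⟩ := h1
  obtain ⟨ε₂, p₂, h2⟩ := h2
  have hπ := pi_gt_three
  obtain ⟨s, s0, s1, s2⟩ := small p₂
  set γ : ℝ → ℂ := fun u => ee (α + π / 3 - π / 3 + u) + ee (α + π / 3 + π / 3) with hγ
  have cγ : Continuous γ := (continuous_ee.comp (by fun_prop)).add continuous_const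
  set w : ℝ → ℂ := fun t => ee (α - π / 3) + ee (α + π / 3 + t) with hw
  have cw : Continuous w := continuous_const.add (continuous_ee.comp (by fun_prop))
  have g0 : 1 < ‖w 0 - γ s‖ := by
    have e : w 0 - γ s = -(ee (α + π / 3 - π / 3 + s) + ee (α + π / 3 + π / 3) - ee α) := by
      simp only [hw, hγ, add_zero, ee_hex]
      ring
    rw [e, norm_neg]
    exact gt_ppp (cp (by linarith) (by linarith)) (sp (by linarith) (by linarith))
      (sp (by linarith) (by linarith))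
  have ev : ∀ᶠ t in 𝓝 (0 : ℝ), 1 < ‖w t - γ s‖ :=
    (isOpen_lt continuous_const (cw.sub continuous_const).norm).mem_nhds g0
  obtain ⟨t, g1, t0, t1⟩ := ((ev.filter_mono nhdsWithin_le_nhds).and
    (Ioo_mem_nhdsGT (lt_min p₁ one_pos : (0 : ℝ) < min ε₁ 1))).exists
  rw [lt_min_iff] at t1
  refine h.shadow_path cγ h2 (s := 0) (s' := s) ⟨le_rfl, p₂.le⟩ ⟨s0.le, s1⟩ ?_ g1
    (h1 t t0.le t1.1.le)
  have e : w t - γ 0 = ee (α - π / 3) + ee (α + π / 3 + t) - ee (α + π / 3) := by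
    simp only [hw, hγ, add_zero, ee_hex]
  rw [e]
  exact lt_pnp (cp (by linarith [t1.2]) (by linarith)) (sn (by linarith) (by linarith))
    (sp (by linarith) (by linarith [t1.2]))

theorem cellOut_of_armC (h : Cfg F) (d : ℝ) (hd1 : -(2 * π / 3) ≤ d) (hd2 : d ≤ 0)
    (h1 : ArmC F (α + d) c) : CellOut F α c := by
  obtain ⟨ε, p, h1⟩ := h1
  have hπ := pi_gt_three
  obtain ⟨u, u0, u1, u2⟩ := small p
  set γ : ℝ → ℂ := fun u => ee (α + d - π / 3 + u) + ee (α + d + π / 3) with hγ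
  have cγ : Continuous γ := (continuous_ee.comp (by fun_prop)).add continuous_const
  have g : 1 < ‖γ u‖ := one_lt_two (by linarith) (by linarith)
  obtain ⟨κ, k0, k1, k2⟩ := small (sub_pos.mpr g)
  refine ⟨κ, k0, fun s s' a1 a2 a3 => h.shadow_path cγ h1 (s := 0) (s' := u) ⟨le_rfl, p.le⟩
    ⟨u0.le, u1⟩ ?_ ?_⟩
  · have e : ee (α + s) - ee (α + s') - γ 0 = ee (α + s) + ee (α + d + π) - ee (α + s') := by
      simp only [hγ, add_zero, ee_hex, ee_add_pi]
      ring
    rw [e]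
    exact lt_pnp (cp (by linarith) (by linarith)) (sn (by linarith) (by linarith))
      (sp (by linarith) (by linarith))
  · have b1 := cell α a2
    have b2 := norm_sub_norm_le (γ u) (ee (α + s) - ee (α + s'))
    rw [norm_sub_rev (γ u)] at b2
    linarith

theorem cellOut_of_armD (h : Cfg F) (d : ℝ) (hd1 : π / 3 ≤ d) (hd2 : d ≤ π)
    (h1 : ArmD F (α + d) c) : CellOut F α c := by
  obtain ⟨ε, p, h1⟩ := h1
  have hπ := pi_gt_three
  obtain ⟨u, u0, u1, u2⟩ := small p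
  set γ : ℝ → ℂ := fun u => ee (α + d - π / 3) + ee (α + d + π / 3 + u) with hγ
  have cγ : Continuous γ := continuous_const.add (continuous_ee.comp (by fun_prop))
  have g : ‖γ u‖ < 1 := two_lt_one (by linarith) (by linarith)
  obtain ⟨κ, k0, k1, k2⟩ := small (sub_pos.mpr g)
  refine ⟨κ, k0, fun s s' a1 a2 a3 => h.shadow_path cγ h1 (s := u) (s' := 0) ⟨u0.le, u1⟩
    ⟨le_rfl, p.le⟩ ?_ ?_⟩
  · have b1 := cell α a2
    have b2 := norm_sub_le (ee (α + s) - ee (α + s')) (γ u)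
    linarith
  · have e : ee (α + s) - ee (α + s') - γ 0 = ee (α + s) + ee (α + d + π) - ee (α + s') := by
      simp only [hγ, add_zero, ee_hex, ee_add_pi]
      ring
    rw [e]
    exact gt_nnp (cn (by linarith) (by linarith)) (sn (by linarith) (by linarith))
      (sp (by linarith) (by linarith))

theorem zero_notMem_of_arms (h : Cfg F) (h1 : ArmC F α c) (h2 : ArmD F α c) : (0 : ℂ) ∉ F c := by
  obtain ⟨ε₁, p₁, h1⟩ := h1
  obtain ⟨ε₂, p₂, h2⟩ := h2
  have hπ := pi_gt_three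
  obtain ⟨s, s0, s1, s2⟩ := small p₁
  obtain ⟨t, t0, t1, t2⟩ := small p₂
  set γ : ℝ → ℂ := fun u => ee (α - π / 3 + u) + ee (α + π / 3) with hγ
  have cγ : Continuous γ := (continuous_ee.comp (by fun_prop)).add continuous_const
  set w : ℝ → ℂ := fun t => ee (α - π / 3) + ee (α + π / 3 + t) with hw
  have cw : Continuous w := continuous_const.add (continuous_ee.comp (by fun_prop))
  have hK : IsPreconnected (γ '' Set.Icc 0 ε₁ ∪ w '' Set.Icc 0 ε₂) :=
    IsPreconnected.union (γ 0) ⟨0, ⟨le_rfl, p₁.le⟩, rfl⟩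
      ⟨0, ⟨le_rfl, p₂.le⟩, by simp only [hγ, hw, add_zero]⟩
      (isPreconnected_Icc.image _ cγ.continuousOn) (isPreconnected_Icc.image _ cw.continuousOn)
  refine h.shadow hK ?_ (p := w t) (q := γ s) (Or.inr ⟨t, ⟨t0.le, t1⟩, rfl⟩)
    (Or.inl ⟨s, ⟨s0.le, s1⟩, rfl⟩) ?_ ?_
  · rintro z (⟨u, hu, rfl⟩ | ⟨u, hu, rfl⟩)
    · exact h1 u hu.1 hu.2
    · exact h2 u hu.1 hu.2
  · rw [zero_sub, norm_neg]
    exact two_lt_one (by linarith) (by linarith)
  · rw [zero_sub, norm_neg]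
    exact one_lt_two (by linarith) (by linarith)

end Vale.Agent.P032
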