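import Vale.Agent.P032.CSh0

open Filter Topology Real

namespace Vale.Agent.P032

open CSh

variable {F : Fin 5 → Set ℂ} {α : ℝ} {c : Fin 5}

theorem CSh.near_lt {s t κ : ℝ} {q : ℂ} (a1 : 0 < s) (a2 : s < κ) (a3 : -κ < t) (a4 : t < 0)
    (k1 : κ ≤ (1 - ‖ee α - q‖) / 2) : ‖ee (α - π / 3 + s) + ee (α + π / 3 + t) - q‖ < 1 := by
  have b1 := near α s t
  rw [abs_of_pos a1, abs_of_neg a4] at b1
  have b2 := norm_sub_le_norm_sub_add_norm_sub (ee (α - π / 3 + s) + ee (α + π / 3 + t)) (ee α) q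
  linarith

theorem stripOut_of_armE (h : Cfg F) (h1 : ArmE F (α + 2 * π / 3) c) : StripOut F α c := by
  obtain ⟨ε, p, h1⟩ := h1
  have hπ := pi_gt_three
  obtain ⟨u, u0, u1, u2⟩ := small p
  set γ : ℝ → ℂ := fun r => ee (α + 2 * π / 3) - ee (α + 2 * π / 3 + r) with hγ
  have cγ : Continuous γ := continuous_const.sub (continuous_ee.comp (by fun_prop))
  have g : ‖ee α - γ u‖ < 1 := by
    have e : ee α - γ u = ee α + ee (α + 2 * π / 3 + u) - ee (α + 2 * π / 3) := by
      simp only [hγ]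
      ring
    rw [e]
    exact lt_pnp (cp (by linarith) (by linarith)) (sn (by linarith) (by linarith))
      (sp (by linarith) (by linarith))
  obtain ⟨κ, k0, k1, k2⟩ := small (half_pos (sub_pos.mpr g))
  refine ⟨κ, k0, fun s t a1 a2 a3 a4 => h.shadow_path cγ h1 (s := u) (s' := 0) ⟨u0.le, u1⟩
    ⟨le_rfl, p.le⟩ (near_lt a1 a2 a3 a4 k1) ?_⟩
  simp only [hγ, add_zero, sub_self, sub_zero]
  exact one_lt_two (by linarith) (by linarith)

theorem stripOut_of_armD (h : Cfg F) (h1 : ArmD F (α - π / 3) c) : StripOut F α c := by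
  obtain ⟨ε, p, h1⟩ := h1
  have hπ := pi_gt_three
  obtain ⟨u, u0, u1, u2⟩ := small p
  set γ : ℝ → ℂ := fun r => ee (α - π / 3 - π / 3) + ee (α - π / 3 + π / 3 + r) with hγ
  have cγ : Continuous γ := continuous_const.add (continuous_ee.comp (by fun_prop))
  have g : ‖ee α - γ u‖ < 1 := by
    rw [norm_sub_rev]
    exact lt_pnp (cp (by linarith) (by linarith)) (sn (by linarith) (by linarith))
      (sp (by linarith) (by linarith))
  obtain ⟨κ, k0, k1, k2⟩ := small (half_pos (sub_pos.mpr g))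
  refine ⟨κ, k0, fun s t a1 a2 a3 a4 => h.shadow_path cγ h1 (s := u) (s' := 0) ⟨u0.le, u1⟩
    ⟨le_rfl, p.le⟩ (near_lt a1 a2 a3 a4 k1) ?_⟩
  simp only [hγ, add_zero, ee_hex]
  exact gt_ppp (cp (by linarith) (by linarith)) (sp (by linarith) (by linarith))
    (sp (by linarith) (by linarith))

theorem armC_strip (h : Cfg F) (h1 : ArmC F α c) (h2 : Strip F (α + π / 3) c) : False := by
  obtain ⟨ε₁, p₁, h1⟩ := h1
  obtain ⟨ε₂, p₂, h2⟩ := h2
  have hπ := pi_gt_three
  obtain ⟨s, s0, s1, s2⟩ := small (lt_min p₁ p₂)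
  rw [le_min_iff] at s1
  set w : ℂ := ee (α - π / 3 + s) + ee (α + π / 3) with hw
  set g : ℝ → ℝ → ℂ := fun t u => ee (α + π / 3 - π / 3 + u) + ee (α + π / 3 + π / 3 + t) with hg
  have g0 : 1 < ‖w - g 0 s‖ := by
    have e0 := ee_hex (α + s)
    have e : w - g 0 s = -(ee (α + s + π / 3) + ee (α + π / 3 + π / 3) - ee (α + π / 3)) := by
      simp only [hw, hg, add_zero]
      rw [show α + π / 3 - π / 3 + s = α + s by ring, show α - π / 3 + s = α + s - π / 3 by ring]
      linear_combination e0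
    rw [e, norm_neg]
    exact gt_ppp (cp (by linarith) (by linarith)) (sp (by linarith) (by linarith))
      (sp (by linarith) (by linarith))
  have cg : Continuous fun t => g t s := continuous_const.add (continuous_ee.comp (by fun_prop))
  have ev : ∀ᶠ t in 𝓝 (0 : ℝ), 1 < ‖w - g t s‖ :=
    (isOpen_lt continuous_const (continuous_const.sub cg).norm).mem_nhds g0
  obtain ⟨δ, δ0, hδ⟩ := Metric.eventually_nhds_iff.mp ev
  obtain ⟨δ', d0, d1, d2⟩ := small δ0
  obtain ⟨t, t1, t2, t3⟩ := h2 δ' d0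
  have g1 : 1 < ‖w - g t s‖ := hδ (by
    rw [Real.dist_eq, sub_zero, abs_of_neg t2]
    linarith)
  have cγ : Continuous (g t) := (continuous_ee.comp (by fun_prop)).add continuous_const
  refine h.shadow_path cγ t3 (s := 0) (s' := s) ⟨le_rfl, p₂.le⟩ ⟨s0.le, s1.2⟩ ?_ g1
    (h1 s s0.le s1.1)
  have e0 := ee_hex (α + π / 3)
  have e1 := ee_add_pi (α - π / 3 + s)
  have e : w - g t 0 =
      -(ee (α + π / 3 + π / 3 + t) + ee (α - π / 3 + s + π) - ee (α + π / 3 + π / 3)) := by
    simp only [hw, hg, add_zero]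
    linear_combination e1 - e0
  rw [e, norm_neg]
  exact lt_pnp (cp (by linarith) (by linarith)) (sn (by linarith) (by linarith))
    (sp (by linarith) (by linarith))

end Vale.Agent.P032
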