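import Vale.Agent.P032.CNc

open Filter Topology Real

namespace Vale.Agent.P032

variable {F : Fin 5 → Set ℂ} {a b : Fin 5} {α β : ℝ}

theorem CSh3.fifth (h : Cfg F) {c c' e : Fin 5} {z : ℂ} (hz : z ∈ RR F a b) (h1 : z ∉ F c)
    (h2 : z ∉ F c') (he : ∀ l, l ≠ a → l ≠ b → l ≠ c → l ≠ c' → l = e) : z ∈ F e := by
  obtain ⟨l, hl⟩ := h.cover z
  rw [← he l (fun e => hz.1 (e ▸ hl)) (fun e => hz.2 (e ▸ hl)) (fun e => h1 (e ▸ hl))
    fun e => h2 (e ▸ hl)]
  exact hl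

theorem CSh3.closed_zero (h : Cfg F) {e : Fin 5} {γ : ℝ → ℂ} (hγ : Continuous γ) {η : ℝ}
    (hη : 0 < η) (hm : ∀ s, 0 < s → s < η → γ s ∈ F e) : γ 0 ∈ F e := by
  refine (h.closed e).mem_of_tendsto (b := 𝓝[>] (0 : ℝ))
    (hγ.continuousAt.tendsto.mono_left nhdsWithin_le_nhds) ?_
  filter_upwards [Ioo_mem_nhdsGT hη] with s hs
  exact hm s hs.1 hs.2

theorem NC.cellIn (h : NC F a b α β) {c c' e : Fin 5} (h1 : CellOut F α c) (h2 : CellOut F α c')
    (he : ∀ l, l ≠ a → l ≠ b → l ≠ c → l ≠ c' → l = e) : CellIn F α e := by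
  obtain ⟨ε₁, p₁, h1⟩ := h1
  obtain ⟨ε₂, p₂, h2⟩ := h2
  have hc' : ∀ t, ee t ∈ F b ∨ ee t ∈ F a := fun t => (h.cen t).symm
  refine ⟨min (min ε₁ ε₂) (min β 1), lt_min (lt_min p₁ p₂) (lt_min h.pos one_pos),
    fun s s' a1 a2 a3 => ?_⟩
  simp only [lt_min_iff] at a3
  obtain ⟨⟨b1, b2⟩, b3, b4⟩ := a3
  have u1 := h.gap s a1 (by linarith)
  have u2 := h.gap s' (by linarith) b3
  have u3 := (cen_hex h.cfg h.cen (cen_hex h.cfg hc' (cen_hex h.cfg h.cen u2).1).1).1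
  have e1 : α + s' + π / 3 + π / 3 + π / 3 = α + s' + π := by ring
  rw [e1] at u3
  have hs : sin (α + s - (α + s' + π)) ≠ 0 := by
    have e2 : α + s - (α + s' + π) = -((s' - s) + π) := by ring
    rw [e2, sin_neg, sin_add_pi, neg_neg]
    exact (sin_pos_of_pos_of_lt_pi (by linarith) (by linarith [pi_gt_three])).ne'
  have hz := h.cfg.RR_of_UU u1 u3 hs
  rw [ee_add_pi, ← sub_eq_add_neg] at hz
  exact CSh3.fifth h.cfg hz (h1 s s' a1 a2 b1) (h2 s s' a1 a2 b2) he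

theorem armE_of_cellIn (h : Cfg F) {e : Fin 5} (h1 : CellIn F α e) : ArmE F α e := by
  obtain ⟨ε, p, h1⟩ := h1
  refine ⟨ε / 2, half_pos p, fun r a1 a2 => ?_⟩
  have := CSh3.closed_zero h (e := e) (γ := fun s => ee (α + s) - ee (α + (r + 2 * s)))
    ((continuous_ee.comp (by fun_prop)).sub (continuous_ee.comp (by fun_prop)))
    (η := ε / 4) (by linarith) fun s b1 b2 => h1 s _ b1 (by linarith) (by linarith)
  simpa using this

theorem cellIn_cellOut {e : Fin 5} (h1 : CellIn F α e) (h2 : CellOut F α e) : False := by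
  obtain ⟨ε₁, p₁, h1⟩ := h1
  obtain ⟨ε₂, p₂, h2⟩ := h2
  have m0 := lt_min p₁ p₂
  have m1 := min_le_left ε₁ ε₂
  have m2 := min_le_right ε₁ ε₂
  exact h2 (min ε₁ ε₂ / 3) (min ε₁ ε₂ / 2) (by linarith) (by linarith) (by linarith)
    (h1 _ _ (by linarith) (by linarith) (by linarith))

theorem NC.strip (h : NC F a b α β) {c c' e : Fin 5} (h1 : StripOut F α c) (h2 : StripOut F α c')
    (he : ∀ l, l ≠ a → l ≠ b → l ≠ c → l ≠ c' → l = e) : Strip F α e := by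
  obtain ⟨ε₁, p₁, h1⟩ := h1
  obtain ⟨ε₂, p₂, h2⟩ := h2
  have hc' : ∀ t, ee t ∈ F b ∨ ee t ∈ F a := fun t => (h.cen t).symm
  obtain ⟨m, m0, m1, m2, m3, m4⟩ : ∃ m, 0 < m ∧ m ≤ ε₁ ∧ m ≤ ε₂ ∧ m ≤ β ∧ m ≤ 1 :=
    ⟨min (min ε₁ ε₂) (min β 1), lt_min (lt_min p₁ p₂) (lt_min h.pos one_pos),
      (min_le_left _ _).trans (min_le_left _ _), (min_le_left _ _).trans (min_le_right _ _),
      (min_le_right _ _).trans (min_le_left _ _), (min_le_right _ _).trans (min_le_right _ _)⟩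
  refine ⟨m / 2, half_pos m0, fun δ hδ => ?_⟩
  obtain ⟨t, t1, t2, t3⟩ := h.left (min δ m) (lt_min hδ m0)
  have t4 := min_le_left δ m
  have t5 := min_le_right δ m
  have u1 := (cen_hex h.cfg hc' t3).1
  rw [show α + t + π / 3 = α + π / 3 + t by ring] at u1
  have key : ∀ s, 0 < s → s < m → ee (α - π / 3 + s) + ee (α + π / 3 + t) ∈ F e := by
    intro s a1 a2
    have u2 := (cen_hex h.cfg h.cen (h.gap s a1 (by linarith))).2
    rw [show α + s - π / 3 = α - π / 3 + s by ring] at u2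
    have hs : sin (α - π / 3 + s - (α + π / 3 + t)) ≠ 0 := by
      have e2 : α - π / 3 + s - (α + π / 3 + t) = -(2 * π / 3 - s + t) := by ring
      rw [e2, sin_neg, neg_ne_zero]
      exact (sin_pos_of_pos_of_lt_pi (by linarith [pi_gt_three]) (by linarith [pi_pos])).ne'
    have hz := RR_comm.mp (h.cfg.RR_of_UU u2 u1 hs)
    exact CSh3.fifth h.cfg hz (h1 s t a1 (by linarith) (by linarith) t2)
      (h2 s t a1 (by linarith) (by linarith) t2) he
  refine ⟨t, by linarith, t2, fun s a1 a2 => ?_⟩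
  rcases a1.eq_or_lt with a3 | a3
  · subst a3
    exact CSh3.closed_zero h.cfg (γ := fun s => ee (α - π / 3 + s) + ee (α + π / 3 + t))
      ((continuous_ee.comp (by fun_prop)).add continuous_const) m0 key
  · exact key s a3 (by linarith)

end Vale.Agent.P032
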