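import Vale.Agent.P032.CArmC
import Vale.Agent.P032.CArmD
import Vale.Agent.P032.CSh1
import Vale.Agent.P032.CSh2
import Vale.Agent.P032.CSh3

open Filter Topology Real

namespace Vale.Agent.P032

variable {F : Fin 5 → Set ℂ} {a b : Fin 5} {α β : ℝ}

theorem CCenAux.fin1 : ∀ a b c d e : Fin 5, a ≠ b → c ≠ a → c ≠ b → d ≠ a → d ≠ b → e ≠ a →
    e ≠ b → c ≠ d → c ≠ e → d ≠ e → ∀ l, l ≠ a → l ≠ b → l ≠ c → l ≠ d → l = e := by
  intro a b c d e _ _ _ _ _ _ _ _ _ _ l _ _ _ _
  omega

theorem CCenAux.fin2 : ∀ a b c d : Fin 5, ∃ e, e ≠ a ∧ e ≠ b ∧ e ≠ c ∧ e ≠ d := by decide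

theorem CCenAux.three (h : NC F a b α β) {x y z : Fin 5} (hx : CellOut F α x)
    (hy : CellOut F α y) (hz : CellOut F α z) (xa : x ≠ a) (xb : x ≠ b) (ya : y ≠ a) (yb : y ≠ b)
    (za : z ≠ a) (zb : z ≠ b) (xy : x ≠ y) (xz : x ≠ z) (yz : y ≠ z) : False :=
  cellIn_cellOut (h.cellIn hx hy (CCenAux.fin1 a b x y z h.ne xa xb ya yb za zb xy xz yz)) hz

theorem NC.armC_ne (h : NC F a b α β) {c : Fin 5} (hca : c ≠ a) (hcb : c ≠ b)
    (h1 : ArmC F α c) (h2 : ArmC F (α + π / 3) c) : False := by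
  obtain ⟨d, da, db, hd⟩ := h.exists_armD
  have dc : d ≠ c := fun e => armD_armC h.cfg (e ▸ hd) h2
  obtain ⟨e, ea, eb, ec, ed⟩ := CCenAux.fin2 a b c d
  have hp := pi_pos
  have o1 : CellOut F (α + π / 3 + π / 3 + π / 3) c :=
    cellOut_of_armC h.cfg (-(2 * π / 3)) le_rfl (by linarith) (by convert h2 using 1; ring)
  have o2 : CellOut F (α + π / 3 + π / 3 + π / 3) d :=
    cellOut_of_armD h.cfg π (by linarith) le_rfl (by convert (armD_per hd).1 using 1; ring)
  have i1 := armE_of_cellIn h.cfg (h.next.next.next.cellIn o1 o2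
    (CCenAux.fin1 b a c d e h.ne.symm hcb hca db da eb ea dc.symm ec.symm ed.symm))
  have s1 : StripOut F (α + π / 3) e := stripOut_of_armE h.cfg (by convert i1 using 1; ring)
  have s2 : StripOut F (α + π / 3) d := stripOut_of_armD h.cfg (by convert hd using 1; ring)
  exact armC_strip h.cfg h1 (h.next.strip s1 s2
    (CCenAux.fin1 b a e d c h.ne.symm eb ea db da hcb hca ed ec dc))

/-- no centre carries the three other colours -/
theorem Cfg.no_centre (h : Cfg F) (hab : a ≠ b) (hc : ∀ t, ee t ∈ F a ∨ ee t ∈ F b)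
    (h0 : ∀ c, c ≠ a → c ≠ b → (0 : ℂ) ∈ F c) : False := by
  obtain ⟨α, β, n⟩ := exists_nc h hab hc
  have hp := pi_pos
  obtain ⟨x, xa, xb, hx⟩ := n.prev.prev.exists_armC
  obtain ⟨y, yb, ya, hy⟩ := n.prev.exists_armC
  obtain ⟨z, za, zb, hz⟩ := n.exists_armC
  obtain ⟨w, wb, wa, hw⟩ := n.next.exists_armC
  obtain ⟨d, da, db, hd⟩ := n.exists_armD
  have xy : x ≠ y := fun e =>
    n.prev.prev.armC_ne xa xb hx (by rw [e]; convert hy using 1; ring)
  have yz : y ≠ z := fun e => n.prev.armC_ne yb ya hy (by rw [e]; convert hz using 1; ring)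
  have zw : z ≠ w := fun e => n.armC_ne za zb hz (e ▸ hw)
  have dw : d ≠ w := fun e => armD_armC h hd (e ▸ hw)
  have xz : x = z := by
    by_contra xz
    exact CCenAux.three n
      (cellOut_of_armC h (-(2 * π / 3)) le_rfl (by linarith) (by convert hx using 1; ring))
      (cellOut_of_armC h (-(π / 3)) (by linarith) (by linarith) (by convert hy using 1; ring))
      (cellOut_of_armC h 0 (by linarith) le_rfl (by convert hz using 1; ring))
      xa xb ya yb za zb xy xz yz
  have yw : y = w := by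
    by_contra yw
    exact CCenAux.three n.next
      (cellOut_of_armC h (-(2 * π / 3)) le_rfl (by linarith) (by convert hy using 1; ring))
      (cellOut_of_armC h (-(π / 3)) (by linarith) (by linarith) (by convert hz using 1; ring))
      (cellOut_of_armC h 0 (by linarith) le_rfl (by convert hw using 1; ring))
      yb ya zb za wb wa yz yw zw
  have xd : x = d := by
    by_contra xd
    exact CCenAux.three n.prev
      (cellOut_of_armC h (-(π / 3)) (by linarith) (by linarith) (by convert hx using 1; ring))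
      (cellOut_of_armC h 0 (by linarith) le_rfl (by convert hy using 1; ring))
      (cellOut_of_armD h (π / 3) le_rfl (by linarith) (by convert hd using 1; ring))
      xb xa yb ya db da xy xd (fun e => dw (e.symm.trans yw))
  exact zero_notMem_of_arms h hz (by rw [← xz, xd]; exact hd) (h0 z za zb)

theorem Cfg.no_centre_dense (h : Cfg F) (hab : a ≠ b) (hc : Dense (UU F a ∪ UU F b))
    (h0 : ∀ c, c ≠ a → c ≠ b → (0 : ℂ) ∈ F c) : False := by
  have hcl : IsClosed (ee ⁻¹' (F a ∪ F b)) :=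
    ((h.closed a).union (h.closed b)).preimage (by unfold ee; fun_prop)
  refine h.no_centre hab (fun t => ?_) h0
  exact hcl.closure_subset_iff.2 (fun s hs => hs.imp UU_mem UU_mem) (hc t)

end Vale.Agent.P032
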