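import Vale.Agent.P032.Defs

open Filter Topology Real

namespace Vale.Agent.P032

/-- five regular closed sets with disjoint interiors covering the plane, no unit distance -/
structure Cfg (F : Fin 5 → Set ℂ) : Prop where
  closed : ∀ i, IsClosed (F i)
  cover : ∀ z, ∃ i, z ∈ F i
  reg : ∀ i, F i ⊆ closure (interior (F i))
  free : ∀ i, ∀ x ∈ F i, ∀ y ∈ interior (F i), ‖x - y‖ ≠ 1
  disj : ∀ i j, i ≠ j → ∀ z ∈ interior (F i), z ∉ F j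

/-- translate so that `x` becomes the origin -/
def shift (F : Fin 5 → Set ℂ) (x : ℂ) : Fin 5 → Set ℂ := fun i => {z | x + z ∈ F i}

/-- angles around which the unit circle about the origin lies in `F i` -/
def UU (F : Fin 5 → Set ℂ) (i : Fin 5) : Set ℝ := interior {t : ℝ | ee t ∈ F i}

/-- points with exactly the two colours `a`, `b` -/
def Pur (F : Fin 5 → Set ℂ) (a b : Fin 5) : Set ℂ :=
  {z | a ≠ b ∧ z ∈ F a ∧ z ∈ F b ∧ ∀ l, l ≠ a → l ≠ b → z ∉ F l}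

/-- adjacency of colours at the point `y` -/
def Adj (F : Fin 5 → Set ℂ) (y : ℂ) (a b : Fin 5) : Prop := y ∈ closure (Pur F a b)

/-- points missing the colours `a`, `b` -/
def RR (F : Fin 5 → Set ℂ) (a b : Fin 5) : Set ℂ := {z | z ∉ F a ∧ z ∉ F b}

/-- normalized centre at the origin with a jump at angle `α` -/
structure NC (F : Fin 5 → Set ℂ) (a b : Fin 5) (α β : ℝ) : Prop where
  cfg : Cfg F
  ne : a ≠ b
  cen : ∀ t, ee t ∈ F a ∨ ee t ∈ F b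
  pos : 0 < β
  gap : ∀ s, 0 < s → s < β → α + s ∈ UU F a
  left : ∀ ε, 0 < ε → ∃ t, -ε < t ∧ t < 0 ∧ α + t ∈ UU F b

def ArmC (F : Fin 5 → Set ℂ) (α : ℝ) (c : Fin 5) : Prop :=
  ∃ ε, 0 < ε ∧ ∀ s, 0 ≤ s → s ≤ ε → ee (α - π / 3 + s) + ee (α + π / 3) ∈ F c

def ArmD (F : Fin 5 → Set ℂ) (α : ℝ) (c : Fin 5) : Prop :=
  ∃ ε, 0 < ε ∧ ∀ t, 0 ≤ t → t ≤ ε → ee (α - π / 3) + ee (α + π / 3 + t) ∈ F c

def ArmE (F : Fin 5 → Set ℂ) (α : ℝ) (c : Fin 5) : Prop :=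
  ∃ ε, 0 < ε ∧ ∀ r, 0 ≤ r → r ≤ ε → ee α - ee (α + r) ∈ F c

def CellIn (F : Fin 5 → Set ℂ) (α : ℝ) (c : Fin 5) : Prop :=
  ∃ ε, 0 < ε ∧ ∀ s s', 0 < s → s < s' → s' < ε → ee (α + s) - ee (α + s') ∈ F c

def CellOut (F : Fin 5 → Set ℂ) (α : ℝ) (c : Fin 5) : Prop :=
  ∃ ε, 0 < ε ∧ ∀ s s', 0 < s → s < s' → s' < ε → ee (α + s) - ee (α + s') ∉ F c

def StripOut (F : Fin 5 → Set ℂ) (α : ℝ) (c : Fin 5) : Prop :=
  ∃ ε, 0 < ε ∧ ∀ s t, 0 < s → s < ε → -ε < t → t < 0 →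
    ee (α - π / 3 + s) + ee (α + π / 3 + t) ∉ F c

def Strip (F : Fin 5 → Set ℂ) (α : ℝ) (c : Fin 5) : Prop :=
  ∃ ε, 0 < ε ∧ ∀ δ, 0 < δ → ∃ t, -δ < t ∧ t < 0 ∧
    ∀ s, 0 ≤ s → s ≤ ε → ee (α - π / 3 + s) + ee (α + π / 3 + t) ∈ F c

/-- one-sided sector of colour `c` at the origin in direction `σ i ee θ` -/
def Arm (F : Fin 5 → Set ℂ) (c : Fin 5) (θ σ : ℝ) : Prop :=
  ∃ η, 0 < η ∧ ∀ s s', |s - θ| ≤ η → |s' - θ| ≤ η → 0 ≤ σ * (s - s') → ee s - ee s' ∈ F c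

def PA (F : Fin 5 → Set ℂ) : Set ℝ := UU F 0 ∩ UU F 2

def PB (F : Fin 5 → Set ℂ) : Set ℝ := UU F 1 ∩ UU F 3

/-- the structure at an induced four-cycle -/
structure Four (F : Fin 5 → Set ℂ) : Prop where
  cfg : Cfg F
  m0 : (0 : ℂ) ∈ F 0
  m1 : (0 : ℂ) ∈ F 1
  m2 : (0 : ℂ) ∈ F 2
  m3 : (0 : ℂ) ∈ F 3
  n02 : ¬ Adj F 0 0 2
  n13 : ¬ Adj F 0 1 3
  dense : Dense (PA F ∪ PB F ∪ UU F 4)

/-- cyclic relabelling of the first four colours -/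
def rot4 : Fin 5 → Fin 5 := ![1, 2, 3, 0, 4]

/-- triple points -/
def X3 (F : Fin 5 → Set ℂ) : Set ℂ :=
  {z | ∃ a b c, a ≠ b ∧ a ≠ c ∧ b ≠ c ∧ z ∈ F a ∧ z ∈ F b ∧ z ∈ F c}

/-- cube roots of unity -/
noncomputable def zz (l : Fin 3) : ℂ := ee (2 * π * (l : ℕ) / 3)

end Vale.Agent.P032
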