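import Vale.Agent.P032.CNc

open Filter Topology Real

namespace Vale.Agent.P032

variable {F : Fin 5 → Set ℂ} {a b : Fin 5} {α β : ℝ}

theorem cex_cos_pos {x : ℝ} (h1 : -(3 / 2) ≤ x) (h2 : x ≤ 3 / 2) : 0 < cos x := by
  have := pi_gt_three
  exact cos_pos_of_mem_Ioo ⟨by linarith, by linarith⟩

theorem cex_sin_pos {x : ℝ} (h1 : 0 < x) (h2 : x ≤ 3) : 0 < sin x := by
  have := pi_gt_three
  exact sin_pos_of_pos_of_lt_pi h1 (by linarith)

theorem cex_sin_neg {x : ℝ} (h1 : x < 0) (h2 : -3 ≤ x) : sin x < 0 := by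
  have := cex_sin_pos (x := -x) (by linarith) (by linarith)
  rw [sin_neg] at this
  linarith

theorem cex_pos_of_sin {x : ℝ} (h1 : -3 ≤ x) (h : 0 < sin x) : 0 < x := by
  by_contra hx
  push Not at hx
  rcases hx.eq_or_lt with h0 | h0
  · rw [h0] at h; simp at h
  · have := cex_sin_neg h0 h1
    linarith

theorem cex_mid_pos {A B C : ℝ} (h : 0 < A * B * C) (hA : 0 < A) (hC : 0 < C) : 0 < B := by
  by_contra hB
  push Not at hB
  have : A * B * C ≤ 0 := mul_nonpos_of_nonpos_of_nonneg (mul_nonpos_of_nonneg_of_nonpos hA.le hB) hC.le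
  linarith

theorem cex_last_pos {A B C : ℝ} (h : A * B * C < 0) (hA : 0 < A) (hB : B < 0) : 0 < C := by
  by_contra hC
  push Not at hC
  have : 0 ≤ A * B * C :=
    mul_nonneg_of_nonpos_of_nonpos (mul_nonpos_of_nonneg_of_nonpos hA.le hB.le) hC
  linarith

theorem cex_opp (α s : ℝ) : ee (α - π / 3 + s) = -ee (α + 2 * π / 3 + s) := by
  have : α + 2 * π / 3 + s = α - π / 3 + s + π := by ring
  rw [this, ee_add_pi]; ring

theorem cex_hex1 (α : ℝ) : ee (α + π / 3) = ee α + ee (α + 2 * π / 3) := by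
  have := ee_hex (α + π / 3)
  rw [show α + π / 3 - π / 3 = α by ring, show α + π / 3 + π / 3 = α + 2 * π / 3 by ring] at this
  exact this.symm

theorem cex_p (α s ρ a' b' : ℝ) (hs0 : 0 < s) (hs1 : s ≤ 1 / 10) (hρ1 : -(1 / 10) ≤ ρ)
    (hρ2 : ρ ≤ 1 / 10) (ha1 : -(1 / 10) < a' - α) (ha2 : a' - α < 1 / 10)
    (hb1 : -(1 / 10) < b' - (α + π / 3)) (hb2 : b' - (α + π / 3) < 1 / 10)
    (hwz : (ee (α - π / 3 + s) + ee (α + π / 3)) + ee (α + π / 3 + ρ) = ee a' + ee b') :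
    0 < a' - α := by
  have hpi3 := pi_gt_three
  have hpi4 := pi_lt_d2
  have hx0 := ee_hex α
  have k1 : 1 < ‖ee (α - π / 3 + s) + ee (α + π / 3 + ρ) - ee (α - π / 3)‖ := by
    rw [one_lt_norm_three]
    refine mul_pos (mul_pos ?_ ?_) ?_
    · exact cex_cos_pos (by linarith) (by linarith)
    · exact cex_sin_pos (by linarith) (by linarith)
    · exact cex_sin_pos (by linarith) (by linarith)
  have e : ee (α - π / 3 + s) + ee (α + π / 3 + ρ) - ee (α - π / 3) = ee a' + ee b' - ee α := by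
    rw [← hwz, ← hx0]; ring
  rw [e, one_lt_norm_three] at k1
  have := cex_mid_pos k1 (cex_cos_pos (by linarith) (by linarith))
    (cex_sin_pos (by linarith) (by linarith))
  have := cex_pos_of_sin (by linarith) this
  linarith

theorem cex_rho (α s s' t' ρ : ℝ) (hs0 : 0 < s) (hs1 : s ≤ 1 / 10) (hs'1 : -(1 / 10) ≤ s')
    (hs'0 : s' < 0) (ht0 : 0 < t') (ht1 : t' ≤ 1 / 10) (hρ1 : -(1 / 10) ≤ ρ) (hρ2 : ρ ≤ 1 / 10)
    (hw1 : ee (α + s') + ee (α + 2 * π / 3 + t') =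
      (ee (α - π / 3 + s) + ee (α + π / 3)) + ee (α + π / 3 + ρ + π / 3)) : s < ρ := by
  have hpi3 := pi_gt_three
  have hpi4 := pi_lt_d2
  have hx1 := cex_hex1 α
  have k1 : ‖ee (α + s') + ee (α + 2 * π / 3 + t') - ee (α + 2 * π / 3)‖ < 1 := by
    rw [norm_three_lt_one]
    refine mul_neg_of_neg_of_pos (mul_neg_of_pos_of_neg ?_ ?_) ?_
    · exact cex_cos_pos (by linarith) (by linarith)
    · exact cex_sin_neg (by linarith) (by linarith)
    · exact cex_sin_pos (by linarith) (by linarith)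
  have e : ee (α + s') + ee (α + 2 * π / 3 + t') - ee (α + 2 * π / 3) =
      ee α + ee (α + 2 * π / 3 + ρ) - ee (α + 2 * π / 3 + s) := by
    rw [hw1, cex_opp, hx1, show α + π / 3 + ρ + π / 3 = α + 2 * π / 3 + ρ by ring]; ring
  rw [e, norm_three_lt_one] at k1
  have := cex_last_pos k1 (cex_cos_pos (by linarith) (by linarith))
    (cex_sin_neg (by linarith) (by linarith))
  have := cex_pos_of_sin (by linarith) this
  linarith

theorem cex_r (α s ρ a' b' : ℝ) (hs0 : 0 < s) (hρs : s < ρ)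
    (hρ2 : ρ ≤ 1 / 10) (ha1 : -(1 / 10) < a' - α) (ha2 : a' - α < 1 / 10)
    (hb1 : -(1 / 10) < b' - (α + π / 3)) (hb2 : b' - (α + π / 3) < 1 / 10)
    (hwz : (ee (α - π / 3 + s) + ee (α + π / 3)) + ee (α + π / 3 + ρ) = ee a' + ee b') :
    0 < b' - (α + π / 3) := by
  have hpi3 := pi_gt_three
  have hpi4 := pi_lt_d2
  have k1 : ‖ee (α - π / 3 + s) + ee (α + π / 3 + ρ)‖ < 1 := by
    have h2 := norm_two (α - π / 3 + s) (α + π / 3 + ρ)
    have h3 : cos (α - π / 3 + s - (α + π / 3 + ρ)) < -(1 / 2) := by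
      rw [show α - π / 3 + s - (α + π / 3 + ρ) = -(π - (π / 3 - (ρ - s))) by ring, cos_neg,
        cos_pi_sub]
      have : cos (π / 3) < cos (π / 3 - (ρ - s)) :=
        cos_lt_cos_of_nonneg_of_le_pi (by linarith) (by linarith) (by linarith)
      rw [cos_pi_div_three] at this
      linarith
    have h0 := norm_nonneg (ee (α - π / 3 + s) + ee (α + π / 3 + ρ))
    nlinarith
  have e : ee (α - π / 3 + s) + ee (α + π / 3 + ρ) = ee a' + ee b' - ee (α + π / 3) := by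
    rw [← hwz]; ring
  rw [e, norm_three_lt_one] at k1
  have := cex_last_pos k1 (cex_cos_pos (by linarith) (by linarith))
    (cex_sin_neg (by linarith) (by linarith))
  have := cex_pos_of_sin (by linarith) this
  linarith

/-- the two other vertices of the triangle miss the colours `a`, `b` -/
theorem NC.tri_ex (h : NC F a b α β) : ∃ ε₀, 0 < ε₀ ∧ ε₀ ≤ β ∧ ε₀ ≤ 1 / 10 ∧
    ∀ s s' t', 0 < s → s < ε₀ → -ε₀ < s' → s' < 0 → 0 < t' → t' < ε₀ → α + s' ∈ UU F b →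
      ‖(ee (α + s') + ee (α + 2 * π / 3 + t')) - (ee (α - π / 3 + s) + ee (α + π / 3))‖ = 1 →
      ∃ φ, ee (α + s') + ee (α + 2 * π / 3 + t') =
          (ee (α - π / 3 + s) + ee (α + π / 3)) + ee (φ + π / 3) ∧
        (ee (α - π / 3 + s) + ee (α + π / 3)) + ee φ ∈ RR F a b ∧
        (ee (α - π / 3 + s) + ee (α + π / 3)) + ee (φ + π / 3) ∈ RR F a b := by
  have hpi3 := pi_gt_three
  have hpi4 := pi_lt_d2
  have hβ := h.pos
  have hsin : sin (α - (α + π / 3)) ≠ 0 := by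
    rw [show α - (α + π / 3) = -(π / 3) by ring]
    exact (cex_sin_neg (by linarith) (by linarith)).ne
  obtain ⟨δ, hδ, hopen⟩ := two_step_open α (α + π / 3) hsin (min β (1 / 10))
    (lt_min hβ (by norm_num))
  refine ⟨min (min β (1 / 100)) (δ / 8), lt_min (lt_min hβ (by norm_num)) (by linarith),
    (min_le_left _ _).trans (min_le_left _ _),
    (min_le_left _ _).trans ((min_le_right _ _).trans (by norm_num)), ?_⟩
  intro s s' t' hs0 hs1 hs'1 hs'0 ht0 ht1 hU hD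
  set ε := min (min β (1 / 100)) (δ / 8) with hε
  have hεβ : ε ≤ β := (min_le_left _ _).trans (min_le_left _ _)
  have hε1 : ε ≤ 1 / 100 := (min_le_left _ _).trans (min_le_right _ _)
  have hεδ : ε ≤ δ / 8 := min_le_right _ _
  have hx0 := ee_hex α
  have hx1 := cex_hex1 α
  obtain ⟨τ, hτ, hτ2⟩ := exists_angle_near _ hD (α + 2 * π / 3)
  have hnear : ‖(ee (α + s') + ee (α + 2 * π / 3 + t')) - (ee (α - π / 3 + s) + ee (α + π / 3)) -
      ee (α + 2 * π / 3)‖ ≤ 3 * ε := by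
    have e : (ee (α + s') + ee (α + 2 * π / 3 + t')) - (ee (α - π / 3 + s) + ee (α + π / 3)) -
        ee (α + 2 * π / 3) = (ee (α + s') - ee α) + (ee (α + 2 * π / 3 + t') - ee (α + 2 * π / 3))
          - (ee (α - π / 3 + s) - ee (α - π / 3)) := by
      rw [← hx0]; ring
    rw [e]
    have n1 := norm_ee_sub_ee_le (α + s') α
    have n2 := norm_ee_sub_ee_le (α + 2 * π / 3 + t') (α + 2 * π / 3)
    have n3 := norm_ee_sub_ee_le (α - π / 3 + s) (α - π / 3)
    rw [show α + s' - α = s' by ring, abs_of_neg hs'0] at n1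
    rw [show α + 2 * π / 3 + t' - (α + 2 * π / 3) = t' by ring, abs_of_pos ht0] at n2
    rw [show α - π / 3 + s - (α - π / 3) = s by ring, abs_of_pos hs0] at n3
    have := norm_sub_le ((ee (α + s') - ee α) + (ee (α + 2 * π / 3 + t') - ee (α + 2 * π / 3)))
      (ee (α - π / 3 + s) - ee (α - π / 3))
    have := norm_add_le (ee (α + s') - ee α) (ee (α + 2 * π / 3 + t') - ee (α + 2 * π / 3))
    linarith
  obtain ⟨ρ, hρ⟩ : ∃ ρ, ρ = τ - (α + 2 * π / 3) := ⟨_, rfl⟩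
  have hτρ : τ = α + 2 * π / 3 + ρ := by rw [hρ]; ring
  have hρa : |ρ| ≤ 6 * ε := by rw [hρ]; linarith
  obtain ⟨hρ1, hρ2⟩ := abs_le.1 hρa
  have hw1 : ee (α + s') + ee (α + 2 * π / 3 + t') =
      (ee (α - π / 3 + s) + ee (α + π / 3)) + ee (α + π / 3 + ρ + π / 3) := by
    rw [show α + π / 3 + ρ + π / 3 = τ by rw [hτρ]; ring, ← hτ]; ring
  have hz : ‖(ee (α - π / 3 + s) + ee (α + π / 3)) + ee (α + π / 3 + ρ) -
      (ee α + ee (α + π / 3))‖ < δ := by
    have e : (ee (α - π / 3 + s) + ee (α + π / 3)) + ee (α + π / 3 + ρ) -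
        (ee α + ee (α + π / 3)) = (ee (α - π / 3 + s) - ee (α - π / 3)) +
          (ee (α + π / 3 + ρ) - ee (α + π / 3)) := by
      rw [← hx0]; ring
    rw [e]
    have n2 := norm_ee_sub_ee_le (α + π / 3 + ρ) (α + π / 3)
    have n3 := norm_ee_sub_ee_le (α - π / 3 + s) (α - π / 3)
    rw [show α + π / 3 + ρ - (α + π / 3) = ρ by ring] at n2
    rw [show α - π / 3 + s - (α - π / 3) = s by ring, abs_of_pos hs0] at n3
    have := norm_add_le (ee (α - π / 3 + s) - ee (α - π / 3)) (ee (α + π / 3 + ρ) - ee (α + π / 3))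
    linarith
  obtain ⟨a', b', ha', hb', hwz⟩ := hopen _ hz
  have ha1 := (abs_lt.1 (ha'.trans_le (min_le_right _ _)))
  have ha2 := (abs_lt.1 (ha'.trans_le (min_le_left _ _)))
  have hb1 := (abs_lt.1 (hb'.trans_le (min_le_right _ _)))
  have hb2 := (abs_lt.1 (hb'.trans_le (min_le_left _ _)))
  have hp : 0 < a' - α := cex_p α s ρ a' b' hs0 (by linarith) (by linarith) (by linarith)
    ha1.1 ha1.2 hb1.1 hb1.2 hwz
  have hρs : s < ρ := cex_rho α s s' t' ρ hs0 (by linarith) (by linarith) hs'0 ht0 (by linarith)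
    (by linarith) (by linarith) hw1
  have hr : 0 < b' - (α + π / 3) := cex_r α s ρ a' b' hs0 hρs (by linarith)
    ha1.1 ha1.2 hb1.1 hb1.2 hwz
  have hcen' : ∀ t, ee t ∈ F b ∨ ee t ∈ F a := fun t => (h.cen t).symm
  refine ⟨α + π / 3 + ρ, hw1, ?_, ?_⟩
  · rw [hwz]
    have u1 : a' ∈ UU F a := by
      have := h.gap (a' - α) hp (by linarith)
      rwa [show α + (a' - α) = a' by ring] at this
    have u2 : b' ∈ UU F b := by
      have := (cen_hex h.cfg h.cen (h.gap (b' - (α + π / 3)) hr (by linarith))).1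
      rwa [show α + (b' - (α + π / 3)) + π / 3 = b' by ring] at this
    exact h.cfg.RR_of_UU u1 u2 (cex_sin_neg (by linarith) (by linarith)).ne
  · rw [← hw1, add_comm]
    have u1 : α + 2 * π / 3 + t' ∈ UU F a := by
      have := (cen_hex h.cfg hcen' (cen_hex h.cfg h.cen (h.gap t' ht0 (by linarith))).1).1
      rwa [show α + t' + π / 3 + π / 3 = α + 2 * π / 3 + t' by ring] at this
    exact h.cfg.RR_of_UU u1 hU (cex_sin_pos (by linarith) (by linarith)).ne'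

theorem cex_diff (α s s' t' : ℝ) :
    (ee (α + s') + ee (α + 2 * π / 3 + t')) - (ee (α - π / 3 + s) + ee (α + π / 3)) =
      (ee (α + 2 * π / 3 + t') + ee (α + 2 * π / 3 + s) - ee (α + 2 * π / 3)) +
        (ee (α + s') - ee α) := by
  rw [cex_opp, cex_hex1]; ring

theorem cex_low (α x s' : ℝ) (hx : 0 ≤ x) (hx1 : x ≤ 1) (h1 : -(1 / 100) < s') (h2 : s' < 0) :
    ‖(ee (α + 2 * π / 3 + x) + ee (α + 2 * π / 3 + 0) - ee (α + 2 * π / 3)) +
        (ee (α + s') - ee α)‖ < 1 := by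
  have hpi3 := pi_gt_d2
  have hpi4 := pi_lt_d2
  have e : (ee (α + 2 * π / 3 + x) + ee (α + 2 * π / 3 + 0) - ee (α + 2 * π / 3)) +
      (ee (α + s') - ee α) = ee (α + s') + ee (α + 2 * π / 3 + x) - ee α := by
    rw [add_zero]; ring
  rw [e, norm_three_lt_one]
  refine mul_neg_of_neg_of_pos (mul_neg_of_pos_of_neg ?_ ?_) ?_
  · exact cos_pos_of_mem_Ioo ⟨by linarith, by linarith⟩
  · exact cex_sin_neg (by linarith) (by linarith)
  · exact cex_sin_pos (by linarith) (by linarith)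

theorem cex_gen (α t₁ η : ℝ) (ht : 0 < t₁) (hη : 0 < η) (hη1 : η ≤ 1) :
    ∃ δ, 0 < δ ∧ ∀ s', -δ < s' → s' < 0 → ∀ x, t₁ ≤ x → x ≤ 1 → ∃ y, 0 < y ∧ y < η ∧
      ‖(ee (α + 2 * π / 3 + x) + ee (α + 2 * π / 3 + y) - ee (α + 2 * π / 3)) +
        (ee (α + s') - ee α)‖ = 1 := by
  by_cases hne : t₁ ≤ 1
  swap
  · exact ⟨1, one_pos, fun s' _ _ x h1 h2 => absurd (h1.trans h2) hne⟩
  have hc : Continuous fun x : ℝ =>
      ‖ee (α + 2 * π / 3 + x) + ee (α + 2 * π / 3 + η) - ee (α + 2 * π / 3)‖ := by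
    have := continuous_ee
    fun_prop
  obtain ⟨x₀, hx₀, hmin⟩ := (isCompact_Icc (a := t₁) (b := 1)).exists_isMinOn
    ⟨t₁, le_refl _, hne⟩ hc.continuousOn
  have hpos : 1 < ‖ee (α + 2 * π / 3 + x₀) + ee (α + 2 * π / 3 + η) - ee (α + 2 * π / 3)‖ := by
    rw [one_lt_norm_three]
    obtain ⟨k1, k2⟩ := hx₀
    refine mul_pos (mul_pos ?_ ?_) ?_
    · exact cex_cos_pos (by linarith) (by linarith)
    · exact cex_sin_pos (by linarith) (by linarith)
    · exact cex_sin_pos (by linarith) (by linarith)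
  set m := ‖ee (α + 2 * π / 3 + x₀) + ee (α + 2 * π / 3 + η) - ee (α + 2 * π / 3)‖ with hm
  refine ⟨min (1 / 100) (m - 1), lt_min (by norm_num) (by linarith), ?_⟩
  intro s' h1 h2 x hx1 hx2
  have h1a : -(1 / 100) < s' := by
    have := min_le_left (1 / 100 : ℝ) (m - 1); linarith
  have h1b : -(m - 1) < s' := by
    have := min_le_right (1 / 100 : ℝ) (m - 1); linarith
  let g : ℝ → ℝ := fun y => ‖(ee (α + 2 * π / 3 + x) + ee (α + 2 * π / 3 + y) -
    ee (α + 2 * π / 3)) + (ee (α + s') - ee α)‖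
  have hg : Continuous g := by
    have := continuous_ee
    simp only [g]
    fun_prop
  have g0 : g 0 < 1 := cex_low α x s' (by linarith) hx2 h1a h2
  have g1 : 1 < g η := by
    have k1 : m ≤ ‖ee (α + 2 * π / 3 + x) + ee (α + 2 * π / 3 + η) - ee (α + 2 * π / 3)‖ :=
      hmin ⟨hx1, hx2⟩
    have n1 := norm_ee_sub_ee_le (α + s') α
    rw [show α + s' - α = s' by ring, abs_of_neg h2] at n1
    have := norm_sub_le ((ee (α + 2 * π / 3 + x) + ee (α + 2 * π / 3 + η) -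
      ee (α + 2 * π / 3)) + (ee (α + s') - ee α)) (ee (α + s') - ee α)
    rw [add_sub_cancel_right] at this
    simp only [g]
    linarith
  obtain ⟨y, hy, hy1⟩ := intermediate_value_Ioo hη.le hg.continuousOn ⟨g0, g1⟩
  exact ⟨y, hy.1, hy.2, hy1⟩

theorem ivt_t (α s η : ℝ) (hs : 0 < s) (hs1 : s ≤ 1) (hη : 0 < η) (hη1 : η ≤ 1) :
    ∃ δ, 0 < δ ∧ ∀ s', -δ < s' → s' < 0 → ∃ t', 0 < t' ∧ t' < η ∧
      ‖(ee (α + s') + ee (α + 2 * π / 3 + t')) - (ee (α - π / 3 + s) + ee (α + π / 3))‖ = 1 := by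
  obtain ⟨δ, hδ, H⟩ := cex_gen α s η hs hη hη1
  refine ⟨δ, hδ, fun s' h1 h2 => ?_⟩
  obtain ⟨y, hy0, hy1, hy⟩ := H s' h1 h2 s le_rfl hs1
  refine ⟨y, hy0, hy1, ?_⟩
  rw [cex_diff, add_comm (ee (α + 2 * π / 3 + y))]
  exact hy

theorem ivt_s (α t₁ η : ℝ) (ht : 0 < t₁) (hη : 0 < η) (hη1 : η ≤ 1) :
    ∃ δ, 0 < δ ∧ ∀ s', -δ < s' → s' < 0 → ∀ t', t₁ ≤ t' → t' ≤ 1 → ∃ s, 0 < s ∧ s < η ∧
      ‖(ee (α + s') + ee (α + 2 * π / 3 + t')) - (ee (α - π / 3 + s) + ee (α + π / 3))‖ = 1 := by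
  obtain ⟨δ, hδ, H⟩ := cex_gen α t₁ η ht hη hη1
  refine ⟨δ, hδ, fun s' h1 h2 t' h3 h4 => ?_⟩
  obtain ⟨y, hy0, hy1, hy⟩ := H s' h1 h2 t' h3 h4
  refine ⟨y, hy0, hy1, ?_⟩
  rw [cex_diff]
  exact hy

end Vale.Agent.P032
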