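import Vale.Agent.P032.CLab
import Vale.Agent.P032.CCell

open Filter Topology Real

namespace Vale.Agent.P032

variable {F : Fin 5 → Set ℂ}

theorem CF1Aux.cases (a : Fin 5) : a = 0 ∨ a = 1 ∨ a = 2 ∨ a = 3 ∨ a = 4 := by
  revert a; decide

theorem four_of_adj (h : Cfg F) (h01 : Adj F 0 0 1) (h12 : Adj F 0 1 2) (h23 : Adj F 0 2 3)
    (h30 : Adj F 0 3 0) : Four F := by
  have m0 := (h01.mem h).2.1
  have m1 := (h01.mem h).2.2
  have m2 := (h23.mem h).2.1
  have m3 := (h23.mem h).2.2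
  refine ⟨h, m0, m1, m2, m3, fun h02 => h.no_triangle 0 h01 h12 h02.symm,
    fun h13 => h.no_triangle 0 h12 h23 h13.symm, h.dense_lab.mono ?_⟩
  rintro t (⟨a, ha, h0⟩ | ⟨a, b, hab, ha, hb, hn⟩)
  · rcases CF1Aux.cases a with rfl | rfl | rfl | rfl | rfl
    · exact absurd m0 h0
    · exact absurd m1 h0
    · exact absurd m2 h0
    · exact absurd m3 h0
    · exact Or.inr ha
  · rcases CF1Aux.cases a with rfl | rfl | rfl | rfl | rfl <;>
      rcases CF1Aux.cases b with rfl | rfl | rfl | rfl | rfl <;>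
      first
        | exact absurd rfl hab
        | exact Or.inr ha
        | exact Or.inr hb
        | exact Or.inl (Or.inl ⟨ha, hb⟩)
        | exact Or.inl (Or.inl ⟨hb, ha⟩)
        | exact Or.inl (Or.inr ⟨ha, hb⟩)
        | exact Or.inl (Or.inr ⟨hb, ha⟩)
        | exact absurd h01 hn
        | exact absurd h12 hn
        | exact absurd h23 hn
        | exact absurd h30 hn
        | exact absurd h01.symm hn
        | exact absurd h12.symm hn
        | exact absurd h23.symm hn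
        | exact absurd h30.symm hn

theorem Four.rot (h : Four F) :
    Four (F ∘ rot4) ∧ PA (F ∘ rot4) = PB F ∧ PB (F ∘ rot4) = PA F ∧ UU (F ∘ rot4) 4 = UU F 4 := by
  have hb : Function.Bijective rot4 := by decide
  have e1 : PA (F ∘ rot4) = PB F := rfl
  have e2 : PB (F ∘ rot4) = PA F := Set.inter_comm _ _
  have e3 : UU (F ∘ rot4) 4 = UU F 4 := rfl
  refine ⟨⟨h.cfg.perm _ hb, h.m1, h.m2, h.m3, h.m0, fun h1 => h.n13 ((adj_perm _ hb _ _ _).1 h1),
    fun h1 => h.n02 (Adj.symm ((adj_perm _ hb _ _ _).1 h1)), ?_⟩, e1, e2, e3⟩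
  rw [e1, e2, e3, Set.union_comm (PB F)]
  exact h.dense

theorem Four.PB_nonempty (h : Four F) : (PB F).Nonempty := by
  by_contra hne
  rw [Set.not_nonempty_iff_eq_empty] at hne
  refine h.cfg.no_centre_dense (a := 0) (b := 4) (by decide) (h.dense.mono ?_) ?_
  · rw [hne, Set.union_empty]
    exact Set.union_subset_union_left _ Set.inter_subset_left
  · intro c h0 h4
    rcases CF1Aux.cases c with rfl | rfl | rfl | rfl | rfl
    · exact h.m0
    · exact h.m1
    · exact h.m2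
    · exact h.m3
    · exact absurd rfl h4

theorem Four.PA_nonempty (h : Four F) : (PA F).Nonempty := by
  have := h.rot.1.PB_nonempty
  rwa [h.rot.2.2.1] at this

theorem CF1Aux.opp (h : Four F) {t : ℝ} (hl : ∀ l, l ≠ 4 → t ∈ UU F l ∨ t + π ∈ UU F l) :
    False := by
  have a1 := arm_of_four h.cfg 1 (Or.inl rfl) hl
  have a2 := arm_of_four h.cfg (-1) (Or.inr rfl) hl
  refine h.cfg.no_centre_dense (a := 0) (b := 1) (by decide) (h.dense.mono ?_) ?_
  · rintro s ((hs | hs) | hs)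
    · exact Or.inl hs.1
    · exact Or.inr hs.1
    · exact absurd (UU_mem hs) (Arm.both h.cfg a1 a2 s)
  · intro c _ _
    rcases CF1Aux.cases c with rfl | rfl | rfl | rfl | rfl
    · exact h.m0
    · exact h.m1
    · exact h.m2
    · exact h.m3
    · exact a1.zero_mem

theorem Four.not_opp (h : Four F) {t : ℝ} :
    (t ∈ PA F → t + π ∈ PB F → False) ∧ (t ∈ PB F → t + π ∈ PA F → False) := by
  refine ⟨fun h1 h2 => CF1Aux.opp h (t := t) fun l hl => ?_,
    fun h1 h2 => CF1Aux.opp h (t := t) fun l hl => ?_⟩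
  · rcases CF1Aux.cases l with rfl | rfl | rfl | rfl | rfl
    · exact Or.inl h1.1
    · exact Or.inr h2.1
    · exact Or.inl h1.2
    · exact Or.inr h2.2
    · exact absurd rfl hl
  · rcases CF1Aux.cases l with rfl | rfl | rfl | rfl | rfl
    · exact Or.inr h2.1
    · exact Or.inl h1.1
    · exact Or.inr h2.2
    · exact Or.inl h1.2
    · exact absurd rfl hl

theorem Four.disj (h : Four F) {t : ℝ} : (t ∈ PA F → t ∈ PB F → False) ∧
    (t ∈ PA F → t ∈ UU F 4 → False) ∧ (t ∈ PB F → t ∈ UU F 4 → False) :=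
  ⟨fun h1 h2 => h.cfg.UU_triple (by decide) (by decide) (by decide) h1.1 h1.2 h2.1,
    fun h1 h2 => h.cfg.UU_triple (by decide) (by decide) (by decide) h1.1 h1.2 h2,
    fun h1 h2 => h.cfg.UU_triple (by decide) (by decide) (by decide) h1.1 h1.2 h2⟩

theorem CF1Aux.arms (h : Cfg F) {t : ℝ} {c c' : Fin 5} (hcc : c ≠ c') (hn : ¬ Adj F 0 c c')
    (hl : ∀ l, l ≠ c → l ≠ c' → t ∈ UU F l ∨ t + π ∈ UU F l)
    (hne : (UU F c ∩ UU F c').Nonempty) :
    ∃ σ : ℝ, (σ = 1 ∨ σ = -1) ∧ Arm F c t σ ∧ Arm F c' t (-σ) := by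
  obtain ⟨s, hs, hs'⟩ := hne
  rcases arm_of_three h 1 (Or.inl rfl) hcc hn hl with a1 | a1 <;>
    rcases arm_of_three h (-1) (Or.inr rfl) hcc hn hl with a2 | a2
  · exact absurd (UU_mem hs) (Arm.both h a1 a2 s)
  · exact ⟨1, Or.inl rfl, a1, a2⟩
  · exact ⟨-1, Or.inr rfl, a2, by rwa [neg_neg]⟩
  · exact absurd (UU_mem hs') (Arm.both h a1 a2 s)

theorem Four.armsA (h : Four F) {t : ℝ} (h1 : t ∈ PA F) (h2 : t + π ∈ UU F 4) :
    ∃ σ : ℝ, (σ = 1 ∨ σ = -1) ∧ Arm F 1 t σ ∧ Arm F 3 t (-σ) := by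
  refine CF1Aux.arms h.cfg (by decide) h.n13 (fun l ha hb => ?_) h.PB_nonempty
  rcases CF1Aux.cases l with rfl | rfl | rfl | rfl | rfl
  · exact Or.inl h1.1
  · exact absurd rfl ha
  · exact Or.inl h1.2
  · exact absurd rfl hb
  · exact Or.inr h2

theorem Four.armsB (h : Four F) {t : ℝ} (h1 : t ∈ PB F) (h2 : t + π ∈ UU F 4) :
    ∃ σ : ℝ, (σ = 1 ∨ σ = -1) ∧ Arm F 0 t σ ∧ Arm F 2 t (-σ) := by
  refine CF1Aux.arms h.cfg (by decide) h.n02 (fun l ha hb => ?_) h.PA_nonempty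
  rcases CF1Aux.cases l with rfl | rfl | rfl | rfl | rfl
  · exact absurd rfl ha
  · exact Or.inl h1.1
  · exact absurd rfl hb
  · exact Or.inl h1.2
  · exact Or.inr h2

end Vale.Agent.P032
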