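import Vale.Agent.P032.CF1

open Filter Topology Real

namespace Vale.Agent.P032

variable {F : Fin 5 → Set ℂ}

theorem CF2Aux.cont_ee : Continuous ee :=
  continuous_iff_continuousAt.mpr fun t => (hasStrictDerivAt_ee t).hasDerivAt.continuousAt

theorem CF2Aux.mem4 (h : Cfg F) {a b : ℝ} (ha : a ∈ closure (PA F)) (hb : b ∈ PB F)
    (hs : sin (a - b) ≠ 0) : ee a + ee b ∈ F 4 := by
  have ho : IsOpen {s : ℝ | sin (s - b) ≠ 0} :=
    isOpen_ne_fun (by fun_prop) continuous_const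
  have h1 : a ∈ closure ({s : ℝ | sin (s - b) ≠ 0} ∩ PA F) := ho.inter_closure ⟨hs, ha⟩
  have hc : IsClosed {s : ℝ | ee s + ee b ∈ F 4} :=
    (h.closed 4).preimage (CF2Aux.cont_ee.add continuous_const)
  refine closure_minimal (fun s hs' => ?_) hc h1
  have h2 : sin (b - s) ≠ 0 := by
    rw [← neg_sub, sin_neg]; exact neg_ne_zero.mpr hs'.1
  have n0 := h.UU_two hs'.2.1 b hs'.1
  have n2 := h.UU_two hs'.2.2 b hs'.1
  have n1 := h.UU_two hb.1 s h2
  have n3 := h.UU_two hb.2 s h2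
  rw [add_comm] at n1 n3
  obtain ⟨i, hi⟩ := h.cover (ee s + ee b)
  fin_cases i
  exacts [absurd hi n0, absurd hi n1, absurd hi n2, absurd hi n3, hi]

theorem CF2Aux.cnt (c : ℝ) : {s : ℝ | sin (c - s) = 0}.Countable := by
  refine (Set.countable_range fun k : ℤ => c - k * π).mono fun s hs => ?_
  obtain ⟨k, hk⟩ := sin_eq_zero_iff.mp hs
  exact ⟨k, by simp only; linarith⟩

theorem CF2Aux.same (h : Cfg F) {θ θ' σ v : ℝ} (hσ : σ = 1 ∨ σ = -1) (a : Arm F 1 θ σ)
    (a' : Arm F 1 θ' σ) (h1 : 0 < sin (v - θ)) (h2 : sin (v - θ') < 0) (hv : v ∈ PB F) :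
    False := by
  rcases hσ with rfl | rfl
  · exact Arm.two h a a' (by linarith) (by linarith) (UU_mem hv.1)
  · exact Arm.two h a' a (by linarith) (by linarith) (UU_mem hv.1)

theorem Four.g1A (h : Four F) {t : ℝ} (h1 : t ∈ closure (PA F))
    (h2 : t + π / 3 ∈ closure (PA F)) : False := by
  have hO : IsOpen (PB F) := (isOpen_UU 1).inter (isOpen_UU 3)
  have hc := ((CF2Aux.cnt t).union (CF2Aux.cnt (t + π / 3))).union (CF2Aux.cnt (t + 2 * π / 3))
  obtain ⟨b, hb, hb'⟩ := (hc.dense_compl ℝ).inter_open_nonempty _ hO h.PB_nonempty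
  simp only [Set.mem_compl_iff, Set.mem_union, Set.mem_ofPred_eq, not_or] at hb'
  obtain ⟨⟨s0, s1⟩, s2⟩ := hb'
  set u := t + 2 * π / 3 with hu
  let κ : ℝ → ℝ := fun s => cos ((u - b) / 2) * sin ((u - s) / 2)
  have hκc : Continuous κ := by fun_prop
  have hκ : κ b ≠ 0 := by
    intro h0
    apply s2
    have : sin (u - b) = 2 * κ b := by
      rw [show u - b = 2 * ((u - b) / 2) by ring, sin_two_mul]
      simp only [κ]; ring
    rw [this, h0, mul_zero]
  have ev : ∀ᶠ s in 𝓝 b, s ∈ PB F ∧ sin (t - s) ≠ 0 ∧ 0 < κ s * κ b := by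
    refine (hO.eventually_mem hb).and (Eventually.and ?_ ?_)
    · exact (by fun_prop : Continuous fun s => sin (t - s)).continuousAt.eventually_ne s0
    · exact continuousAt_const.eventually_lt (hκc.mul continuous_const).continuousAt
        (mul_self_pos.mpr hκ)
  obtain ⟨ε, hε, hev⟩ := Metric.eventually_nhds_iff.mp ev
  set η := min (ε / 2) 1 with hη
  have η0 : 0 < η := lt_min (by linarith) one_pos
  have η1 : η ≤ ε / 2 := min_le_left _ _
  have η2 : η ≤ 1 := min_le_right _ _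
  have hin : ∀ s, b - η ≤ s → s ≤ b + η → s ∈ PB F ∧ sin (t - s) ≠ 0 ∧ 0 < κ s * κ b :=
    fun s h1 h2 => hev (by rw [Real.dist_eq, abs_lt]; constructor <;> linarith)
  have hw := CF2Aux.mem4 h.cfg h2 hb s1
  have hpath : ∀ s, b - η ≤ s → s ≤ b + η → ee t + ee s ∈ F 4 := fun s h3 h4 =>
    CF2Aux.mem4 h.cfg h1 (hin s h3 h4).1 (hin s h3 h4).2.1
  have e : ∀ s, ee (t + π / 3) + ee b - (ee t + ee s) = ee u + ee b - ee s := by
    intro s
    have := ee_hex (t + π / 3)
    rw [add_sub_cancel_right, show t + π / 3 + π / 3 = u by rw [hu]; ring] at this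
    rw [← this]; ring
  have sp : 0 < sin (η / 2) := sin_pos_of_pos_of_lt_pi (by linarith) (by linarith [pi_gt_three])
  have em : sin ((b - (b - η)) / 2) = sin (η / 2) := by congr 1; ring
  have ep : sin ((b - (b + η)) / 2) = -sin (η / 2) := by rw [← sin_neg]; congr 1; ring
  have km := (hin (b - η) le_rfl (by linarith)).2.2
  have kp := (hin (b + η) (by linarith) le_rfl).2.2
  have hγ : Continuous fun s => ee t + ee s := continuous_const.add CF2Aux.cont_ee
  rcases lt_or_gt_of_ne hκ with hk | hk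
  · have k1 : κ (b - η) < 0 := by nlinarith
    have k2 : κ (b + η) < 0 := by nlinarith
    refine h.cfg.shadow_path hγ hpath (s := b - η) (s' := b + η) ⟨le_rfl, by linarith⟩
      ⟨by linarith, le_rfl⟩ ?_ ?_ hw
    · rw [e, norm_three_lt_one, em]
      exact mul_neg_of_neg_of_pos k1 sp
    · rw [e, one_lt_norm_three, ep]
      exact mul_pos_of_neg_of_neg k2 (by linarith)
  · have k1 : 0 < κ (b - η) := by nlinarith
    have k2 : 0 < κ (b + η) := by nlinarith
    refine h.cfg.shadow_path hγ hpath (s := b + η) (s' := b - η) ⟨by linarith, le_rfl⟩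
      ⟨le_rfl, by linarith⟩ ?_ ?_ hw
    · rw [e, norm_three_lt_one, ep]
      exact mul_neg_of_pos_of_neg k2 (by linarith)
    · rw [e, one_lt_norm_three, em]
      exact mul_pos k1 sp

theorem Four.g1B (h : Four F) {t : ℝ} (h1 : t ∈ closure (PB F))
    (h2 : t + π / 3 ∈ closure (PB F)) : False := by
  obtain ⟨hr, e1, -, -⟩ := h.rot
  exact hr.g1A (e1 ▸ h1) (e1 ▸ h2)

/-- the alternating case -/
theorem Four.case2 (h : Four F) {x f : ℝ} (hxf : |x - f| < π / 6)
    (a0 : x ∈ PA F) (a1 : x + 2 * π / 3 ∈ PA F) (a2 : x + 4 * π / 3 ∈ PA F)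
    (c0 : x + π ∈ UU F 4) (c1 : x + 2 * π / 3 + π ∈ UU F 4) (c2 : x + 4 * π / 3 + π ∈ UU F 4)
    (b0 : f + π / 3 ∈ PB F) (b1 : f + π ∈ PB F) (b2 : f + 5 * π / 3 ∈ PB F) : False := by
  obtain ⟨σ0, s0, A0, -⟩ := h.armsA a0 c0
  obtain ⟨σ1, s1, A1, -⟩ := h.armsA a1 c1
  obtain ⟨σ2, s2, A2, -⟩ := h.armsA a2 c2
  obtain ⟨d1, d2⟩ := abs_lt.mp hxf
  have hpi := pi_pos
  have p : 0 < sin (f - x + π / 3) := sin_pos_of_pos_of_lt_pi (by linarith) (by linarith)
  have n : sin (f - x - π / 3) < 0 := sin_neg_of_neg_of_neg_pi_lt (by linarith) (by linarith)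
  have k01 : σ0 ≠ σ1 := by
    rintro rfl
    refine CF2Aux.same h.cfg s0 A0 A1 ?_ ?_ b0
    · rwa [show f + π / 3 - x = f - x + π / 3 by ring]
    · rwa [show f + π / 3 - (x + 2 * π / 3) = f - x - π / 3 by ring]
  have k12 : σ1 ≠ σ2 := by
    rintro rfl
    refine CF2Aux.same h.cfg s1 A1 A2 ?_ ?_ b1
    · rwa [show f + π - (x + 2 * π / 3) = f - x + π / 3 by ring]
    · rwa [show f + π - (x + 4 * π / 3) = f - x - π / 3 by ring]
  have k20 : σ2 ≠ σ0 := by
    rintro rfl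
    refine CF2Aux.same h.cfg s2 A2 A0 ?_ ?_ b2
    · rwa [show f + 5 * π / 3 - (x + 4 * π / 3) = f - x + π / 3 by ring]
    · rwa [show f + 5 * π / 3 - x = f - x - π / 3 + 2 * π by ring, sin_add_two_pi]
  rcases s0 with rfl | rfl <;> rcases s1 with rfl | rfl <;> rcases s2 with rfl | rfl <;>
    first | exact k01 rfl | exact k12 rfl | exact k20 rfl

end Vale.Agent.P032
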