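import Vale.Agent.P032.CF1

open Filter Topology Real

namespace Vale.Agent.P032

variable {F : Fin 5 → Set ℂ}

theorem CF3Aux.pur (h : Cfg F) {p q r : Fin 5} (hpq : p ≠ q) (hpr : p ≠ r) (hqr : q ≠ r)
    {j f δ : ℝ} (hb : ∀ w : ℂ, ‖w - ee j‖ < δ → ∀ l, l ≠ p → l ≠ q → l ≠ r → w ∉ F l)
    (hp : f ∈ UU F p) (hq : f ∈ UU F q) (hf : dist j f < δ) :
    ∃ z ∈ Pur F p q, dist (ee j) z < δ := by
  have h1 : f ∈ closure {t : ℝ | ee t ∈ F r}ᶜ := by
    rw [closure_compl]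
    exact fun hr => h.UU_triple hpq hpr hqr hp hq hr
  have hO : IsOpen (UU F p ∩ UU F q ∩ Metric.ball j δ) :=
    ((isOpen_UU p).inter (isOpen_UU q)).inter Metric.isOpen_ball
  obtain ⟨t, ⟨⟨tp, tq⟩, tb⟩, tr⟩ := mem_closure_iff.mp h1 _ hO
    ⟨⟨hp, hq⟩, by rwa [Metric.mem_ball, dist_comm]⟩
  have hd : ‖ee t - ee j‖ < δ := (norm_ee_sub_ee_le t j).trans_lt tb
  refine ⟨ee t, ⟨hpq, UU_mem tp, UU_mem tq, fun l hlp hlq => ?_⟩, by
    rwa [dist_comm, dist_eq_norm]⟩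
  by_cases hl : l = r
  · rw [hl]; exact tr
  · exact hb _ hd l hlp hlq hl

/-- one side of the circle: a two-coloured half neighbourhood gives an adjacency -/
theorem adj_of_side (h : Cfg F) {p q r : Fin 5} (hpq : p ≠ q) (hpr : p ≠ r) (hqr : q ≠ r)
    {j : ℝ} (σ : ℝ) (hσ : σ = 1 ∨ σ = -1) (ρ : ℝ) (hρ : 0 < ρ)
    (hb : ∀ w : ℂ, ‖w - ee j‖ < ρ → ∀ l, l ≠ p → l ≠ q → l ≠ r → w ∉ F l)
    (hs : ∀ w : ℂ, ‖w - ee j‖ < ρ → 0 < σ * (‖w‖ - 1) → w ∉ F p)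
    (h1 : j ∈ closure (UU F p ∩ UU F q)) (h2 : j ∈ closure (UU F r)) : Adj F (ee j) q r := by
  refine Metric.mem_closure_iff.mpr fun ε hε => ?_
  set δ := min (min ε ρ) 1 / 2 with hδ
  have hm : 0 < min (min ε ρ) 1 := lt_min (lt_min hε hρ) one_pos
  have δ0 : 0 < δ := by positivity
  have δ1 : 2 * δ ≤ ε := by
    have := (min_le_left (min ε ρ) 1).trans (min_le_left ε ρ); linarith
  have δ2 : 2 * δ ≤ ρ := by
    have := (min_le_left (min ε ρ) 1).trans (min_le_right ε ρ); linarith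
  have δ3 : 2 * δ ≤ 1 := by
    have := min_le_right (min ε ρ) 1; linarith
  have hee : Continuous ee :=
    continuous_iff_continuousAt.mpr fun t => (hasStrictDerivAt_ee t).hasDerivAt.continuousAt
  let Φ : ℝ × ℝ → ℂ := fun y => ((1 + σ * y.1 : ℝ) : ℂ) * ee y.2
  have hΦ : Continuous Φ := by fun_prop
  have hσa : |σ| = 1 := by rcases hσ with rfl | rfl <;> simp
  have hσ2 : σ * σ = 1 := by rcases hσ with rfl | rfl <;> simp
  set W := Φ '' (Set.Ioo 0 δ ×ˢ Metric.ball j δ) with hW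
  have hWc : IsPreconnected W :=
    ((convex_Ioo 0 δ).prod (convex_ball j δ)).isPreconnected.image _ hΦ.continuousOn
  have hWp : ∀ w ∈ W, ‖w - ee j‖ < 2 * δ ∧ w ∉ F p := by
    rintro _ ⟨⟨s, θ⟩, ⟨hs1, hθ⟩, rfl⟩
    have hθ' : |θ - j| < δ := hθ
    have s0 : 0 < s := hs1.1
    have s1 : s < δ := hs1.2
    have e1 : Φ (s, θ) - ee j = ((σ * s : ℝ) : ℂ) * ee θ + (ee θ - ee j) := by
      simp only [Φ]; push_cast; ring
    have n1 : ‖Φ (s, θ) - ee j‖ < 2 * δ := by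
      rw [e1]
      refine (norm_add_le _ _).trans_lt ?_
      rw [norm_mul, norm_ee, Complex.norm_real, Real.norm_eq_abs, abs_mul, hσa, abs_of_pos s0]
      linarith [norm_ee_sub_ee_le θ j]
    refine ⟨n1, hs _ (by linarith) ?_⟩
    have n2 : ‖Φ (s, θ)‖ = 1 + σ * s := by
      simp only [Φ]
      rw [norm_mul, norm_ee, Complex.norm_real, mul_one, Real.norm_of_nonneg]
      rcases hσ with rfl | rfl <;> linarith
    rw [n2, add_sub_cancel_left, ← mul_assoc, hσ2, one_mul]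
    exact s0
  have hWs : W ⊆ F q ∪ F r := by
    intro w hw
    obtain ⟨i, hi⟩ := h.cover w
    by_contra hn
    rw [Set.mem_union, not_or] at hn
    refine hb w (by linarith [(hWp w hw).1]) i ?_ ?_ ?_ hi
    · rintro rfl; exact (hWp w hw).2 hi
    · rintro rfl; exact hn.1 hi
    · rintro rfl; exact hn.2 hi
  have harc : ∀ c, W ⊆ F c → Metric.ball j δ ⊆ UU F c := by
    intro c hc
    refine interior_maximal (fun θ hθ => ?_) Metric.isOpen_ball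
    have t1 : Tendsto (fun s : ℝ => Φ (s, θ)) (𝓝[>] 0) (𝓝 (Φ (0, θ))) :=
      ((hΦ.comp (continuous_id.prodMk continuous_const)).tendsto 0).mono_left nhdsWithin_le_nhds
    have e0 : Φ (0, θ) = ee θ := by simp [Φ]
    rw [e0] at t1
    refine (h.closed c).mem_of_tendsto t1 ?_
    filter_upwards [Ioo_mem_nhdsGT δ0] with s hs1
    exact hc ⟨(s, θ), ⟨hs1, hθ⟩, rfl⟩
  by_cases hne : W ∩ (F q ∩ F r) = ∅
  · rcases isPreconnected_iff_subset_of_disjoint_closed.mp hWc _ _ (h.closed q) (h.closed r) hWs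
      hne with hc | hc
    · obtain ⟨f, hf, hd⟩ := Metric.mem_closure_iff.mp h2 δ δ0
      obtain ⟨z, hz, hd'⟩ := CF3Aux.pur h hqr hpq.symm hpr.symm (δ := δ)
        (fun w hw l h3 h4 h5 => hb w (by linarith) l h5 h3 h4)
        (harc q hc (by rwa [Metric.mem_ball, dist_comm])) hf hd
      exact ⟨z, hz, by linarith⟩
    · obtain ⟨f, hf, hd⟩ := Metric.mem_closure_iff.mp h1 δ δ0
      exact (h.UU_triple hpq hpr hqr hf.1 hf.2
        (harc r hc (by rwa [Metric.mem_ball, dist_comm]))).elim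
  · obtain ⟨w, hw, wq, wr⟩ := Set.nonempty_iff_ne_empty.mpr hne
    refine ⟨w, ⟨hqr, wq, wr, fun l h3 h4 => ?_⟩, ?_⟩
    · by_cases hl : l = p
      · rw [hl]; exact (hWp w hw).2
      · exact hb w (by linarith [(hWp w hw).1]) l hl h3 h4
    · rw [dist_comm, dist_eq_norm]
      linarith [(hWp w hw).1]

theorem adj_of_arc (h : Cfg F) {p q r : Fin 5} (hpq : p ≠ q) (hpr : p ≠ r) (hqr : q ≠ r)
    {j : ℝ} (ρ : ℝ) (hρ : 0 < ρ)
    (hb : ∀ w : ℂ, ‖w - ee j‖ < ρ → ∀ l, l ≠ p → l ≠ q → l ≠ r → w ∉ F l)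
    (h1 : j ∈ closure (UU F p ∩ UU F q)) : Adj F (ee j) p q := by
  refine Metric.mem_closure_iff.mpr fun ε hε => ?_
  obtain ⟨f, hf, hd⟩ := Metric.mem_closure_iff.mp h1 (min ε ρ) (lt_min hε hρ)
  obtain ⟨z, hz, hd'⟩ := CF3Aux.pur h hpq hpr hqr (δ := min ε ρ)
    (fun w hw => hb w (hw.trans_le (min_le_right _ _))) hf.1 hf.2 hd
  exact ⟨z, hz, hd'.trans_le (min_le_left _ _)⟩

/-- the three-coloured transition -/
theorem Four.case1 (h : Four F) {j : ℝ} (h1 : j ∈ closure (PA F)) (h2 : j ∈ closure (UU F 4))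
    (b0 : j + π / 3 ∈ PB F) (b1 : j - π / 3 ∈ PB F) (c0 : j + π / 3 + π ∈ UU F 4) : False := by
  have n1 := (h.cfg.UU_hex b0.1).2
  have n3 := (h.cfg.UU_hex b0.2).2
  rw [add_sub_cancel_right] at n1 n3
  obtain ⟨ρ, hρ, hball⟩ := Metric.isOpen_iff.mp (h.cfg.isOpen_RR 1 3) (ee j) ⟨n1, n3⟩
  have hb : ∀ w : ℂ, ‖w - ee j‖ < ρ → ∀ l : Fin 5, l ≠ 0 → l ≠ 2 → l ≠ 4 → w ∉ F l := by
    intro w hw l l0 l2 l4
    have := hball (show w ∈ Metric.ball (ee j) ρ by rwa [Metric.mem_ball, dist_eq_norm])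
    fin_cases l
    exacts [absurd rfl l0, this.1, absurd rfl l2, this.2, absurd rfl l4]
  have hs : sin (j - (j + π / 3)) < 0 := by
    rw [show j - (j + π / 3) = -(π / 3) by ring, sin_neg, neg_lt_zero]
    exact sin_pos_of_pos_of_lt_pi (by linarith [pi_pos]) (by linarith [pi_pos])
  have side : ∀ (c : Fin 5) (σ : ℝ), (σ = 1 ∨ σ = -1) → Arm F c (j + π / 3) σ →
      ∃ ρ', 0 < ρ' ∧ ∀ w : ℂ, ‖w - ee j‖ < ρ' → 0 < -σ * (‖w‖ - 1) → w ∉ F c := by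
    rintro c σ (rfl | rfl) hA
    · obtain ⟨ρ', h3, h4⟩ := hA.inside h.cfg (v := j) (by linarith)
      exact ⟨ρ', h3, fun w hw hw' => h4 w hw (by linarith)⟩
    · obtain ⟨ρ', h3, h4⟩ := hA.outside h.cfg (v := j) (by linarith)
      exact ⟨ρ', h3, fun w hw hw' => h4 w hw (by linarith)⟩
  obtain ⟨σ, hσ, A0, A2⟩ := h.armsB b0 c0
  have hσ' : -σ = 1 ∨ -σ = -1 := by rcases hσ with rfl | rfl <;> simp
  have hσ'' : - -σ = 1 ∨ - -σ = -1 := by rwa [neg_neg]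
  obtain ⟨ρ0, p0, q0⟩ := side 0 σ hσ A0
  obtain ⟨ρ2, p2, q2⟩ := side 2 (-σ) hσ' A2
  have a24 : Adj F (ee j) 2 4 := adj_of_side h.cfg (p := 0) (by decide) (by decide) (by decide)
    (-σ) hσ' (min ρ ρ0) (lt_min hρ p0) (fun w hw => hb w (hw.trans_le (min_le_left _ _)))
    (fun w hw => q0 w (hw.trans_le (min_le_right _ _))) h1 h2
  have a04 : Adj F (ee j) 0 4 := adj_of_side h.cfg (p := 2) (by decide) (by decide) (by decide)
    (- -σ) hσ'' (min ρ ρ2) (lt_min hρ p2)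
    (fun w hw l l2 l0 l4 => hb w (hw.trans_le (min_le_left _ _)) l l0 l2 l4)
    (fun w hw => q2 w (hw.trans_le (min_le_right _ _))) (by rw [Set.inter_comm]; exact h1) h2
  have a02 : Adj F (ee j) 0 2 :=
    adj_of_arc h.cfg (r := 4) (by decide) (by decide) (by decide) ρ hρ hb h1
  exact h.cfg.no_triangle _ a02 a24 a04.symm

end Vale.Agent.P032
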