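import Vale.Agent.P032.CF2
import Vale.Agent.P032.CF3

open Filter Topology Real

namespace Vale.Agent.P032

variable {F : Fin 5 → Set ℂ}

theorem CF4Aux.ev_not {A : Set ℝ} {j c : ℝ} (h : j + c ∉ closure A) :
    ∀ᶠ t in 𝓝 j, t + c ∉ A := by
  have h1 : (closure A)ᶜ ∈ 𝓝 (j + c) := isClosed_closure.isOpen_compl.mem_nhds h
  have h2 : Tendsto (fun t : ℝ => t + c) (𝓝 j) (𝓝 (j + c)) :=
    (continuous_id.add continuous_const).tendsto j
  filter_upwards [h2 h1] with t ht hm using ht (subset_closure hm)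

theorem CF4Aux.fill (h : Cfg F) {S : Set ℝ} (hS : Dense S) {i : Fin 5} {j c : ℝ}
    (H : ∀ᶠ t in 𝓝 j, t + c ∈ S → t + c ∈ UU F i) : j + c ∈ UU F i := by
  have h2 : Tendsto (fun t : ℝ => t - c) (𝓝 (j + c)) (𝓝 j) := by
    have h3 : Continuous fun t : ℝ => t - c := by fun_prop
    have := h3.tendsto (j + c)
    simpa using this
  have H' : ∀ᶠ t in 𝓝 (j + c), t ∈ S → t ∈ UU F i := by
    filter_upwards [h2 H] with t ht
    simpa using ht
  obtain ⟨N, hN, ho, hj⟩ := eventually_nhds_iff.1 H'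
  have hc : IsClosed {t : ℝ | ee t ∈ F i} := by
    refine (h.closed i).preimage ?_
    unfold ee
    fun_prop
  refine mem_interior.2 ⟨N, (hS.open_subset_closure_inter ho).trans ?_, ho, hj⟩
  exact closure_minimal (fun t ht => UU_mem (hN t ht.1 ht.2)) hc

theorem CF4Aux.freq {U H : Set ℝ} (hU : IsOpen U) (hH : Dense H) {j : ℝ} (h : j ∈ closure U) :
    ∃ᶠ t in 𝓝 j, t ∈ U ∧ t ∈ H :=
  mem_closure_iff_frequently.1
    (closure_minimal (hH.open_subset_closure_inter hU) isClosed_closure h)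

theorem CF4Aux.openA : IsOpen (PA F) := (isOpen_UU _).inter (isOpen_UU _)
theorem CF4Aux.openB : IsOpen (PB F) := (isOpen_UU _).inter (isOpen_UU _)
theorem CF4Aux.perA (t : ℝ) : t + 2 * π ∈ PA F ↔ t ∈ PA F :=
  and_congr (UU_add_two_pi t) (UU_add_two_pi t)
theorem CF4Aux.perB (t : ℝ) : t + 2 * π ∈ PB F ↔ t ∈ PB F :=
  and_congr (UU_add_two_pi t) (UU_add_two_pi t)

theorem CF4Aux.hexD (h : Four F) :
    Dense {t : ℝ | ∀ c : ℝ, (∃ k : ℤ, c = k * (π / 3)) →
      t + c ∈ PA F ∨ t + c ∈ PB F ∨ t + c ∈ UU F 4} := by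
  refine (dense_hex ((CF4Aux.openA.union CF4Aux.openB).union (isOpen_UU 4)) h.dense).mono ?_
  rintro t ht c ⟨k, rfl⟩
  rcases ht k with (h1 | h1) | h1
  · exact Or.inl h1
  · exact Or.inr (Or.inl h1)
  · exact Or.inr (Or.inr h1)

theorem CF4Aux.hex4 (h : Four F) {s t : ℝ} (hs : s ∈ UU F 4) (ht : t ∈ UU F 4)
    (e : t = s + π / 3) : False := by
  subst e
  exact (h.cfg.UU_hex hs).1 (UU_mem ht)

theorem CF4Aux.hexA (h : Four F) {s t : ℝ} (hs : s ∈ closure (PA F)) (ht : t ∈ closure (PA F))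
    (e : t = s + π / 3) : False := by
  subst e
  exact h.g1A hs ht

theorem CF4Aux.hexB (h : Four F) {s t : ℝ} (hs : s ∈ closure (PB F)) (ht : t ∈ closure (PB F))
    (e : t = s + π / 3) : False := by
  subst e
  exact h.g1B hs ht

theorem CF4Aux.oppA (h : Four F) {s t : ℝ} (hs : s ∈ PA F) (ht : t ∈ PB F)
    (e : t = s + π) : False := by
  subst e
  exact h.not_opp.1 hs ht

theorem CF4Aux.oppB (h : Four F) {s t : ℝ} (hs : s ∈ PB F) (ht : t ∈ PA F)
    (e : t = s + π) : False := by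
  subst e
  exact h.not_opp.2 hs ht

open CF4Aux in
theorem Four.transA (h : Four F) {j : ℝ} (h1 : j ∈ closure (PA F)) (h2 : j ∈ closure (UU F 4)) :
    False := by
  have hD := hexD h
  have nA1 : j + π / 3 ∉ closure (PA F) := fun hm => hexA h h1 hm rfl
  have nA2 : j + -(π / 3) ∉ closure (PA F) := fun hm => hexA h hm h1 (by ring)
  have fr : ∃ᶠ f in 𝓝 j, (f ∈ UU F 4 ∧ ∀ c : ℝ, (∃ k : ℤ, c = k * (π / 3)) →
      f + c ∈ PA F ∨ f + c ∈ PB F ∨ f + c ∈ UU F 4) ∧ f + π / 3 ∈ PB F ∧ f + -(π / 3) ∈ PB F := by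
    refine ((freq (isOpen_UU 4) hD h2).and_eventually ((ev_not nA1).and (ev_not nA2))).mono ?_
    rintro f ⟨⟨hf, hH⟩, n1, n2⟩
    refine ⟨⟨hf, hH⟩, ?_, ?_⟩
    · rcases hH (π / 3) ⟨1, by push_cast; ring⟩ with h3 | h3 | h3
      · exact (n1 h3).elim
      · exact h3
      · exact (hex4 h hf h3 rfl).elim
    · rcases hH (-(π / 3)) ⟨-1, by push_cast; ring⟩ with h3 | h3 | h3
      · exact (n2 h3).elim
      · exact h3
      · exact (hex4 h h3 hf (by ring)).elim
  have cB1 : j + π / 3 ∈ closure (PB F) := by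
    by_contra hn
    obtain ⟨f, hf, hf'⟩ := (fr.and_eventually (ev_not hn)).exists
    exact hf' hf.2.1
  have cB2 : j + 5 * π / 3 ∈ closure (PB F) := by
    by_contra hn
    obtain ⟨f, hf, hf'⟩ := (fr.and_eventually (ev_not hn)).exists
    refine hf' ?_
    rw [show f + 5 * π / 3 = f + -(π / 3) + 2 * π by ring]
    exact (perB _).2 hf.2.2
  have nB1 : j + 2 * π / 3 ∉ closure (PB F) := fun hm => hexB h cB1 hm (by ring)
  have nB2 : j + 4 * π / 3 ∉ closure (PB F) := fun hm => hexB h hm cB2 (by ring)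
  by_cases hc : j + π ∈ closure (PA F)
  · have nA3 : j + 2 * π / 3 ∉ closure (PA F) := fun hm => hexA h hm hc (by ring)
    have nA4 : j + 4 * π / 3 ∉ closure (PA F) := fun hm => hexA h hc hm (by ring)
    have u1 : j + 2 * π / 3 ∈ UU F 4 := by
      refine fill h.cfg h.dense ?_
      filter_upwards [ev_not nA3, ev_not nB1] with t t1 t2 t3
      rcases t3 with (t3 | t3) | t3
      exacts [(t1 t3).elim, (t2 t3).elim, t3]
    have u2 : j + 4 * π / 3 ∈ UU F 4 := by
      refine fill h.cfg h.dense ?_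
      filter_upwards [ev_not nA4, ev_not nB2] with t t1 t2 t3
      rcases t3 with (t3 | t3) | t3
      exacts [(t1 t3).elim, (t2 t3).elim, t3]
    have ev : ∀ c, j + c ∈ UU F 4 → ∀ᶠ t in 𝓝 j, t + c ∈ UU F 4 := fun c hc =>
      (continuous_id.add continuous_const).tendsto j ((isOpen_UU 4).mem_nhds hc)
    have v1 : ∀ᶠ t in 𝓝 j, t + π / 3 ∈ PA F ∪ PB F ∪ UU F 4 → t + π / 3 ∈ PB F := by
      filter_upwards [ev_not nA1, ev _ u1] with t t1 t2 t3
      rcases t3 with (t3 | t3) | t3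
      exacts [(t1 t3).elim, t3, (hex4 h t3 t2 (by ring)).elim]
    have v2 : ∀ᶠ t in 𝓝 j, t + -(π / 3) ∈ PA F ∪ PB F ∪ UU F 4 → t + -(π / 3) ∈ PB F := by
      filter_upwards [ev_not nA2, ev _ u2] with t t1 t2 t3
      rcases t3 with (t3 | t3) | t3
      exacts [(t1 t3).elim, t3, (hex4 h t2 ((UU_add_two_pi _).2 t3) (by ring)).elim]
    refine h.case1 h1 h2 ?_ ?_ ?_
    · exact ⟨fill h.cfg h.dense (v1.mono fun t ht hm => (ht hm).1),
        fill h.cfg h.dense (v1.mono fun t ht hm => (ht hm).2)⟩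
    · rw [sub_eq_add_neg]
      exact ⟨fill h.cfg h.dense (v2.mono fun t ht hm => (ht hm).1),
        fill h.cfg h.dense (v2.mono fun t ht hm => (ht hm).2)⟩
    · rwa [show j + π / 3 + π = j + 4 * π / 3 by ring]
  · have hn : ∀ᶠ t in 𝓝 j, |t - j| < π / 12 := by
      filter_upwards [Metric.ball_mem_nhds j (show 0 < π / 12 by positivity)] with t ht
      rwa [Metric.mem_ball, Real.dist_eq] at ht
    have E := hn.and ((ev_not hc).and ((ev_not nB1).and (ev_not nB2)))
    obtain ⟨x, ⟨xA, xH⟩, xn, x1, x2, x3⟩ := ((freq openA hD h1).and_eventually E).exists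
    obtain ⟨f, ⟨⟨f4, fH⟩, fB1, fB2⟩, fn, f1, f2, -⟩ := (fr.and_eventually E).exists
    have c0 : x + π ∈ UU F 4 := by
      rcases xH π ⟨3, by push_cast; ring⟩ with t3 | t3 | t3
      exacts [(x1 t3).elim, (oppA h xA t3 rfl).elim, t3]
    have a1 : x + 2 * π / 3 ∈ PA F := by
      rcases xH (2 * π / 3) ⟨2, by push_cast; ring⟩ with t3 | t3 | t3
      exacts [t3, (x2 t3).elim, (hex4 h t3 c0 (by ring)).elim]
    have a2 : x + 4 * π / 3 ∈ PA F := by
      rcases xH (4 * π / 3) ⟨4, by push_cast; ring⟩ with t3 | t3 | t3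
      exacts [t3, (x3 t3).elim, (hex4 h c0 t3 (by ring)).elim]
    have c1 : x + 2 * π / 3 + π ∈ UU F 4 := by
      rw [add_assoc]
      rcases xH (2 * π / 3 + π) ⟨5, by push_cast; ring⟩ with t3 | t3 | t3
      exacts [(hexA h (subset_closure a2) (subset_closure t3) (by ring)).elim,
        (oppA h a1 t3 (by ring)).elim, t3]
    have c2 : x + 4 * π / 3 + π ∈ UU F 4 := by
      rw [add_assoc]
      rcases xH (4 * π / 3 + π) ⟨7, by push_cast; ring⟩ with t3 | t3 | t3
      exacts [(hexA h (subset_closure ((perA _).2 xA)) (subset_closure t3) (by ring)).elim,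
        (oppA h a2 t3 (by ring)).elim, t3]
    have g1 : f + 2 * π / 3 ∈ UU F 4 := by
      rcases fH (2 * π / 3) ⟨2, by push_cast; ring⟩ with t3 | t3 | t3
      exacts [(oppB h fB2 t3 (by ring)).elim, (f2 t3).elim, t3]
    have b1 : f + π ∈ PB F := by
      rcases fH π ⟨3, by push_cast; ring⟩ with t3 | t3 | t3
      exacts [(f1 t3).elim, t3, (hex4 h g1 t3 (by ring)).elim]
    have b2 : f + 5 * π / 3 ∈ PB F := by
      rw [show f + 5 * π / 3 = f + -(π / 3) + 2 * π by ring]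
      exact (perB _).2 fB2
    refine h.case2 ?_ xA a1 a2 c0 c1 c2 fB1 b1 b2
    rw [abs_lt] at xn fn ⊢
    constructor <;> linarith [xn.1, xn.2, fn.1, fn.2]

open CF4Aux in
theorem Four.false (h : Four F) : False := by
  have hne : UU F 4 ≠ ∅ := by
    intro he
    obtain ⟨t, ht⟩ := (hexD h).nonempty
    have H : ∀ c : ℝ, (∃ k : ℤ, c = k * (π / 3)) → t + c ∈ PA F ∨ t + c ∈ PB F := fun c hc => by
      rcases ht c hc with h1 | h1 | h1
      · exact Or.inl h1
      · exact Or.inr h1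
      · rw [he] at h1; exact h1.elim
    have H0 := H 0 ⟨0, by push_cast; ring⟩
    have H1 := H (π / 3) ⟨1, by push_cast; ring⟩
    have H2 := H (2 * π / 3) ⟨2, by push_cast; ring⟩
    have H3 := H π ⟨3, by push_cast; ring⟩
    have nA : ∀ s u : ℝ, s ∈ PA F → u ∈ PA F → u = s + π / 3 → False := fun s u a b e =>
      hexA h (subset_closure a) (subset_closure b) e
    have nB : ∀ s u : ℝ, s ∈ PB F → u ∈ PB F → u = s + π / 3 → False := fun s u a b e =>
      hexB h (subset_closure a) (subset_closure b) e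
    rcases H0 with H0 | H0
    · have K1 := H1.resolve_left fun m => nA _ _ H0 m (by ring)
      have K2 := H2.resolve_right fun m => nB _ _ K1 m (by ring)
      have K3 := H3.resolve_left fun m => nA _ _ K2 m (by ring)
      exact oppA h H0 K3 (by ring)
    · have K1 := H1.resolve_right fun m => nB _ _ H0 m (by ring)
      have K2 := H2.resolve_left fun m => nA _ _ K1 m (by ring)
      have K3 := H3.resolve_right fun m => nB _ _ K2 m (by ring)
      exact oppB h H0 K3 (by ring)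
  have hnu : UU F 4 ≠ Set.univ := fun he =>
    hex4 h (s := 0) (t := 0 + π / 3) (by rw [he]; trivial) (by rw [he]; trivial) rfl
  obtain ⟨j, hj, hj'⟩ : ∃ j, j ∈ closure (UU F 4) ∧ j ∉ UU F 4 := by
    by_contra hn
    have hcl : IsClosed (UU F 4) := by
      refine closure_subset_iff_isClosed.1 fun j hj => ?_
      by_contra hj'
      exact hn ⟨j, hj, hj'⟩
    rcases isClopen_iff.1 ⟨hcl, isOpen_UU 4⟩ with e | e
    exacts [hne e, hnu e]
  by_cases hA : j ∈ closure (PA F)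
  · exact h.transA hA hj
  by_cases hB : j ∈ closure (PB F)
  · obtain ⟨h', e1, -, e3⟩ := h.rot
    exact h'.transA (j := j) (by rwa [e1]) (by rwa [e3])
  refine hj' ?_
  rw [← add_zero j] at hA hB ⊢
  refine fill h.cfg h.dense ?_
  filter_upwards [ev_not hA, ev_not hB] with t t1 t2 t3
  rcases t3 with (t3 | t3) | t3
  exacts [(t1 t3).elim, (t2 t3).elim, t3]

theorem Cfg.no_four (h : Cfg F) (y : ℂ) (σ : Fin 5 → Fin 5) (hσ : Function.Bijective σ)
    (h01 : Adj F y (σ 0) (σ 1)) (h12 : Adj F y (σ 1) (σ 2)) (h23 : Adj F y (σ 2) (σ 3))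
    (h30 : Adj F y (σ 3) (σ 0)) : False := by
  have e : ∀ a b, Adj F y (σ a) (σ b) → Adj (Vale.Agent.P032.shift F y ∘ σ) 0 a b :=
    fun a b hab => (adj_perm σ hσ 0 a b).2 ((adj_shift y _ _).2 hab)
  exact (four_of_adj ((h.shift y).perm σ hσ) (e _ _ h01) (e _ _ h12) (e _ _ h23)
    (e _ _ h30)).false

end Vale.Agent.P032
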