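import Vale.Agent.P032.CLab
import Vale.Agent.P032.CCell

open Filter Topology Real

namespace Vale.Agent.P032

variable {F : Fin 5 → Set ℂ}

theorem five_walk : ∀ a0 a1 : Fin 5, (a1 = a0 + 1 ∨ a0 = a1 + 1) →
    ∀ a2 : Fin 5, (a2 = a1 + 1 ∨ a1 = a2 + 1) → ∀ a3 : Fin 5, (a3 = a2 + 1 ∨ a2 = a3 + 1) →
    ∀ a4 : Fin 5, (a4 = a3 + 1 ∨ a3 = a4 + 1) → ∀ a5 : Fin 5, (a5 = a4 + 1 ∨ a4 = a5 + 1) →
    (a0 = a5 + 1 ∨ a5 = a0 + 1) →
    (a3 = a0 + 1 ∨ a0 = a3 + 1) ∨ (a4 = a1 + 1 ∨ a1 = a4 + 1) := by decide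

theorem five_step (h : Cfg F) {s : ℝ} {a b : Fin 5} (ha : s ∈ UU F a ∧ s ∈ UU F (a + 2))
    (hb : s + π / 3 ∈ UU F b ∧ s + π / 3 ∈ UU F (b + 2)) : b = a + 1 ∨ a = b + 1 := by
  have key : ∀ a b : Fin 5, b = a + 1 ∨ a = b + 1 ∨ b = a ∨ b = a + 2 ∨ a = b + 2 := by decide
  rcases key a b with h1 | h1 | h1 | h1 | h1
  · exact Or.inl h1
  · exact Or.inr h1
  · exact absurd (UU_mem (h1 ▸ hb.1)) (h.UU_hex ha.1).1
  · exact absurd (UU_mem (h1 ▸ hb.1)) (h.UU_hex ha.2).1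
  · exact absurd (UU_mem (h1 ▸ hb.2)) (h.UU_hex ha.1).1

theorem five_free (h : Cfg F) {θ : ℝ} {a b : Fin 5} (ha : θ ∈ UU F a ∧ θ ∈ UU F (a + 2))
    (hb : θ + π ∈ UU F b ∧ θ + π ∈ UU F (b + 2)) (hab : b = a + 1 ∨ a = b + 1) :
    ∃ c, ∀ v, ee v ∉ F c := by
  have key : ∀ a b : Fin 5, (b = a + 1 ∨ a = b + 1) →
      ∃ c, ∀ l, l ≠ c → l = a ∨ l = a + 2 ∨ l = b ∨ l = b + 2 := by decide
  obtain ⟨c, hc⟩ := key a b hab
  have H : ∀ l, l ≠ c → θ ∈ UU F l ∨ θ + π ∈ UU F l := by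
    intro l hl
    rcases hc l hl with rfl | rfl | rfl | rfl
    · exact Or.inl ha.1
    · exact Or.inl ha.2
    · exact Or.inr hb.1
    · exact Or.inr hb.2
  exact ⟨c, Arm.both h (arm_of_four h 1 (Or.inl rfl) H) (arm_of_four h (-1) (Or.inr rfl) H)⟩

theorem Cfg.no_five0 (h : Cfg F) (h01 : Adj F 0 0 1) (h12 : Adj F 0 1 2) (h23 : Adj F 0 2 3)
    (h34 : Adj F 0 3 4) (h40 : Adj F 0 4 0) : False := by
  have hadj : ∀ a : Fin 5, Adj F 0 a (a + 1) := by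
    intro a
    fin_cases a
    exacts [h01, h12, h23, h34, h40]
  have hz : ∀ a, (0 : ℂ) ∈ F a := fun a => ((hadj a).mem h).2.1
  have hSo : IsOpen {t : ℝ | ∃ a : Fin 5, t ∈ UU F a ∧ t ∈ UU F (a + 2)} := by
    rw [Set.setOf_exists]
    exact isOpen_iUnion fun a => (isOpen_UU a).inter (isOpen_UU _)
  have hSd : Dense {t : ℝ | ∃ a : Fin 5, t ∈ UU F a ∧ t ∈ UU F (a + 2)} := by
    refine h.dense_lab.mono ?_
    rintro t (⟨a, -, ha⟩ | ⟨a, b, hab, ha, hb, hn⟩)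
    · exact absurd (hz a) ha
    · have key : ∀ a b : Fin 5, b = a + 1 ∨ a = b + 1 ∨ b = a ∨ b = a + 2 ∨ a = b + 2 := by
        decide
      rcases key a b with h1 | h1 | h1 | h1 | h1
      · exact absurd (h1 ▸ hadj a) hn
      · exact absurd (h1 ▸ (hadj b).symm) hn
      · exact absurd h1.symm hab
      · exact ⟨a, ha, h1 ▸ hb⟩
      · exact ⟨b, hb, h1 ▸ ha⟩
  obtain ⟨t, ht⟩ := (dense_hex hSo hSd).nonempty
  have hk : ∀ (k : ℤ) (s : ℝ), s = t + k * (π / 3) →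
      ∃ a : Fin 5, s ∈ UU F a ∧ s ∈ UU F (a + 2) := fun k s hs => hs ▸ ht k
  obtain ⟨a0, b0⟩ := hk 0 t (by simp)
  obtain ⟨a1, b1⟩ := hk 1 (t + π / 3) (by simp)
  obtain ⟨a2, b2⟩ := hk 2 (t + π / 3 + π / 3) (by push_cast; ring)
  obtain ⟨a3, b3⟩ := hk 3 (t + π / 3 + π / 3 + π / 3) (by push_cast; ring)
  obtain ⟨a4, b4⟩ := hk 4 (t + π / 3 + π / 3 + π / 3 + π / 3) (by push_cast; ring)
  obtain ⟨a5, b5⟩ := hk 5 (t + π / 3 + π / 3 + π / 3 + π / 3 + π / 3) (by push_cast; ring)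
  have b6 : t + π / 3 + π / 3 + π / 3 + π / 3 + π / 3 + π / 3 ∈ UU F a0 ∧
      t + π / 3 + π / 3 + π / 3 + π / 3 + π / 3 + π / 3 ∈ UU F (a0 + 2) := by
    rw [show t + π / 3 + π / 3 + π / 3 + π / 3 + π / 3 + π / 3 = t + 2 * π by ring,
      UU_add_two_pi, UU_add_two_pi]
    exact b0
  have hc : ∃ c, ∀ v, ee v ∉ F c := by
    rcases five_walk a0 a1 (five_step h b0 b1) a2 (five_step h b1 b2) a3 (five_step h b2 b3)
      a4 (five_step h b3 b4) a5 (five_step h b4 b5) (five_step h b5 b6) with h1 | h1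
    · refine five_free h b0 ?_ h1
      rwa [show t + π = t + π / 3 + π / 3 + π / 3 by ring]
    · refine five_free h b1 ?_ h1
      rwa [show t + π / 3 + π = t + π / 3 + π / 3 + π / 3 + π / 3 by ring]
  obtain ⟨c, hc⟩ := hc
  have key : ∀ a c : Fin 5, a = c ∨ a + 2 = c ∨ a = c + 1 ∨ a + 2 = c + 1 ∨ a = c + 4 ∨
      a + 2 = c + 4 := by decide
  have key2 : ∀ c : Fin 5, c + 1 ≠ c + 4 := by decide
  refine h.no_centre_dense (key2 c) (hSd.mono ?_) fun l _ _ => hz l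
  rintro s ⟨a, h1, h2⟩
  rcases key a c with h3 | h3 | h3 | h3 | h3 | h3
  · exact absurd (UU_mem (h3 ▸ h1)) (hc s)
  · exact absurd (UU_mem (h3 ▸ h2)) (hc s)
  · exact Or.inl (h3 ▸ h1)
  · exact Or.inl (h3 ▸ h2)
  · exact Or.inr (h3 ▸ h1)
  · exact Or.inr (h3 ▸ h2)

theorem Cfg.no_five (h : Cfg F) (y : ℂ) (σ : Fin 5 → Fin 5) (hσ : Function.Bijective σ)
    (h01 : Adj F y (σ 0) (σ 1)) (h12 : Adj F y (σ 1) (σ 2)) (h23 : Adj F y (σ 2) (σ 3))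
    (h34 : Adj F y (σ 3) (σ 4)) (h40 : Adj F y (σ 4) (σ 0)) : False := by
  have e : ∀ a b, Adj F y (σ a) (σ b) → Adj (Vale.Agent.P032.shift F y ∘ σ) 0 a b :=
    fun a b H => (adj_perm σ hσ 0 a b).2 ((adj_shift y _ _).2 H)
  exact ((h.shift y).perm σ hσ).no_five0 (e _ _ h01) (e _ _ h12) (e _ _ h23) (e _ _ h34)
    (e _ _ h40)

end Vale.Agent.P032
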