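import Vale.Agent.P032.CDefs

open Filter Topology Real

namespace Vale.Agent.P032

/-- master identity -/
theorem norm_three (a b c : ℝ) : ‖ee a + ee b - ee c‖ ^ 2 =
    1 + 8 * cos ((a - b) / 2) * sin ((a - c) / 2) * sin ((b - c) / 2) := by
  have h1 : ‖ee a + ee b - ee c‖ ^ 2 = 3 + 2 * cos (a - b) - 2 * cos (a - c) - 2 * cos (b - c) := by
    rw [Complex.sq_norm, Complex.normSq_apply]
    simp only [Complex.sub_re, Complex.add_re, Complex.sub_im, Complex.add_im, ee_re, ee_im,
      cos_sub]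
    nlinarith [sin_sq_add_cos_sq a, sin_sq_add_cos_sq b, sin_sq_add_cos_sq c]
  rw [h1]
  set x := (a - c) / 2 with hx
  set y := (b - c) / 2 with hy
  have e1 : a - b = 2 * (x - y) := by rw [hx, hy]; ring
  have e2 : a - c = 2 * x := by rw [hx]; ring
  have e3 : b - c = 2 * y := by rw [hy]; ring
  have e4 : (a - b) / 2 = x - y := by rw [hx, hy]; ring
  rw [e4, e1, e2, e3, cos_two_mul, cos_two_mul, cos_two_mul, cos_sub]
  have hx' := sin_sq_add_cos_sq x
  have hy' := sin_sq_add_cos_sq y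
  have hcx : cos x ^ 2 = 1 - sin x ^ 2 := by linarith
  have hcy : cos y ^ 2 = 1 - sin y ^ 2 := by linarith
  have : (cos x * cos y + sin x * sin y) ^ 2 =
      cos x ^ 2 * cos y ^ 2 + 2 * (cos x * cos y) * (sin x * sin y) + sin x ^ 2 * sin y ^ 2 := by
    ring
  rw [this, hcx, hcy]
  ring

theorem one_lt_norm_three (a b c : ℝ) :
    1 < ‖ee a + ee b - ee c‖ ↔ 0 < cos ((a - b) / 2) * sin ((a - c) / 2) * sin ((b - c) / 2) := by
  have h := norm_three a b c
  have h0 := norm_nonneg (ee a + ee b - ee c)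
  constructor
  · intro h1; nlinarith
  · intro h1; nlinarith

theorem norm_three_lt_one (a b c : ℝ) :
    ‖ee a + ee b - ee c‖ < 1 ↔ cos ((a - b) / 2) * sin ((a - c) / 2) * sin ((b - c) / 2) < 0 := by
  have h := norm_three a b c
  have h0 := norm_nonneg (ee a + ee b - ee c)
  constructor
  · intro h1; nlinarith
  · intro h1; nlinarith

theorem norm_two (a b : ℝ) : ‖ee a + ee b‖ ^ 2 = 2 + 2 * cos (a - b) := by
  rw [Complex.sq_norm, Complex.normSq_apply]
  simp only [Complex.add_re, Complex.add_im, ee_re, ee_im, cos_sub]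
  nlinarith [sin_sq_add_cos_sq a, sin_sq_add_cos_sq b]

theorem ee_add_pi (a : ℝ) : ee (a + π) = -ee a := by rw [ee_add, ee_pi]; ring

theorem ee_add_two_pi (a : ℝ) : ee (a + 2 * π) = ee a := by
  have : a + 2 * π = a + π + π := by ring
  rw [this, ee_add_pi, ee_add_pi]; ring

theorem ee_hex (a : ℝ) : ee (a - π / 3) + ee (a + π / 3) = ee a := by
  apply Complex.ext
  · simp only [Complex.add_re, ee_re, cos_sub, cos_add, cos_pi_div_three]; ring
  · simp only [Complex.add_im, ee_im, sin_sub, sin_add, cos_pi_div_three]; ring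

theorem norm_ee_sub_sq (a b : ℝ) : ‖ee a - ee b‖ ^ 2 = (2 * sin ((a - b) / 2)) ^ 2 := by
  have h1 : ‖ee a - ee b‖ ^ 2 = 2 - 2 * cos (a - b) := by
    rw [Complex.sq_norm, Complex.normSq_apply]
    simp only [Complex.sub_re, Complex.sub_im, ee_re, ee_im, cos_sub]
    nlinarith [sin_sq_add_cos_sq a, sin_sq_add_cos_sq b]
  have e : a - b = 2 * ((a - b) / 2) := by ring
  rw [h1, e, cos_two_mul]
  have e' : 2 * ((a - b) / 2) / 2 = (a - b) / 2 := by ring
  rw [e']
  nlinarith [sin_sq_add_cos_sq ((a - b) / 2)]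

theorem norm_ee_sub_eq (a b : ℝ) : ‖ee a - ee b‖ = 2 * |sin ((a - b) / 2)| := by
  have h := norm_ee_sub_sq a b
  have h2 : ‖ee a - ee b‖ = |2 * sin ((a - b) / 2)| := by
    rw [← sq_eq_sq₀ (norm_nonneg _) (abs_nonneg _), sq_abs, h]
  rw [h2, abs_mul]; norm_num

theorem norm_ee_sub_ee_le (a b : ℝ) : ‖ee a - ee b‖ ≤ |a - b| := by
  rw [norm_ee_sub_eq]
  have := abs_sin_le_abs (x := (a - b) / 2)
  rw [abs_div] at this
  norm_num at this
  linarith

/-- a unit vector near `ee t` has a nearby angle -/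
theorem exists_angle_near (v : ℂ) (hv : ‖v‖ = 1) (t : ℝ) :
    ∃ t' : ℝ, v = ee t' ∧ |t' - t| ≤ 2 * ‖v - ee t‖ := by
  set u := v * ee (-t) with hu
  have hun : ‖u‖ = 1 := by rw [hu, norm_mul, hv, norm_ee]; ring
  have h1 : u = ee (Complex.arg u) := by
    have := Complex.norm_mul_exp_arg_mul_I u
    rw [hun] at this
    rw [Complex.ofReal_one, one_mul] at this
    exact this.symm
  have hv' : v = ee (t + Complex.arg u) := by
    rw [ee_add, ← h1, hu, mul_comm v, ← mul_assoc, ← ee_add]; simp [ee_zero]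
  refine ⟨t + Complex.arg u, hv', ?_⟩
  have e : t + Complex.arg u - t = Complex.arg u := by ring
  rw [e]
  conv_rhs => rw [hv']
  rw [norm_ee_sub_eq, e]
  have habs : |Complex.arg u| ≤ π := Complex.abs_arg_le_pi u
  have h2 : 2 / π * |Complex.arg u / 2| ≤ |sin (Complex.arg u / 2)| := by
    apply mul_abs_le_abs_sin
    rw [abs_div]; norm_num; linarith
  rw [abs_div] at h2
  norm_num at h2
  have hpi : π < 4 := pi_lt_four
  have hpos := pi_pos
  have h3 : |Complex.arg u| / 4 ≤ |Complex.arg u| / π :=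
    div_le_div_of_nonneg_left (abs_nonneg _) hpos hpi.le
  linarith

theorem hasStrictDerivAt_ee (t : ℝ) : HasStrictDerivAt ee (ee t * Complex.I) t := by
  have h1 : HasStrictDerivAt (fun s : ℝ => (s : ℂ) * Complex.I) (1 * Complex.I) t :=
    (Complex.ofRealCLM.hasStrictDerivAt (x := t)).mul_const Complex.I
  have := h1.cexp
  rw [one_mul] at this
  exact this

/-- the two-step map is open at transversal points -/
theorem two_step_open (a b : ℝ) (hab : sin (a - b) ≠ 0) (η : ℝ) (hη : 0 < η) :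
    ∃ δ, 0 < δ ∧ ∀ w : ℂ, ‖w - (ee a + ee b)‖ < δ →
      ∃ a' b', |a' - a| < η ∧ |b' - b| < η ∧ w = ee a' + ee b' := by
  let f : ℝ × ℝ → ℂ := fun p => ee p.1 + ee p.2
  let A : ℝ × ℝ →L[ℝ] ℂ :=
    (ContinuousLinearMap.toSpanSingleton ℝ (ee a * Complex.I)).comp (ContinuousLinearMap.fst ℝ ℝ ℝ) +
    (ContinuousLinearMap.toSpanSingleton ℝ (ee b * Complex.I)).comp (ContinuousLinearMap.snd ℝ ℝ ℝ)
  have hf : HasStrictFDerivAt f A (a, b) := by
    apply HasStrictFDerivAt.add
    · exact (hasStrictDerivAt_ee a).hasStrictFDerivAt.comp (a, b) hasStrictFDerivAt_fst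
    · exact (hasStrictDerivAt_ee b).hasStrictFDerivAt.comp (a, b) hasStrictFDerivAt_snd
  have hsurj : A.range = ⊤ := by
    rw [LinearMap.range_eq_top]
    intro w
    have hA : ∀ x y : ℝ, A (x, y) = (x : ℂ) * (ee a * Complex.I) + (y : ℂ) * (ee b * Complex.I) := by
      intro x y
      simp [A]
    obtain ⟨x, hx⟩ : ∃ x : ℝ, x = -(w.re * cos b + w.im * sin b) / sin (a - b) := ⟨_, rfl⟩
    obtain ⟨y, hy⟩ : ∃ y : ℝ, y = (w.re * cos a + w.im * sin a) / sin (a - b) := ⟨_, rfl⟩
    refine ⟨(x, y), ?_⟩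
    show A (x, y) = w
    rw [hA]
    have hx' : x * sin (a - b) = -(w.re * cos b + w.im * sin b) := by rw [hx]; field_simp
    have hy' : y * sin (a - b) = w.re * cos a + w.im * sin a := by rw [hy]; field_simp
    have hs := sin_sub a b
    apply Complex.ext
    · simp only [Complex.add_re, Complex.mul_re, Complex.mul_im, Complex.ofReal_re,
        Complex.ofReal_im, Complex.I_re, Complex.I_im, ee_re, ee_im]
      apply mul_right_cancel₀ hab
      linear_combination (-sin a) * hx' - sin b * hy' - w.re * hs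
    · simp only [Complex.add_im, Complex.mul_re, Complex.mul_im, Complex.ofReal_re,
        Complex.ofReal_im, Complex.I_re, Complex.I_im, ee_re, ee_im]
      apply mul_right_cancel₀ hab
      linear_combination (cos a) * hx' + cos b * hy' - w.im * hs
  have hmap := hf.map_nhds_eq_of_surj hsurj
  have hmem : f '' (Metric.ball (a, b) η) ∈ 𝓝 (f (a, b)) := by
    rw [← hmap]
    exact Filter.image_mem_map (Metric.ball_mem_nhds _ hη)
  obtain ⟨δ, hδ, hsub⟩ := Metric.mem_nhds_iff.1 hmem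
  refine ⟨δ, hδ, fun w hw => ?_⟩
  obtain ⟨p, hp, rfl⟩ := hsub (show w ∈ Metric.ball (f (a, b)) δ by
    rw [Metric.mem_ball, dist_eq_norm]; exact hw)
  rw [Metric.mem_ball, Prod.dist_eq, max_lt_iff, Real.dist_eq, Real.dist_eq] at hp
  exact ⟨p.1, p.2, hp.1, hp.2, rfl⟩

end Vale.Agent.P032
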