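import Vale.Agent.P032.CBas

open Filter Topology Real

namespace Vale.Agent.P032

variable {F : Fin 5 → Set ℂ}

theorem CTwoX.isOpen_V (h : Cfg F) (i j : Fin 5) :
    IsOpen {w : ℂ | ∀ l, l ≠ i → l ≠ j → w ∉ F l} := by
  have e : {w : ℂ | ∀ l, l ≠ i → l ≠ j → w ∉ F l} =
      ⋂ l, {w : ℂ | l ≠ i → l ≠ j → w ∉ F l} := by
    ext w; simp
  rw [e]
  refine isOpen_iInter_of_finite fun l => ?_
  by_cases h1 : l ≠ i ∧ l ≠ j
  · have : {w : ℂ | l ≠ i → l ≠ j → w ∉ F l} = (F l)ᶜ := by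
      ext w; simp [h1.1, h1.2]
    rw [this]; exact (h.closed l).isOpen_compl
  · have : {w : ℂ | l ≠ i → l ≠ j → w ∉ F l} = Set.univ := by
      ext w
      simp only [Set.mem_setOf_eq, Set.mem_univ, iff_true]
      intro h2 h3; exact absurd ⟨h2, h3⟩ h1
    rw [this]; exact isOpen_univ

theorem CTwoX.exists_ee {v : ℂ} (hv : ‖v‖ = 1) : ∃ a, v = ee a := by
  obtain ⟨t, ht, -⟩ := exists_angle_near v hv 0
  exact ⟨t, ht⟩

theorem CTwoX.norm_hex (ψ : ℝ) : ‖ee ψ - ee (ψ + π / 3)‖ = 1 := by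
  have := ee_hex ψ
  rw [show ee ψ - ee (ψ + π / 3) = ee (ψ - π / 3) by rw [← this]; ring, norm_ee]

theorem CTwoX.fin {a b i c l k : Fin 5} (h1 : a ≠ b) (h2 : i ≠ a) (h3 : i ≠ b) (h4 : c ≠ a)
    (h5 : c ≠ b) (h6 : c ≠ i) (h7 : l ≠ a) (h8 : l ≠ b) (h9 : l ≠ i) (h10 : l ≠ c) (h11 : k ≠ c)
    (h12 : k ≠ l) : k = a ∨ k = b ∨ k = i := by
  simp only [ne_eq, Fin.ext_iff] at *
  omega

/-- two-colour lemma -/
theorem Cfg.two_col (h : Cfg F) {i j : Fin 5} {z z' : ℂ} (hz : z ∈ Pur F i j)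
    (hd : ‖z - z'‖ = 1) (hz' : ∀ l, l ≠ i → l ≠ j → z' ∉ F l) : False := by
  obtain ⟨hij, hzi, hzj, hzl⟩ := hz
  obtain ⟨ρ1, hρ1, hb1⟩ := Metric.isOpen_iff.1 (CTwoX.isOpen_V h i j) z hzl
  obtain ⟨ρ2, hρ2, hb2⟩ := Metric.isOpen_iff.1 (CTwoX.isOpen_V h i j) z' hz'
  obtain ⟨a0, ha0⟩ := CTwoX.exists_ee (v := z' - z) (by rw [norm_sub_rev]; exact hd)
  obtain ⟨η, hη0, hη1, hη2, hη3⟩ : ∃ η : ℝ, 0 < η ∧ η ≤ 1 ∧ 3 * η ≤ ρ1 ∧ 3 * η ≤ ρ2 :=
    ⟨min 1 (min (ρ1 / 3) (ρ2 / 3)), by positivity, min_le_left _ _,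
      by linarith [min_le_right 1 (min (ρ1 / 3) (ρ2 / 3)), min_le_left (ρ1 / 3) (ρ2 / 3)],
      by linarith [min_le_right 1 (min (ρ1 / 3) (ρ2 / 3)), min_le_right (ρ1 / 3) (ρ2 / 3)]⟩
  have hsin : sin (a0 + η / 2 - (a0 + π)) ≠ 0 := by
    rw [show a0 + η / 2 - (a0 + π) = η / 2 - π by ring, sin_sub_pi]
    have := sin_pos_of_pos_of_lt_pi (x := η / 2) (by positivity) (by linarith [pi_gt_three])
    linarith
  obtain ⟨d, hd0, hstep⟩ := two_step_open _ _ hsin η hη0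
  set ε : ℝ := min (d / 2) η with hε
  have hε0 : 0 < ε := by positivity
  have hε1 : ε ≤ d / 2 := min_le_left _ _
  have hε2 : ε ≤ η := min_le_right _ _
  set m0 : ℂ := z + (ee (a0 + η / 2) + ee (a0 + π)) with hm0
  obtain ⟨m, hm, hmm⟩ := Metric.dense_iff.1 h.dense_int m0 ε hε0
  rw [Metric.mem_ball, dist_eq_norm] at hm
  obtain ⟨c, hc⟩ := Set.mem_iUnion.1 hmm
  have hmz : ‖m - z‖ < ρ1 := by
    have h1 : ‖m0 - z‖ ≤ η / 2 := by
      rw [hm0, add_sub_cancel_left, ee_add_pi, ← sub_eq_add_neg]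
      refine (norm_ee_sub_ee_le _ _).trans ?_
      rw [add_sub_cancel_left, abs_of_pos (by positivity)]
    have h2 := norm_add_le (m - m0) (m0 - z)
    rw [sub_add_sub_cancel] at h2
    linarith
  have hmV := hb1 (show m ∈ Metric.ball z ρ1 by rwa [Metric.mem_ball, dist_eq_norm])
  have key : ∀ k : Fin 5, z ∈ F k → (∀ l, (l = i ∨ l = j) → l = k ∨ l = c) → False := by
    intro k hk hl
    obtain ⟨x, hx, hxz⟩ := Metric.mem_closure_iff.1 (h.reg k hk) ε hε0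
    rw [dist_eq_norm] at hxz
    obtain ⟨a', b', ha', -, hw⟩ := hstep (m - x) (by
      have h2 := norm_add_le (m - m0) (z - x)
      rw [show m - m0 + (z - x) = m - x - (ee (a0 + η / 2) + ee (a0 + π)) by rw [hm0]; ring] at h2
      linarith)
    have hwz : ‖x + ee a' - z'‖ < ρ2 := by
      have h1 : ‖ee a' - ee a0‖ ≤ |a' - a0| := norm_ee_sub_ee_le _ _
      have h2 : |a' - a0| < 3 / 2 * η := by
        rw [abs_lt] at ha' ⊢; constructor <;> linarith [ha'.1, ha'.2]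
      have h3 := norm_sub_le (ee a' - ee a0) (z - x)
      rw [show ee a' - ee a0 - (z - x) = x + ee a' - z' by rw [← ha0]; ring] at h3
      linarith
    have hwV := hb2 (show x + ee a' ∈ Metric.ball z' ρ2 by rwa [Metric.mem_ball, dist_eq_norm])
    obtain ⟨l, hlw⟩ := h.cover (x + ee a')
    have hl' : l = i ∨ l = j := by
      by_contra hh
      push Not at hh
      exact hwV l hh.1 hh.2 hlw
    rcases hl l hl' with rfl | rfl
    · exact h.free l _ hlw x hx (by rw [add_sub_cancel_left, norm_ee])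
    · refine h.free l _ hlw m hc ?_
      rw [show x + ee a' - m = -ee b' by linear_combination -hw, norm_neg, norm_ee]
  have hc' : c = i ∨ c = j := by
    by_contra hh
    push Not at hh
    exact hmV c hh.1 hh.2 (interior_subset hc)
  rcases hc' with rfl | rfl
  · exact key j hzj fun l hl => hl.symm
  · exact key i hzi fun l hl => hl

theorem Cfg.arc_mono (h : Cfg F) {a b i : Fin 5} (hab : a ≠ b) (hia : i ≠ a) (hib : i ≠ b) {p : ℂ}
    (hp : p ∈ interior (F i)) (φ η : ℝ) (hη : 0 ≤ η)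
    (hR : ∀ ψ, |ψ - φ| ≤ η → p + ee ψ ∈ RR F a b ∧ p + ee (ψ + π / 3) ∈ RR F a b) :
    ∃ x y, x ≠ y ∧ x ≠ i ∧ y ≠ i ∧ ∀ ψ, |ψ - φ| ≤ η →
      p + ee ψ ∈ interior (F x) ∧ p + ee (ψ + π / 3) ∈ interior (F y) := by
  have hi : ∀ t, p + ee t ∉ F i := fun t ht =>
    h.free i _ ht p hp (by rw [add_sub_cancel_left, norm_ee])
  have one : ∀ s t, p + ee s ∈ RR F a b → p + ee t ∈ RR F a b → ‖ee s - ee t‖ = 1 →
      ∃ c, p + ee s ∈ interior (F c) := by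
    intro s t hs ht hst
    obtain ⟨c, hc⟩ := h.cover (p + ee s)
    refine ⟨c, h.mem_int fun l hl hlm => ?_⟩
    have c1 : c ≠ a := fun e => hs.1 (e ▸ hc)
    have c2 : c ≠ b := fun e => hs.2 (e ▸ hc)
    have c3 : c ≠ i := fun e => hi s (e ▸ hc)
    have l1 : l ≠ a := fun e => hs.1 (e ▸ hlm)
    have l2 : l ≠ b := fun e => hs.2 (e ▸ hlm)
    have l3 : l ≠ i := fun e => hi s (e ▸ hlm)
    have hk : ∀ u, p + ee u ∈ RR F a b → ∀ k, k ≠ c → k ≠ l → p + ee u ∉ F k := by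
      intro u hu k k1 k2
      rcases CTwoX.fin hab hia hib c1 c2 c3 l1 l2 l3 hl k1 k2 with rfl | rfl | rfl
      exacts [hu.1, hu.2, hi u]
    exact h.two_col (i := c) (j := l) ⟨hl.symm, hc, hlm, hk s hs⟩
      (by rw [add_sub_add_left_eq_sub, hst]) (hk t ht)
  have hI : ∀ ψ, ψ ∈ Set.Icc (φ - η) (φ + η) ↔ |ψ - φ| ≤ η := fun ψ => by
    rw [abs_le, Set.mem_Icc]; constructor <;> rintro ⟨h1, h2⟩ <;> constructor <;> linarith
  have hφ : φ ∈ Set.Icc (φ - η) (φ + η) := (hI φ).2 (by simpa using hη)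
  have hce : Continuous ee := continuous_iff_continuousAt.2 fun t =>
    (hasStrictDerivAt_ee t).hasDerivAt.continuousAt
  obtain ⟨x, hx⟩ := h.mono_conn (S := (fun ψ => p + ee ψ) '' Set.Icc (φ - η) (φ + η))
    (isPreconnected_Icc.image _ (by fun_prop)) ⟨_, φ, hφ, rfl⟩ (by
      rintro _ ⟨ψ, hψ, rfl⟩
      exact one ψ _ (hR ψ ((hI ψ).1 hψ)).1 (hR ψ ((hI ψ).1 hψ)).2 (CTwoX.norm_hex ψ))
  obtain ⟨y, hy⟩ := h.mono_conn (S := (fun ψ => p + ee (ψ + π / 3)) '' Set.Icc (φ - η) (φ + η))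
    (isPreconnected_Icc.image _ (by fun_prop)) ⟨_, φ, hφ, rfl⟩ (by
      rintro _ ⟨ψ, hψ, rfl⟩
      exact one _ ψ (hR ψ ((hI ψ).1 hψ)).2 (hR ψ ((hI ψ).1 hψ)).1
        (by rw [norm_sub_rev]; exact CTwoX.norm_hex ψ))
  have hx0 := hx ⟨φ, hφ, rfl⟩
  have hy0 := hy ⟨φ, hφ, rfl⟩
  refine ⟨x, y, ?_, ?_, ?_, fun ψ hψ => ⟨hx ⟨ψ, (hI ψ).2 hψ, rfl⟩, hy ⟨ψ, (hI ψ).2 hψ, rfl⟩⟩⟩
  · rintro rfl
    exact h.free x _ (interior_subset hx0) _ hy0
      (by rw [add_sub_add_left_eq_sub]; exact CTwoX.norm_hex φ)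
  · rintro rfl; exact hi _ (interior_subset hx0)
  · rintro rfl; exact hi _ (interior_subset hy0)

end Vale.Agent.P032
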