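import Vale.Agent.P032.CCen
import Vale.Agent.P032.CTwo

open Filter Topology Real

namespace Vale.Agent.P032

variable {F : Fin 5 → Set ℂ}

theorem CLabX.others : ∀ a b c : Fin 5, a ≠ b → a ≠ c → b ≠ c → ∃ d e : Fin 5, d ≠ e ∧
    (∀ l, l ≠ d → l ≠ e → l = a ∨ l = b ∨ l = c) ∧
    (∀ l, l ≠ a → l ≠ b → l ≠ c → l = d ∨ l = e) := by decide

theorem CLabX.norm_sq (t θ r : ℝ) : ‖ee t - (r : ℂ) * ee θ‖ ^ 2 = 1 - 2 * r * cos (t - θ) + r ^ 2 := by
  rw [Complex.sq_norm, Complex.normSq_apply]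
  simp only [Complex.sub_re, Complex.sub_im, Complex.mul_re, Complex.mul_im, Complex.ofReal_re,
    Complex.ofReal_im, ee_re, ee_im, cos_sub]
  linear_combination sin_sq_add_cos_sq t + r ^ 2 * sin_sq_add_cos_sq θ

theorem Cfg.triple_tot (h : Cfg F) {a b c : Fin 5} (hab : a ≠ b) (hac : a ≠ c) (hbc : b ≠ c) :
    IsTotallyDisconnected (F a ∩ F b ∩ F c) := by
  intro K hK hKc p hp q hq
  by_contra hpq
  obtain ⟨d, e, hde, h1, h2⟩ := CLabX.others a b c hab hac hbc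
  have hcl : IsClosed (F d ∪ F e) := (h.closed d).union (h.closed e)
  have hsh : ∀ w : ℂ, (‖w - p‖ < 1 ∧ 1 < ‖w - q‖) ∨ (‖w - q‖ < 1 ∧ 1 < ‖w - p‖) →
      w ∈ F d ∪ F e := by
    intro w hw
    have hn : ∀ i, K ⊆ F i → w ∉ F i := fun i hi => by
      rcases hw with hw | hw
      · exact h.shadow hKc hi hp hq hw.1 hw.2
      · exact h.shadow hKc hi hq hp hw.1 hw.2
    obtain ⟨l, hl⟩ := h.cover w
    have la : l ≠ a := fun e => hn a (fun x hx => (hK hx).1.1) (e ▸ hl)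
    have lb : l ≠ b := fun e => hn b (fun x hx => (hK hx).1.2) (e ▸ hl)
    have lc : l ≠ c := fun e => hn c (fun x hx => (hK hx).2) (e ▸ hl)
    rcases h2 l la lb lc with rfl | rfl
    exacts [Or.inl hl, Or.inr hl]
  have hne : ∀ t, ‖p + ee t - q‖ ≠ 1 → p + ee t ∈ F d ∪ F e := by
    intro t ht
    have hc : Continuous fun τ : ℝ => p + (τ : ℂ) * ee t := by fun_prop
    have hc1 : Tendsto (fun τ : ℝ => p + (τ : ℂ) * ee t) (𝓝 1) (𝓝 (p + ee t)) := by
      simpa using hc.tendsto 1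
    have hc2 : Tendsto (fun τ : ℝ => ‖p + (τ : ℂ) * ee t - q‖) (𝓝 1) (𝓝 ‖p + ee t - q‖) :=
      (hc1.sub_const q).norm
    have hn : ∀ τ : ℝ, 0 < τ → ‖p + (τ : ℂ) * ee t - p‖ = τ := fun τ hτ => by
      rw [add_sub_cancel_left, norm_mul, norm_ee, Complex.norm_real, Real.norm_of_nonneg hτ.le,
        mul_one]
    have hpos : ∀ᶠ τ : ℝ in 𝓝 1, 0 < τ := lt_mem_nhds one_pos
    rcases lt_or_gt_of_ne ht with hlt | hgt
    · refine hcl.mem_of_tendsto (hc1.mono_left (nhdsWithin_le_nhds (s := Set.Ioi 1))) ?_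
      filter_upwards [nhdsWithin_le_nhds (hc2.eventually (gt_mem_nhds hlt)),
        nhdsWithin_le_nhds hpos, self_mem_nhdsWithin] with τ h3 h4 h5
      exact hsh _ (Or.inr ⟨h3, by rw [hn τ h4]; exact h5⟩)
    · refine hcl.mem_of_tendsto (hc1.mono_left (nhdsWithin_le_nhds (s := Set.Iio 1))) ?_
      filter_upwards [nhdsWithin_le_nhds (hc2.eventually (lt_mem_nhds hgt)),
        nhdsWithin_le_nhds hpos, self_mem_nhdsWithin] with τ h3 h4 h5
      exact hsh _ (Or.inl ⟨by rw [hn τ h4]; exact h5, h3⟩)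
  have hall : ∀ t, p + ee t ∈ F d ∪ F e := by
    intro t
    by_contra ht
    have ho : IsOpen {s : ℝ | p + ee s ∉ F d ∪ F e} :=
      hcl.isOpen_compl.preimage (f := fun s => p + ee s) (continuous_const.add continuous_ee)
    obtain ⟨ε, hε, hb⟩ := Metric.isOpen_iff.1 ho t ht
    obtain ⟨θ, hθ⟩ := exists_ee (q - p)
    have hr : 0 < ‖q - p‖ := norm_pos_iff.2 (sub_ne_zero.2 (Ne.symm hpq))
    set r := ‖q - p‖ with hrd
    have hcos : ∀ s, |s - t| < ε → 2 * cos (s - θ) = r := by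
      intro s hs
      have h3 : ‖p + ee s - q‖ = 1 := by
        by_contra h4
        exact hb (show s ∈ Metric.ball t ε by rwa [Metric.mem_ball, Real.dist_eq]) (hne s h4)
      have h4 := CLabX.norm_sq s θ r
      rw [← hθ, show ee s - (q - p) = p + ee s - q by ring, h3] at h4
      have h5 : r * (2 * cos (s - θ) - r) = 0 := by linarith
      have := (mul_eq_zero.1 h5).resolve_left hr.ne'
      linarith
    set δ := min (ε / 2) 1 with hδ
    have hδ0 : 0 < δ := by positivity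
    have hδ1 : δ < ε := (min_le_left _ _).trans_lt (by linarith)
    have hδ2 : δ ≤ 1 := min_le_right _ _
    have e0 := hcos t (by simpa using hε)
    have e1 := hcos (t + δ) (by rwa [add_sub_cancel_left, abs_of_pos hδ0])
    have e2 := hcos (t - δ) (by rwa [sub_sub_cancel_left, abs_neg, abs_of_pos hδ0])
    rw [show t + δ - θ = (t - θ) + δ by ring, cos_add] at e1
    rw [show t - δ - θ = (t - θ) - δ by ring, cos_sub] at e2
    have e3 : cos δ < 1 := by
      rw [← cos_zero]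
      exact cos_lt_cos_of_nonneg_of_le_pi le_rfl (by linarith [pi_gt_three]) hδ0
    nlinarith
  refine (h.shift p).no_centre hde (fun t => hall t) fun l l1 l2 => ?_
  have hp' := hK hp
  show p + 0 ∈ F l
  rw [add_zero]
  rcases h1 l l1 l2 with rfl | rfl | rfl
  exacts [hp'.1.1, hp'.1.2, hp'.2]

theorem Cfg.UU_triple (h : Cfg F) {a b c : Fin 5} (hab : a ≠ b) (hac : a ≠ c) (hbc : b ≠ c)
    {t : ℝ} (ha : t ∈ UU F a) (hb : t ∈ UU F b) (hc : t ∈ UU F c) : False := by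
  have ho : IsOpen (UU F a ∩ UU F b ∩ UU F c) :=
    ((isOpen_UU a).inter (isOpen_UU b)).inter (isOpen_UU c)
  obtain ⟨ε, hε, hball⟩ := Metric.isOpen_iff.1 ho t ⟨⟨ha, hb⟩, hc⟩
  set δ := min (ε / 2) 1 with hδ
  have hδ0 : 0 < δ := by positivity
  have hδ1 : δ < ε := (min_le_left _ _).trans_lt (by linarith)
  have hδ2 : δ ≤ 1 := min_le_right _ _
  have hsub : ee '' Set.Icc t (t + δ) ⊆ F a ∩ F b ∩ F c := by
    rintro _ ⟨s, hs, rfl⟩
    have := hball (show s ∈ Metric.ball t ε by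
      rw [Metric.mem_ball, Real.dist_eq, abs_lt]; constructor <;> linarith [hs.1, hs.2])
    exact ⟨⟨UU_mem this.1.1, UU_mem this.1.2⟩, UU_mem this.2⟩
  have h1 : ee (t + δ) = ee t := h.triple_tot hab hac hbc _ hsub
    (isPreconnected_Icc.image _ continuous_ee.continuousOn)
    ⟨t + δ, ⟨by linarith, le_rfl⟩, rfl⟩ ⟨t, ⟨le_rfl, by linarith⟩, rfl⟩
  have h2 := norm_ee_sub_eq (t + δ) t
  rw [h1, sub_self, norm_zero, add_sub_cancel_left] at h2
  have h3 := sin_pos_of_pos_of_lt_pi (x := δ / 2) (by positivity) (by linarith [pi_gt_three])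
  rw [abs_of_pos h3] at h2
  linarith

/-- generic labels -/
theorem Cfg.dense_lab (h : Cfg F) : Dense {t : ℝ | (∃ a, t ∈ UU F a ∧ (0 : ℂ) ∉ F a) ∨
    ∃ a b, a ≠ b ∧ t ∈ UU F a ∧ t ∈ UU F b ∧ ¬ Adj F 0 a b} := by
  have hZ : ∀ i, IsClosed {t : ℝ | ee t ∈ F i} := fun i => (h.closed i).preimage continuous_ee
  have hD : Dense (⋂ i, (frontier {t : ℝ | ee t ∈ F i})ᶜ) :=
    dense_iInter_of_isOpen (fun i => isClosed_frontier.isOpen_compl)
      fun i => interior_eq_empty_iff_dense_compl.1 (interior_frontier (hZ i))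
  refine hD.mono fun t ht => ?_
  have hU : ∀ i, ee t ∈ F i → t ∈ UU F i := fun i hi => by
    have h1 := Set.mem_iInter.1 ht i
    rw [(hZ i).frontier_eq] at h1
    by_contra h2
    exact h1 ⟨hi, h2⟩
  obtain ⟨a, ha⟩ := h.cover (ee t)
  by_cases hb : ∃ b, b ≠ a ∧ ee t ∈ F b
  · obtain ⟨b, hba, hb⟩ := hb
    refine Or.inr ⟨a, b, hba.symm, hU a ha, hU b hb, fun hadj => ?_⟩
    have hV : ∀ l, l ≠ a → l ≠ b → ee t ∉ F l := fun l l1 l2 hl =>
      h.UU_triple hba.symm l1.symm l2.symm (hU a ha) (hU b hb) (hU l hl)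
    obtain ⟨ρ, hρ, hball⟩ := Metric.isOpen_iff.1 (CTwoX.isOpen_V h a b) (ee t) hV
    obtain ⟨z, hz, hz0⟩ := Metric.mem_closure_iff.1 hadj ρ hρ
    refine h.two_col (z' := z + ee t) hz (by rw [sub_add_cancel_left, norm_neg, norm_ee]) ?_
    refine hball ?_
    rwa [Metric.mem_ball, dist_eq_norm, add_sub_cancel_right, ← dist_zero_left]
  · push Not at hb
    refine Or.inl ⟨a, hU a ha, fun h0 => ?_⟩
    exact h.free a 0 h0 _ (h.mem_int hb) (by rw [zero_sub, norm_neg, norm_ee])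

theorem Cfg.no_triangle (h : Cfg F) (y : ℂ) {a b c : Fin 5} (h1 : Adj F y a b) (h2 : Adj F y b c)
    (h3 : Adj F y c a) : False := by
  have hG := h.shift y
  rw [← adj_shift] at h1 h2 h3
  obtain ⟨hab, ha, hb⟩ := h1.mem hG
  obtain ⟨hbc, -, hc⟩ := h2.mem hG
  obtain ⟨hca, -, -⟩ := h3.mem hG
  obtain ⟨d, e, hde, k1, -⟩ := CLabX.others a b c hab hca.symm hbc
  have h0 : ∀ l, l ≠ d → l ≠ e → (0 : ℂ) ∈ Vale.Agent.P032.shift F y l := fun l l1 l2 => by
    rcases k1 l l1 l2 with rfl | rfl | rfl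
    exacts [ha, hb, hc]
  refine hG.no_centre_dense hde (hG.dense_lab.mono fun t ht => ?_) h0
  by_contra hh
  have hn : ∀ l, t ∈ UU (Vale.Agent.P032.shift F y) l → l ≠ d ∧ l ≠ e := fun l hl =>
    ⟨fun e => hh (Or.inl (e ▸ hl)), fun e => hh (Or.inr (e ▸ hl))⟩
  rcases ht with ⟨l, hl, hl0⟩ | ⟨l, m, hlm, hl, hm, hadj⟩
  · exact hl0 (h0 l (hn l hl).1 (hn l hl).2)
  · apply hadj
    rcases k1 l (hn l hl).1 (hn l hl).2 with rfl | rfl | rfl <;>
      rcases k1 m (hn m hm).1 (hn m hm).2 with rfl | rfl | rfl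
    all_goals first | exact absurd rfl hlm | assumption | exact h1.symm | exact h2.symm | exact h3.symm

end Vale.Agent.P032
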