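import Vale.Agent.P032.CBas

open Filter Topology Real

namespace Vale.Agent.P032

variable {F : Fin 5 → Set ℂ} {a b : Fin 5} {α β : ℝ}

theorem CNcX.uu_of_not (h : Cfg F) (hc : ∀ t, ee t ∈ F a ∨ ee t ∈ F b) {t : ℝ}
    (ht : ee t ∉ F a) : t ∈ UU F b := by
  have ho : IsOpen {t : ℝ | ee t ∉ F a} := ((h.closed a).preimage continuous_ee).isOpen_compl
  exact interior_maximal (fun u hu => (hc u).resolve_left hu) ho ht

theorem CNcX.sub (x : ℝ) : ee (x - 2 * π) = ee x := by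
  rw [← ee_add_two_pi (x - 2 * π), sub_add_cancel]

theorem cen_hex (h : Cfg F) (hc : ∀ t, ee t ∈ F a ∨ ee t ∈ F b) {t : ℝ} (ht : t ∈ UU F a) :
    t + π / 3 ∈ UU F b ∧ t - π / 3 ∈ UU F b := ⟨CNcX.uu_of_not h hc (h.UU_hex ht).1, CNcX.uu_of_not h hc (h.UU_hex ht).2⟩

theorem exists_nc (h : Cfg F) (hab : a ≠ b) (hc : ∀ t, ee t ∈ F a ∨ ee t ∈ F b) :
    ∃ α β, NC F a b α β := by
  have hc' : ∀ t, ee t ∈ F b ∨ ee t ∈ F a := fun t => (hc t).symm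
  obtain ⟨t1, ht1⟩ : ∃ t1, t1 ∈ UU F a := by
    by_cases h0 : ∀ t, ee t ∈ F a
    · exact ⟨0, interior_maximal (fun u _ => h0 u) isOpen_univ (Set.mem_univ _)⟩
    · push Not at h0
      obtain ⟨t, ht⟩ := h0
      exact ⟨_, (cen_hex h hc' (CNcX.uu_of_not h hc ht)).1⟩
  obtain ⟨A, hA⟩ : ∃ A : Set ℝ, A = Set.Iic t1 ∩ (UU F a)ᶜ := ⟨_, rfl⟩
  have a1 : IsClosed A := by rw [hA]; exact isClosed_Iic.inter (isOpen_UU a).isClosed_compl
  have a2 : A.Nonempty := by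
    rw [hA]
    exact ⟨t1 - π / 3, by simp only [Set.mem_Iic]; linarith [pi_pos],
      fun hu => (h.UU_hex ht1).2 (UU_mem hu)⟩
  have a3 : BddAbove A := by rw [hA]; exact bddAbove_Iic.inter_of_left
  have a4 := a1.csSup_mem a2 a3
  have a5 : ∀ x, x ≤ t1 → x ∉ UU F a → x ≤ sSup A := fun x h1 h2 =>
    le_csSup a3 (by rw [hA]; exact ⟨h1, h2⟩)
  generalize sSup A = α at a4 a5
  rw [hA] at a4
  have a6 : α < t1 := lt_of_le_of_ne a4.1 fun e => a4.2 (e ▸ ht1)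
  have gap : ∀ s, 0 < s → s < t1 - α → α + s ∈ UU F a := fun s h1 h2 => by
    by_contra h3
    linarith [a5 (α + s) (by linarith) h3]
  refine ⟨α, t1 - α, h, hab, hc, by linarith, gap, fun ε hε => ?_⟩
  by_contra hn
  push Not at hn
  have z1 : IsClosed {t : ℝ | ee t ∈ F a} := (h.closed a).preimage continuous_ee
  have z2 : Set.Ioo α t1 ⊆ {t : ℝ | ee t ∈ F a} := fun u hu => by
    have := gap (u - α) (by linarith [hu.1]) (by linarith [hu.2])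
    rw [add_sub_cancel] at this
    exact UU_mem this
  have z3 : Set.Icc α t1 ⊆ {t : ℝ | ee t ∈ F a} := by
    rw [← closure_Ioo a6.ne]
    exact z1.closure_subset_iff.mpr z2
  refine a4.2 (interior_maximal (s := {t : ℝ | ee t ∈ F a}) (t := Set.Ioo (α - ε) t1)
    (fun u hu => ?_) isOpen_Ioo ⟨by linarith, a6⟩)
  rcases le_or_gt α u with h1 | h1
  · exact z3 ⟨h1, hu.2.le⟩
  · by_contra h2
    have := hn (u - α) (by linarith [hu.1]) (by linarith)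
    rw [add_sub_cancel] at this
    exact this (CNcX.uu_of_not h hc h2)

theorem NC.next (h : NC F a b α β) : NC F b a (α + π / 3) β := by
  refine ⟨h.cfg, h.ne.symm, fun t => (h.cen t).symm, h.pos, fun s h1 h2 => ?_, fun ε hε => ?_⟩
  · have := (cen_hex h.cfg h.cen (h.gap s h1 h2)).1
    rwa [add_right_comm] at this
  · obtain ⟨t, h1, h2, h3⟩ := h.left ε hε
    have := (cen_hex h.cfg (fun t => (h.cen t).symm) h3).1
    exact ⟨t, h1, h2, by rwa [add_right_comm] at this⟩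

theorem NC.prev (h : NC F a b α β) : NC F b a (α - π / 3) β := by
  refine ⟨h.cfg, h.ne.symm, fun t => (h.cen t).symm, h.pos, fun s h1 h2 => ?_, fun ε hε => ?_⟩
  · have := (cen_hex h.cfg h.cen (h.gap s h1 h2)).2
    rwa [add_sub_right_comm] at this
  · obtain ⟨t, h1, h2, h3⟩ := h.left ε hε
    have := (cen_hex h.cfg (fun t => (h.cen t).symm) h3).2
    exact ⟨t, h1, h2, by rwa [add_sub_right_comm] at this⟩

theorem Cfg.RR_of_UU (h : Cfg F) {s t : ℝ} (hs : s ∈ UU F a) (ht : t ∈ UU F b)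
    (hst : sin (s - t) ≠ 0) : ee s + ee t ∈ RR F a b := by
  refine ⟨h.UU_two hs t hst, ?_⟩
  rw [add_comm]
  refine h.UU_two ht s fun e => hst ?_
  rw [← neg_sub, sin_neg, e, neg_zero]

theorem RR_comm {z : ℂ} : z ∈ RR F a b ↔ z ∈ RR F b a := and_comm

theorem arm_of_approx (h : Cfg F) (γ : ℝ → ℂ) (hγ : Continuous γ) (ε : ℝ) (hε : 0 < ε)
    (H : ∀ s₁ δ : ℝ, 0 < s₁ → s₁ ≤ ε → 0 < δ → ∃ v : ℂ, ‖v‖ ≤ δ ∧ ∀ s, s₁ ≤ s → s ≤ ε →
      γ s + v ∈ RR F a b ∧ ∃ c, γ s + v ∈ interior (F c)) :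
    ∃ c, c ≠ a ∧ c ≠ b ∧ ∀ s, 0 ≤ s → s ≤ ε → γ s ∈ F c := by
  have key : ∀ n : ℕ, ∃ (v : ℂ) (c : Fin 5), ‖v‖ ≤ 1 / ((n : ℝ) + 1) ∧ c ≠ a ∧ c ≠ b ∧
      ∀ s, ε * (1 / ((n : ℝ) + 1)) ≤ s → s ≤ ε → γ s + v ∈ F c := by
    intro n
    have p1 : 0 < 1 / ((n : ℝ) + 1) := by positivity
    have p2 : 1 / ((n : ℝ) + 1) ≤ 1 := by
      rw [div_le_one (by positivity)]
      linarith [(Nat.cast_nonneg n : (0 : ℝ) ≤ n)]
    have p3 : ε * (1 / ((n : ℝ) + 1)) ≤ ε := by nlinarith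
    obtain ⟨v, hv, hs⟩ := H _ _ (mul_pos hε p1) p3 p1
    obtain ⟨c, hc⟩ := h.mono_conn (S := (fun s => γ s + v) '' Set.Icc (ε * (1 / ((n : ℝ) + 1))) ε)
      (isPreconnected_Icc.image _ (hγ.add continuous_const).continuousOn)
      ⟨_, ε, ⟨p3, le_rfl⟩, rfl⟩ (by
        rintro _ ⟨s, hs', rfl⟩
        exact (hs s hs'.1 hs'.2).2)
    have hm : ∀ s, ε * (1 / ((n : ℝ) + 1)) ≤ s → s ≤ ε → γ s + v ∈ F c := fun s h1 h2 =>
      interior_subset (hc ⟨s, ⟨h1, h2⟩, rfl⟩)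
    refine ⟨v, c, hv, ?_, ?_, hm⟩
    · rintro rfl
      exact (hs ε p3 le_rfl).1.1 (hm ε p3 le_rfl)
    · rintro rfl
      exact (hs ε p3 le_rfl).1.2 (hm ε p3 le_rfl)
  choose v c h1 h2 h3 h4 using key
  obtain ⟨c0, hc0⟩ : ∃ c0, ∃ᶠ n in atTop, c n = c0 := by
    by_contra hn
    simp only [not_exists, not_frequently] at hn
    obtain ⟨n, hn⟩ := (eventually_all.mpr hn).exists
    exact hn _ rfl
  obtain ⟨n0, hn0⟩ := hc0.exists
  have t1 : Tendsto (fun n : ℕ => 1 / ((n : ℝ) + 1)) atTop (𝓝 0) :=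
    tendsto_one_div_add_atTop_nhds_zero_nat
  have t2 : Tendsto v atTop (𝓝 0) := squeeze_zero_norm h1 t1
  have t3 : Tendsto (fun n : ℕ => ε * (1 / ((n : ℝ) + 1))) atTop (𝓝 0) := by
    simpa using t1.const_mul ε
  have z2 : Set.Ioc 0 ε ⊆ γ ⁻¹' F c0 := fun s hs => by
    have t4 : Tendsto (fun n => γ s + v n) atTop (𝓝 (γ s)) := by
      simpa using t2.const_add (γ s)
    refine (h.closed c0).mem_of_frequently_of_tendsto ?_ t4
    refine (hc0.and_eventually (t3.eventually (gt_mem_nhds hs.1))).mono fun n hn => ?_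
    rw [← hn.1]
    exact h4 n s hn.2.le hs.2
  have z3 : Set.Icc 0 ε ⊆ γ ⁻¹' F c0 := by
    rw [← closure_Ioc hε.ne]
    exact ((h.closed c0).preimage hγ).closure_subset_iff.mpr z2
  exact ⟨c0, hn0 ▸ h2 n0, hn0 ▸ h3 n0, fun s k1 k2 => z3 ⟨k1, k2⟩⟩

theorem armC_per {c : Fin 5} (h : ArmC F α c) : ArmC F (α + 2 * π) c ∧ ArmC F (α - 2 * π) c := by
  obtain ⟨ε, hε, H⟩ := h
  refine ⟨⟨ε, hε, fun s h1 h2 => ?_⟩, ⟨ε, hε, fun s h1 h2 => ?_⟩⟩
  · rw [show α + 2 * π - π / 3 + s = α - π / 3 + s + 2 * π by ring,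
      show α + 2 * π + π / 3 = α + π / 3 + 2 * π by ring, ee_add_two_pi, ee_add_two_pi]
    exact H s h1 h2
  · rw [show α - 2 * π - π / 3 + s = α - π / 3 + s - 2 * π by ring,
      show α - 2 * π + π / 3 = α + π / 3 - 2 * π by ring, CNcX.sub, CNcX.sub]
    exact H s h1 h2

theorem armD_per {c : Fin 5} (h : ArmD F α c) : ArmD F (α + 2 * π) c ∧ ArmD F (α - 2 * π) c := by
  obtain ⟨ε, hε, H⟩ := h
  refine ⟨⟨ε, hε, fun s h1 h2 => ?_⟩, ⟨ε, hε, fun s h1 h2 => ?_⟩⟩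
  · rw [show α + 2 * π - π / 3 = α - π / 3 + 2 * π by ring,
      show α + 2 * π + π / 3 + s = α + π / 3 + s + 2 * π by ring, ee_add_two_pi, ee_add_two_pi]
    exact H s h1 h2
  · rw [show α - 2 * π - π / 3 = α - π / 3 - 2 * π by ring,
      show α - 2 * π + π / 3 + s = α + π / 3 + s - 2 * π by ring, CNcX.sub, CNcX.sub]
    exact H s h1 h2

theorem armE_per {c : Fin 5} (h : ArmE F α c) : ArmE F (α + 2 * π) c ∧ ArmE F (α - 2 * π) c := by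
  obtain ⟨ε, hε, H⟩ := h
  refine ⟨⟨ε, hε, fun s h1 h2 => ?_⟩, ⟨ε, hε, fun s h1 h2 => ?_⟩⟩
  · rw [show α + 2 * π + s = α + s + 2 * π by ring, ee_add_two_pi, ee_add_two_pi]
    exact H s h1 h2
  · rw [show α - 2 * π + s = α + s - 2 * π by ring, CNcX.sub, CNcX.sub]
    exact H s h1 h2

end Vale.Agent.P032
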