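import Vale.Agent.P032.CNc

open Filter Topology Real

namespace Vale.Agent.P032

namespace CSh

theorem cos_third : cos (2 * π / 3) = -(1 / 2) := by
  rw [show 2 * π / 3 = π - π / 3 by ring, cos_pi_sub, cos_pi_div_three]

theorem one_lt_two {a b : ℝ} (h1 : a ≤ b) (h2 : b - a < 2 * π / 3) : 1 < ‖ee a + ee b‖ := by
  have h := norm_two a b
  have h3 : cos (2 * π / 3) < cos (b - a) :=
    cos_lt_cos_of_nonneg_of_le_pi (by linarith) (by linarith [pi_pos]) h2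
  rw [cos_third, ← cos_neg, neg_sub] at h3
  refine lt_of_pow_lt_pow_left₀ 2 (norm_nonneg _) ?_
  rw [h]
  linarith

theorem two_lt_one {a b : ℝ} (h1 : 2 * π / 3 < b - a) (h2 : b - a ≤ π) : ‖ee a + ee b‖ < 1 := by
  have h := norm_two a b
  have h3 : cos (b - a) < cos (2 * π / 3) :=
    cos_lt_cos_of_nonneg_of_le_pi (by linarith [pi_pos]) h2 h1
  rw [cos_third, ← cos_neg, neg_sub] at h3
  refine lt_of_pow_lt_pow_left₀ 2 zero_le_one ?_
  rw [h]
  linarith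

theorem cp {x : ℝ} (h1 : -π < x) (h2 : x < π) : 0 < cos (x / 2) :=
  cos_pos_of_mem_Ioo ⟨by linarith, by linarith⟩

theorem cn {x : ℝ} (h1 : -(3 * π) < x) (h2 : x < -π) : cos (x / 2) < 0 := by
  rw [← cos_neg]
  exact cos_neg_of_pi_div_two_lt_of_lt (by linarith) (by linarith)

theorem sp {x : ℝ} (h1 : 0 < x) (h2 : x < 2 * π) : 0 < sin (x / 2) :=
  sin_pos_of_pos_of_lt_pi (by linarith) (by linarith)

theorem sn {x : ℝ} (h1 : x < 0) (h2 : -(2 * π) < x) : sin (x / 2) < 0 :=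
  sin_neg_of_neg_of_neg_pi_lt (by linarith) (by linarith)

theorem lt_pnp {a b c : ℝ} (h1 : 0 < cos ((a - b) / 2)) (h2 : sin ((a - c) / 2) < 0)
    (h3 : 0 < sin ((b - c) / 2)) : ‖ee a + ee b - ee c‖ < 1 :=
  (norm_three_lt_one a b c).mpr (mul_neg_of_neg_of_pos (mul_neg_of_pos_of_neg h1 h2) h3)

theorem gt_ppp {a b c : ℝ} (h1 : 0 < cos ((a - b) / 2)) (h2 : 0 < sin ((a - c) / 2))
    (h3 : 0 < sin ((b - c) / 2)) : 1 < ‖ee a + ee b - ee c‖ :=
  (one_lt_norm_three a b c).mpr (mul_pos (mul_pos h1 h2) h3)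

theorem gt_nnp {a b c : ℝ} (h1 : cos ((a - b) / 2) < 0) (h2 : sin ((a - c) / 2) < 0)
    (h3 : 0 < sin ((b - c) / 2)) : 1 < ‖ee a + ee b - ee c‖ :=
  (one_lt_norm_three a b c).mpr (mul_pos (mul_pos_of_neg_of_neg h1 h2) h3)

theorem small {ε : ℝ} (h : 0 < ε) : ∃ u, 0 < u ∧ u ≤ ε ∧ u ≤ 1 :=
  ⟨min ε 1, lt_min h one_pos, min_le_left _ _, min_le_right _ _⟩

theorem near (α s t : ℝ) :
    ‖ee (α - π / 3 + s) + ee (α + π / 3 + t) - ee α‖ ≤ |s| + |t| := by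
  have e : ee (α - π / 3 + s) + ee (α + π / 3 + t) - ee α =
      (ee (α - π / 3 + s) - ee (α - π / 3)) + (ee (α + π / 3 + t) - ee (α + π / 3)) := by
    rw [← ee_hex α]
    ring
  rw [e]
  refine (norm_add_le _ _).trans (add_le_add ?_ ?_)
  · simpa using norm_ee_sub_ee_le (α - π / 3 + s) (α - π / 3)
  · simpa using norm_ee_sub_ee_le (α + π / 3 + t) (α + π / 3)

theorem cell (α : ℝ) {s s' : ℝ} (h : s < s') : ‖ee (α + s) - ee (α + s')‖ ≤ s' - s := by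
  have := norm_ee_sub_ee_le (α + s) (α + s')
  rwa [show α + s - (α + s') = -(s' - s) by ring, abs_neg, abs_of_pos (by linarith)] at this

end CSh

end Vale.Agent.P032
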