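import Vale.Agent.P032.Defs

namespace Vale.Agent.P032

theorem proper_of_open {k : ℕ} (O : Fin k → Set ℂ) (ho : ∀ i, IsOpen (O i)) (hf : ∀ i, Free (O i))
    (hd : Dense (⋃ i, O i)) : ∃ c : ℂ → Fin k, Proper c := by
  have hU : IsOpen (⋃ i, O i) := isOpen_iUnion ho
  have h1 : ∀ S : Finset ℂ, ∃ t : ℂ, ∀ s ∈ S, ∃ i, s + t ∈ O i := fun S => by
    have := dense_biInter_of_isOpen (S := (S : Set ℂ))
      (f := fun s => (Homeomorph.addLeft s) ⁻¹' (⋃ i, O i))
      (fun s _ => hU.preimage (Homeomorph.addLeft s).continuous) S.countable_toSet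
      (fun s _ => hd.preimage (Homeomorph.addLeft s).isOpenMap)
    obtain ⟨t, ht⟩ := this.nonempty
    refine ⟨t, fun s hs => ?_⟩
    have := Set.mem_iInter₂.1 ht s hs
    simpa using this
  choose t ht using h1
  obtain ⟨i0, -⟩ := ht {0} 0 (Finset.mem_singleton_self _)
  have h2 : ∀ (S : Finset ℂ) (s : ℂ), ∃ i, s ∈ S → s + t S ∈ O i := fun S s => by
    by_cases hs : s ∈ S
    · obtain ⟨i, hi⟩ := ht S s hs
      exact ⟨i, fun _ => hi⟩
    · exact ⟨i0, fun h => absurd h hs⟩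
  choose g hg using h2
  obtain ⟨χ, hχ⟩ := Finset.rado_selection (β := fun _ : ℂ => Fin k) g
  refine ⟨χ, fun x y hxy he => ?_⟩
  classical
  obtain ⟨T, hT, h⟩ := hχ {x, y}
  have hx : x ∈ ({x, y} : Finset ℂ) := by simp
  have hy : y ∈ ({x, y} : Finset ℂ) := by simp
  have a := hg T x (hT hx)
  have b := hg T y (hT hy)
  rw [← h x hx] at a
  rw [← h y hy, ← he] at b
  exact hf _ _ a _ b (by rw [add_sub_add_right_eq_sub]; exact hxy)

end Vale.Agent.P032
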