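import Vale.Agent.P032.Mean1

namespace Vale.Agent.P032

variable {G : Type} [AddCommGroup G] {ψ : G → ℝ}

theorem PD.swap (h : PD ψ) (x y : G) : ψ (x - y) = ψ (y - x) := by
  rw [← h.1, neg_sub]

theorem PD.zero_nonneg (h : PD ψ) : 0 ≤ ψ 0 := by
  simpa using h.2 Unit (fun _ => 0) fun _ => 1

/-- Cauchy-Schwarz for the form -/
theorem PD.cs (h : PD ψ) {ι κ : Type} [Fintype ι] [Fintype κ] (x : ι → G) (c : ι → ℝ)
    (y : κ → G) (d : κ → ℝ) :
    (∑ a, ∑ b, c a * d b * ψ (x a - y b)) ^ 2 ≤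
      (∑ a, ∑ a', c a * c a' * ψ (x a - x a')) * (∑ b, ∑ b', d b * d b' * ψ (y b - y b')) := by
  set A := ∑ a, ∑ a', c a * c a' * ψ (x a - x a') with hA
  set B := ∑ a, ∑ b, c a * d b * ψ (x a - y b) with hB
  set D := ∑ b, ∑ b', d b * d b' * ψ (y b - y b') with hD
  have key : ∀ s : ℝ, 0 ≤ A * (s * s) + 2 * B * s + D := by
    intro s
    have h1 := h.2 (ι ⊕ κ) (Sum.elim x y) (Sum.elim (fun a => s * c a) d)
    simp only [Fintype.sum_sum_type, Sum.elim_inl, Sum.elim_inr, Finset.sum_add_distrib] at h1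
    have e1 : ∑ a, ∑ a', s * c a * (s * c a') * ψ (x a - x a') = A * (s * s) := by
      rw [hA, Finset.sum_mul]
      refine Finset.sum_congr rfl fun a _ => ?_
      rw [Finset.sum_mul]
      exact Finset.sum_congr rfl fun a' _ => by ring
    have e2 : ∑ a, ∑ b, s * c a * d b * ψ (x a - y b) = B * s := by
      rw [hB, Finset.sum_mul]
      refine Finset.sum_congr rfl fun a _ => ?_
      rw [Finset.sum_mul]
      exact Finset.sum_congr rfl fun a' _ => by ring
    have e3 : ∑ b, ∑ a, d b * (s * c a) * ψ (y b - x a) = B * s := by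
      rw [← e2, Finset.sum_comm]
      refine Finset.sum_congr rfl fun a _ => Finset.sum_congr rfl fun b _ => ?_
      rw [h.swap (y b)]
      ring
    rw [e1, e2, e3] at h1
    linarith
  have := discrim_le_zero key
  unfold discrim at this
  linarith

theorem PD.abs_le (h : PD ψ) (x : G) : |ψ x| ≤ ψ 0 := by
  have := h.cs (fun _ : Unit => x) (fun _ => 1) (fun _ : Unit => 0) fun _ => 1
  simp only [Finset.univ_unique, Finset.sum_singleton, mul_one, one_mul, sub_zero, sub_self]
    at this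
  exact abs_le_of_sq_le_sq' (by rw [sq (ψ 0)]; exact this) h.zero_nonneg |> _root_.abs_le.mpr

theorem PD.bd (h : PD ψ) : Bd ψ := ⟨ψ 0, h.abs_le⟩

/-- the shifted form is dominated by the form -/
theorem PD.shift_abs_le (h : PD ψ) {ι : Type} [Fintype ι] (x : ι → G) (c : ι → ℝ) (u : G) :
    |∑ a, ∑ b, c a * c b * ψ (x a - x b + u)| ≤ ∑ a, ∑ b, c a * c b * ψ (x a - x b) := by
  have h1 := h.cs x c (fun b => x b - u) c
  have e1 : ∀ a b, x a - (x b - u) = x a - x b + u := fun a b => by abel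
  have e2 : ∀ a b, x a - u - (x b - u) = x a - x b := fun a b => by abel
  simp only [e2] at h1
  simp only [e1] at h1
  rw [← sq] at h1
  exact _root_.abs_le.mpr (abs_le_of_sq_le_sq' h1 (h.2 ι x c))

theorem PD.sub_sq_le (h : PD ψ) (h0 : ψ 0 = 1) (x y : G) :
    (ψ x - ψ y) ^ 2 ≤ 2 * (1 - ψ (x - y)) := by
  have := h.cs (ι := Fin 2) ![x, y] ![1, -1] (fun _ : Unit => 0) fun _ => 1
  simp only [Finset.univ_unique, Finset.sum_singleton, mul_one, one_mul, sub_zero, sub_self,
    Fin.sum_univ_two, Matrix.cons_val_zero, Matrix.cons_val_one, h0, h.swap y x] at this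
  nlinarith

theorem PD.avg_sq_le (h : PD ψ) (h0 : ψ 0 = 1) {ι : Type} [Fintype ι] [Nonempty ι] (a : G)
    (u : ι → G) : ((∑ i, ψ (a + u i)) / (Fintype.card ι : ℝ)) ^ 2 ≤ QQ ψ u := by
  have := h.cs u (fun _ => 1) (fun _ : Unit => -a) fun _ => 1
  simp only [Finset.univ_unique, Finset.sum_singleton, mul_one, one_mul, sub_self, h0,
    sub_neg_eq_add] at this
  unfold QQ
  rw [div_pow]
  refine div_le_div_of_nonneg_right ?_ (by positivity)
  simpa only [add_comm a] using this

theorem PD.QQ_nonneg (h : PD ψ) {ι : Type} [Fintype ι] (x : ι → G) : 0 ≤ QQ ψ x := by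
  have := h.2 ι x fun _ => 1
  simp only [mul_one, one_mul] at this
  exact div_nonneg this (by positivity)

theorem PD.conv_aux (h : PD ψ) {ι κ : Type} [Fintype ι] [Fintype κ] (x : ι → G) (y : κ → G) :
    ∑ b, ∑ a, ∑ b', ∑ a', ψ (x a - x a' + (y b - y b')) ≤
      (Fintype.card κ : ℝ) ^ 2 * ∑ a, ∑ a', ψ (x a - x a') := by
  have h1 : ∀ u, ∑ a, ∑ a', ψ (x a - x a' + u) ≤ ∑ a, ∑ a', ψ (x a - x a') := fun u => by
    have := h.shift_abs_le x (fun _ => 1) u
    simp only [mul_one, one_mul] at this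
    exact (le_abs_self _).trans this
  calc ∑ b, ∑ a, ∑ b', ∑ a', ψ (x a - x a' + (y b - y b'))
      = ∑ b, ∑ b', ∑ a, ∑ a', ψ (x a - x a' + (y b - y b')) :=
        Finset.sum_congr rfl fun b _ => Finset.sum_comm
    _ ≤ ∑ _b : κ, ∑ _b' : κ, ∑ a, ∑ a', ψ (x a - x a') :=
        Finset.sum_le_sum fun b _ => Finset.sum_le_sum fun b' _ => h1 _
    _ = _ := by
        simp only [Finset.sum_const, Finset.card_univ, nsmul_eq_mul]
        ring

/-- convolution decreases the form -/
theorem PD.QQ_conv_le (h : PD ψ) {ι κ : Type} [Fintype ι] [Fintype κ] [Nonempty ι] [Nonempty κ]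
    (x : ι → G) (y : κ → G) :
    QQ ψ (fun p : ι × κ => x p.1 + y p.2) ≤ QQ ψ x ∧
      QQ ψ (fun p : ι × κ => x p.1 + y p.2) ≤ QQ ψ y := by
  have hι : (0 : ℝ) < Fintype.card ι := by exact_mod_cast Fintype.card_pos
  have hκ : (0 : ℝ) < Fintype.card κ := by exact_mod_cast Fintype.card_pos
  unfold QQ
  rw [Fintype.card_prod, Nat.cast_mul, mul_pow]
  constructor
  · have h1 := h.conv_aux x y
    have e : ∀ (a a' : ι) (b b' : κ), x a + y b - (x a' + y b') = x a - x a' + (y b - y b') :=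
      fun a a' b b' => by abel
    simp only [Fintype.sum_prod_type_right, e]
    rw [div_le_div_iff₀ (by positivity) (by positivity)]
    nlinarith [mul_le_mul_of_nonneg_right h1 (sq_nonneg (Fintype.card ι : ℝ))]
  · have h1 := h.conv_aux y x
    have e : ∀ (a a' : ι) (b b' : κ), x a + y b - (x a' + y b') = y b - y b' + (x a - x a') :=
      fun a a' b b' => by abel
    simp only [Fintype.sum_prod_type, e]
    rw [div_le_div_iff₀ (by positivity) (by positivity)]
    nlinarith [mul_le_mul_of_nonneg_right h1 (sq_nonneg (Fintype.card κ : ℝ))]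

theorem PD.form_eq {ι : Type} [Fintype ι] (A : Matrix ι ι ℝ) (c : ι → ℝ) :
    star c ⬝ᵥ A.mulVec c = ∑ a, ∑ b, c a * c b * A a b := by
  simp only [dotProduct, Matrix.mulVec, star_trivial, Finset.mul_sum]
  exact Finset.sum_congr rfl fun a _ => Finset.sum_congr rfl fun b _ => by ring

theorem PD.psd (h : PD ψ) {ι : Type} [Fintype ι] (x : ι → G) :
    (Matrix.of fun a b => ψ (x a - x b)).PosSemidef := by
  refine Matrix.PosSemidef.of_dotProduct_mulVec_nonneg ?_ fun c => ?_
  · ext a b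
    simp only [Matrix.conjTranspose_apply, Matrix.of_apply, star_trivial]
    exact h.swap _ _
  · rw [PD.form_eq]
    exact h.2 ι x c

/-- Schur product -/
theorem PD.mul {φ : G → ℝ} (h : PD ψ) (h' : PD φ) : PD (fun x => ψ x * φ x) := by
  refine ⟨fun x => by simp only [h.1, h'.1], fun ι _ x c => ?_⟩
  have := ((h.psd x).hadamard (h'.psd x)).dotProduct_mulVec_nonneg c
  rw [PD.form_eq] at this
  exact this

end Vale.Agent.P032
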