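import Vale.Agent.P032.Mean0
import Vale.Agent.P032.PD1

namespace Vale.Agent.P032

namespace CorrX

variable {k : ℕ}

/-- agreement of two colours -/
def ag (i j : Fin k) : ℝ := if i = j then 1 else 0

lemma abs_ag (i j : Fin k) : |ag i j| ≤ 1 := by
  unfold ag
  split_ifs <;> simp

lemma bd_ag {G : Type} (f g : G → Fin k) : Bd fun t => ag (f t) (g t) :=
  ⟨1, fun _ => abs_ag _ _⟩

lemma ag_pd {ι : Type} [Fintype ι] (p : ι → Fin k) (d : ι → ℝ) :
    0 ≤ ∑ a, ∑ b, d a * d b * ag (p a) (p b) := by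
  have h : ∀ a b, d a * d b * ag (p a) (p b) = ∑ i, (d a * ag (p a) i) * (d b * ag (p b) i) := by
    intro a b
    rw [Finset.sum_eq_single (p a) (fun i _ hi => by simp [ag, Ne.symm hi]) (by simp)]
    simp [ag, eq_comm]
  simp only [h]
  rw [Finset.sum_congr rfl fun a _ => Finset.sum_comm, Finset.sum_comm]
  refine Finset.sum_nonneg fun i _ => ?_
  rw [← Finset.sum_mul_sum]
  exact mul_self_nonneg _

variable (Mr : IMean ℝ) (Mc : IMean ℂ) (c : ℂ → Fin k)

/-- the correlation function -/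
noncomputable def om (z : ℂ) : ℝ := Mr.m fun a => Mc.m fun t => ag (c (t + ee a * z)) (c t)

lemma bd_in (z : ℂ) : Bd fun a => Mc.m fun t => ag (c (t + ee a * z)) (c t) :=
  Mc.bd_param (C := 1) fun _ _ => abs_ag _ _

lemma om_rad : Rad (om Mr Mc c) := by
  intro x y h
  obtain ⟨s, hs⟩ := exists_ee x
  obtain ⟨t, ht⟩ := exists_ee y
  have e : x = ee (s - t) * y := by
    rw [hs, h]
    nth_rewrite 2 [ht]
    rw [mul_left_comm, ← ee_add, sub_add_cancel]
  unfold om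
  rw [← Mr.inv _ (s - t) (bd_in Mc c y)]
  simp only [ee_add, mul_assoc, ← e]

lemma key {ι : Type} (s : Finset ι) (w : ι → ℝ) (x y : ι → ℂ) :
    ∑ a ∈ s, w a * om Mr Mc c (x a - y a) =
      Mr.m fun α => Mc.m fun t => ∑ a ∈ s, w a * ag (c (t + ee α * x a)) (c (t + ee α * y a)) := by
  have h : ∀ α, (Mc.m fun t => ∑ a ∈ s, w a * ag (c (t + ee α * x a)) (c (t + ee α * y a))) =
      ∑ a ∈ s, w a * Mc.m fun t => ag (c (t + ee α * (x a - y a))) (c t) := by
    intro α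
    rw [Mc.sum s fun a _ => (bd_ag _ _).cmul _]
    refine Finset.sum_congr rfl fun a _ => ?_
    rw [Mc.smul _ _ (bd_ag _ _), ← Mc.inv (fun t => ag (c (t + ee α * (x a - y a))) (c t))
      (ee α * y a) (bd_ag _ _)]
    simp only [add_assoc, ← mul_add, add_sub_cancel]
  simp only [h]
  rw [Mr.sum s fun a _ => (bd_in Mc c _).cmul _]
  exact Finset.sum_congr rfl fun a _ => (Mr.smul _ _ (bd_in Mc c _)).symm

lemma abs_in {ι : Type} (s : Finset ι) (w : ι → ℝ) (p q : ι → Fin k) :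
    |∑ a ∈ s, w a * ag (p a) (q a)| ≤ ∑ a ∈ s, |w a| := by
  refine (Finset.abs_sum_le_sum_abs _ _).trans (Finset.sum_le_sum fun a _ => ?_)
  rw [abs_mul]
  exact mul_le_of_le_one_right (abs_nonneg _) (abs_ag _ _)

end CorrX

open CorrX

open Classical in
/-- the correlation function of a colouring -/
theorem exists_corr {k : ℕ} (c : ℂ → Fin k) (hc : Proper c) :
    ∃ ω : ℂ → ℝ, ω ∈ CC ∧ ω 1 = 0 ∧
      ∀ (ι : Type) (s : Finset ι) (w : ι → ℝ) (x y : ι → ℂ), ∃ c' : ℂ → Fin k,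
        ∑ a ∈ s, w a * (if c' (x a) = c' (y a) then 1 else 0) ≤
          ∑ a ∈ s, w a * ω (x a - y a) + 1 := by
  obtain ⟨Mr⟩ := exists_imean ℝ
  obtain ⟨Mc⟩ := exists_imean ℂ
  refine ⟨om Mr Mc c, ⟨⟨fun x => om_rad Mr Mc c _ _ (norm_neg x), fun ι _ x d => ?_⟩,
    om_rad Mr Mc c, ?_⟩, ?_, fun ι s w x y => ?_⟩
  · have h := key Mr Mc c Finset.univ (fun p : ι × ι => d p.1 * d p.2) (fun p => x p.1)
      (fun p => x p.2)
    rw [Fintype.sum_prod_type] at h
    rw [h]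
    refine Mr.nonneg _ (Mc.bd_param fun _ _ => abs_in _ _ _ _) fun α =>
      Mc.nonneg _ ⟨_, fun _ => abs_in _ _ _ _⟩ fun t => ?_
    rw [Fintype.sum_prod_type]
    exact ag_pd (fun a => c (t + ee α * x a)) d
  · simp [om, ag, Mc.one, Mr.one]
  · have h : ∀ a t, ag (c (t + ee a * 1)) (c t) = 0 := fun a t =>
      if_neg (hc _ _ (by simp [norm_ee]))
    simp only [om, h, Mc.const, Mr.const]
  · rw [key]
    obtain ⟨α, h1⟩ := Mr.exists_lt (Mc.bd_param (F := fun α t => ∑ a ∈ s, w a *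
      ag (c (t + ee α * x a)) (c (t + ee α * y a))) fun _ _ => abs_in _ _ _ _) (lt_add_one _)
    obtain ⟨t, h2⟩ := Mc.exists_lt ⟨_, fun _ => abs_in _ _ _ _⟩ h1
    refine ⟨fun z => c (t + ee α * z), le_trans (le_of_eq ?_) h2.le⟩
    refine Finset.sum_congr rfl fun a _ => ?_
    unfold ag
    congr

end Vale.Agent.P032
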