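import Mathlib

open MeasureTheory Filter Topology

namespace Vale.Agent.P032

/-- the unit vector of angle `t` -/
noncomputable def ee (t : ℝ) : ℂ := Complex.exp (t * Complex.I)

/-- bounded real function -/
def Bd {G : Type} (f : G → ℝ) : Prop := ∃ C : ℝ, ∀ x, |f x| ≤ C

/-- invariant mean on the bounded real functions of an abelian group -/
structure IMean (G : Type) [AddCommGroup G] where
  m : (G → ℝ) → ℝ
  add : ∀ f g, Bd f → Bd g → m (fun x => f x + g x) = m f + m g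
  smul : ∀ (c : ℝ) f, Bd f → m (fun x => c * f x) = c * m f
  nonneg : ∀ f, Bd f → (∀ x, 0 ≤ f x) → 0 ≤ m f
  one : m (fun _ => 1) = 1
  inv : ∀ f a, Bd f → m (fun x => f (x + a)) = m f

/-- real symmetric positive definite function -/
def PD {G : Type} [AddCommGroup G] (ψ : G → ℝ) : Prop :=
  (∀ x, ψ (-x) = ψ x) ∧
    ∀ (ι : Type) [Fintype ι] (x : ι → G) (c : ι → ℝ), 0 ≤ ∑ a, ∑ b, c a * c b * ψ (x a - x b)

/-- radial function -/
def Rad (ψ : ℂ → ℝ) : Prop := ∀ x y : ℂ, ‖x‖ = ‖y‖ → ψ x = ψ y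

/-- normalized radial positive definite functions -/
def CC : Set (ℂ → ℝ) := {ψ | PD ψ ∧ Rad ψ ∧ ψ 0 = 1}

/-- the averaging operator -/
noncomputable def MM (M : IMean ℝ) (ψ : ℂ → ℝ) (x : ℂ) : ℝ :=
  M.m (fun t => ψ (x * (1 - ee t)))

/-- product formula -/
def ProdF (M : IMean ℝ) (ψ : ℂ → ℝ) : Prop :=
  ∀ (s : ℝ), s ≠ 0 → ∀ x y : ℂ, M.m (fun t => ψ (x + ee (s * t) * y)) = ψ x * ψ y

/-- uniform average of the form over a finite family -/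
noncomputable def QQ {G : Type} [AddCommGroup G] (ψ : G → ℝ) {ι : Type} [Fintype ι] (x : ι → G) :
    ℝ :=
  (∑ a, ∑ b, ψ (x a - x b)) / (Fintype.card ι : ℝ) ^ 2

/-- lower bound of the form on families in the ball of radius `r` -/
def Low (ψ : ℂ → ℝ) (r η : ℝ) : Prop :=
  ∀ (ι : Type) [Fintype ι] [Nonempty ι] (x : ι → ℂ), (∀ a, ‖x a‖ ≤ r) → η ≤ QQ ψ x

/-- the abstract rules satisfied by the iterates of the averaging operator -/
structure Rules (Ψ : ℕ → ℝ → ℝ) : Prop where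
  even : ∀ s t, Ψ s (-t) = Ψ s t
  zero : ∀ s, Ψ s 0 = 1
  le_one : ∀ s t, Ψ s t ≤ 1
  sq : ∀ s t, (Ψ s t) ^ 2 ≤ Ψ (s + 1) t
  r1 : ∀ s p q, 0 ≤ p → 0 ≤ q → (Ψ s p * Ψ s q) ^ 4 ≤ Ψ (s + 2) (p - q)
  r2 : ∀ s p q, 0 ≤ p → 0 ≤ q → (Ψ s p * Ψ s q) ^ 4 ≤ Ψ (s + 2) (√(p * q))
  r4 : ∀ s (lam w η : ℝ) (n : ℕ), 0 < η → η ≤ Ψ (s + 1) lam → 2 ≤ n * η →
    ∃ j : ℕ, 1 ≤ j ∧ j ≤ n ∧ η / 2 ≤ Ψ s (2 * lam * Real.sin (j * w / 2))

/-- a selection is good if some iterate is uniformly bounded below on it -/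
def Good {I : Type} (Ψ : I → ℕ → ℝ → ℝ) (x : I → ℝ) : Prop :=
  ∃ (S : ℕ) (η : ℝ), 0 < η ∧ ∀ i, η ≤ Ψ i S (x i)

/-- proper colouring of the plane -/
def Proper {k : ℕ} (c : ℂ → Fin k) : Prop := ∀ x y : ℂ, ‖x - y‖ = 1 → c x ≠ c y

/-- almost everywhere independent set -/
def Ind (A : Set ℂ) : Prop := ∀ u : ℂ, ‖u‖ = 1 → ∀ᵐ z : ℂ, ¬ (z ∈ A ∧ z + u ∈ A)

/-- maximal (mod null sets) independent measurable set -/
def MaxInd (A : Set ℂ) : Prop :=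
  MeasurableSet A ∧ Ind A ∧ ∀ S : Set ℂ, MeasurableSet S → Ind (A ∪ S) → ∀ᵐ z : ℂ, z ∈ S → z ∈ A

/-- density points -/
def dens (A : Set ℂ) : Set ℂ :=
  {x | Tendsto (fun r : ℝ => volume (A ∩ Metric.closedBall x r) / volume (Metric.closedBall x r))
    (𝓝[>] 0) (𝓝 1)}

/-- average of `f` over the ball of radius `δ` about `z` -/
noncomputable def DD (δ : ℝ) (f : ℂ → ℝ) (z : ℂ) : ℝ :=
  (∫ x in Metric.closedBall z δ, f x) / (Real.pi * δ ^ 2)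

/-- indicator of a colour class -/
noncomputable def ind {k : ℕ} (c : ℂ → Fin k) (i : Fin k) (x : ℂ) : ℝ := if c x = i then 1 else 0

/-- no two points at distance one -/
def Free (O : Set ℂ) : Prop := ∀ x ∈ O, ∀ y ∈ O, ‖x - y‖ ≠ 1

theorem norm_ee (t : ℝ) : ‖ee t‖ = 1 := by simp [ee, Complex.norm_exp_ofReal_mul_I]

theorem ee_add (s t : ℝ) : ee (s + t) = ee s * ee t := by
  simp [ee, ← Complex.exp_add, add_mul]

theorem ee_zero : ee 0 = 1 := by simp [ee]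

theorem ee_re (t : ℝ) : (ee t).re = Real.cos t := by simp [ee, Complex.exp_ofReal_mul_I_re]

theorem ee_im (t : ℝ) : (ee t).im = Real.sin t := by simp [ee, Complex.exp_ofReal_mul_I_im]

theorem ee_pi : ee Real.pi = -1 := by simp [ee]

theorem continuous_ee : Continuous ee := by unfold ee; fun_prop

theorem exists_ee (x : ℂ) : ∃ t : ℝ, x = ‖x‖ * ee t :=
  ⟨Complex.arg x, by simp [ee, Complex.norm_mul_exp_arg_mul_I]⟩

end Vale.Agent.P032
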