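import Vale.Agent.P032.MMa

namespace Vale.Agent.P032

theorem exists_multi_conv {ψ : ℂ → ℝ} (h : PD ψ) (l : List ℂ) (hl : ∀ d ∈ l, d ≠ 0)
    {ι : Type} [Fintype ι] [Nonempty ι] (x : ι → ℂ) (r : ℝ) (hx : ∀ a, ‖x a‖ ≤ r) :
    ∃ (κ : Type) (_ : Fintype κ) (_ : Nonempty κ) (y : κ → ℂ),
      (∀ b, ‖y b‖ ≤ r * (l.map (fun d => ‖d‖⁻¹)).sum) ∧
        ∀ d ∈ l, QQ ψ (fun b => d * y b) ≤ QQ ψ x := by
  induction l with
  | nil => exact ⟨Unit, inferInstance, inferInstance, fun _ => 0, by simp, by simp⟩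
  | cons e l ih =>
    obtain ⟨κ, _, _, y, h1, h2⟩ := ih fun d hd => hl d (List.mem_cons_of_mem _ hd)
    have he := hl e List.mem_cons_self
    refine ⟨κ × ι, inferInstance, inferInstance, fun p => y p.1 + x p.2 / e, fun p => ?_,
      fun d hd => ?_⟩
    · rw [List.map_cons, List.sum_cons, mul_add, add_comm (r * _)]
      refine (norm_add_le _ _).trans (add_le_add (h1 _) ?_)
      rw [norm_div, div_eq_mul_inv]
      exact mul_le_mul_of_nonneg_right (hx _) (by positivity)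
    · simp only [mul_add]
      rcases List.mem_cons.1 hd with rfl | hd
      · simp only [mul_div_cancel₀ _ he]
        exact (h.QQ_conv_le (fun b => d * y b) x).2
      · exact (h.QQ_conv_le (fun b => d * y b) fun a => d * (x a / e)).1.trans (h2 d hd)

theorem DescX.ne {n : ℕ} {i j : Fin n} (hij : i ≠ j) : ee (i / n) - ee (j / n) ≠ 0 := by
  have hn : (0 : ℝ) < n := by exact_mod_cast i.pos
  have mem : ∀ k : Fin n, (k / n : ℝ) ∈ Set.Icc 0 Real.pi := fun k =>
    ⟨by positivity, ((div_le_one hn).2 (by exact_mod_cast k.2.le)).trans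
      (by linarith [Real.pi_gt_three])⟩
  intro h
  have h1 := congrArg Complex.re (sub_eq_zero.1 h)
  rw [ee_re, ee_re] at h1
  have h2 := Real.injOn_cos (mem i) (mem j) h1
  rw [div_left_inj' hn.ne'] at h2
  exact hij (Fin.ext (by exact_mod_cast h2))

theorem descent (n : ℕ) (hn : 0 < n) : ∃ c : ℝ, 0 < c ∧ ∀ (M : IMean ℝ) (ψ : ℂ → ℝ), ψ ∈ CC →
    ∀ R η : ℝ, Low (MM M ψ) R η → Low ψ (c * R) (η - 1 / n) := by
  classical
  let d : Fin n × Fin n → ℂ := fun p => ee (p.1 / n) - ee (p.2 / n)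
  let l := ((Finset.univ.filter fun p : Fin n × Fin n => p.1 ≠ p.2).toList).map d
  have hl : ∀ e ∈ l, e ≠ 0 := by
    intro e he
    obtain ⟨p, hp, rfl⟩ := List.mem_map.1 he
    exact DescX.ne (Finset.mem_filter.1 (Finset.mem_toList.1 hp)).2
  set C := (l.map fun e => ‖e‖⁻¹).sum with hC
  have C0 : 0 ≤ C := List.sum_nonneg fun z hz => by
    obtain ⟨e, -, rfl⟩ := List.mem_map.1 hz
    positivity
  refine ⟨1 / (C + 1), by positivity, fun M ψ hψ R η hL ι _ _ x hx => ?_⟩
  obtain ⟨κ, _, _, y, h1, h2⟩ := exists_multi_conv hψ.1 l hl x _ hx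
  have R0 : 0 ≤ R := nonneg_of_mul_nonneg_right
    ((norm_nonneg _).trans (hx (Classical.arbitrary ι))) (by positivity)
  have h3 := hL κ y fun b => (h1 b).trans (by
    rw [← hC, mul_assoc, one_div, inv_mul_le_iff₀ (by positivity)]
    nlinarith)
  have : Nonempty (Fin n) := ⟨⟨0, hn⟩⟩
  have n0 : (0 : ℝ) < n := by exact_mod_cast hn
  have k0 : (0 : ℝ) < Fintype.card κ := by exact_mod_cast Fintype.card_pos
  have h4 : ∀ b : ℂ, MM M ψ b ≤ (∑ i, ∑ j, ψ (d (i, j) * b)) / (n : ℝ) ^ 2 := fun b => by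
    refine (M.le_QQ (pd_circ hψ b) fun i : Fin n => (i / n : ℝ)).trans (le_of_eq ?_)
    simp only [QQ, circ_sub hψ, Fintype.card_fin]
    simp only [d, sub_mul, mul_comm b]
  have h5 : QQ (MM M ψ) y ≤ (∑ i, ∑ j, QQ ψ fun b => d (i, j) * y b) / (n : ℝ) ^ 2 := by
    unfold QQ
    refine (div_le_div_of_nonneg_right (Finset.sum_le_sum fun a _ => Finset.sum_le_sum fun b _ =>
      h4 (y a - y b)) (by positivity)).trans (le_of_eq ?_)
    simp only [← Finset.sum_div, mul_sub]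
    rw [div_right_comm]
    congr 2
    refine (Finset.sum_congr rfl fun a _ => Finset.sum_comm).trans (Finset.sum_comm.trans
      (Finset.sum_congr rfl fun i _ => ?_))
    exact (Finset.sum_congr rfl fun a _ => Finset.sum_comm).trans Finset.sum_comm
  have q0 := hψ.1.QQ_nonneg x
  have h6 : ∀ i j : Fin n, (QQ ψ fun b => d (i, j) * y b) ≤
      QQ ψ x + if i = j then 1 else 0 := fun i j => by
    split_ifs with hij
    · subst hij
      have : (QQ ψ fun b => d (i, i) * y b) = 1 := by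
        simp only [QQ, d, sub_self, zero_mul, hψ.2.2, Finset.sum_const, Finset.card_univ,
          nsmul_eq_mul]
        field_simp
      linarith
    · rw [add_zero]
      exact h2 _ (List.mem_map.2 ⟨(i, j), Finset.mem_toList.2 (by simpa using hij), rfl⟩)
  have h7 := div_le_div_of_nonneg_right (Finset.sum_le_sum fun i (_ : i ∈ Finset.univ) =>
    Finset.sum_le_sum fun j (_ : j ∈ Finset.univ) => h6 i j) (by positivity : 0 ≤ (n : ℝ) ^ 2)
  have h8 : (∑ i : Fin n, ∑ j : Fin n, (QQ ψ x + if i = j then 1 else 0)) / (n : ℝ) ^ 2 =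
      QQ ψ x + 1 / n := by
    simp only [Finset.sum_add_distrib, Finset.sum_ite_eq, Finset.mem_univ, if_true,
      Finset.sum_const, Finset.card_univ, Fintype.card_fin, nsmul_eq_mul]
    field_simp
  linarith

theorem descent_iter (S : ℕ) (R η : ℝ) (hR : 0 < R) (hη : 0 < η) :
    ∃ r : ℝ, 0 < r ∧ ∀ (M : IMean ℝ) (ψ : ℂ → ℝ), ψ ∈ CC →
      Low ((MM M)^[S] ψ) R η → Low ψ r (η / 2) := by
  obtain ⟨n, hn⟩ := exists_nat_gt (2 * S / η)
  have n0 : (0 : ℝ) < n := lt_of_le_of_lt (by positivity) hn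
  obtain ⟨c, hc, H⟩ := descent n (by exact_mod_cast n0)
  have key : ∀ (M : IMean ℝ) (ψ : ℂ → ℝ), ψ ∈ CC → ∀ (s : ℕ) (R η : ℝ),
      Low ((MM M)^[s] ψ) R η → Low ψ (c ^ s * R) (η - s / n) := by
    intro M ψ hψ s
    induction s with
    | zero => intro R η h; simpa using h
    | succ s ih =>
      intro R η h
      rw [Function.iterate_succ_apply'] at h
      have := ih _ _ (H M _ (MM_iter_mem M hψ s) R η h)
      rw [← mul_assoc, ← pow_succ, sub_sub, ← add_div, add_comm (1 : ℝ)] at this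
      rwa [Nat.cast_succ]
  refine ⟨c ^ S * R, by positivity, fun M ψ hψ h ι _ _ x hx => ?_⟩
  refine le_trans ?_ (key M ψ hψ S R η h ι x hx)
  rw [div_lt_iff₀ hη] at hn
  have : (S : ℝ) / n ≤ η / 2 := by rw [div_le_iff₀ n0]; linarith
  linarith

end Vale.Agent.P032
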