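import Vale.Agent.P032.PD2

namespace Vale.Agent.P032

/-- improvement step -/
theorem improve (M : IMean ℝ) {ψ : ℂ → ℝ} (h : ψ ∈ CC) (hp : ProdF M ψ) {ι : Type} [Fintype ι]
    [Nonempty ι] (x : ι → ℂ) (r η ε : ℝ) (hx : ∀ a, ‖x a‖ ≤ r) (hη : 0 < η) (hε : 0 < ε)
    (hQ : η ≤ QQ ψ x) (z : ℂ) (hz : ε ≤ 1 - ψ z) :
    ∃ y : ι ⊕ ι → ℂ, (∀ b, ‖y b‖ ≤ r + ‖z‖) ∧ QQ ψ y ≤ QQ ψ x - η * ε / 4 := by
  obtain ⟨hpd, -, -⟩ := h
  have c0 : (0 : ℝ) < Fintype.card ι := by exact_mod_cast Fintype.card_pos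
  have bd : ∀ a b, Bd fun t : ℝ => ψ (x a - x b + ee (1 * t) * z) := fun a b => hpd.bd.comp _
  have bd' : ∀ a, Bd fun t : ℝ => ∑ b, ψ (x a - x b + ee (1 * t) * z) := fun a =>
    Bd.sum _ fun b _ => bd a b
  have h1 : M.m (fun t => (∑ a, ∑ b, ψ (x a - x b + ee (1 * t) * z)) / (Fintype.card ι : ℝ) ^ 2)
      = QQ ψ x * ψ z := by
    rw [M.div_const _ (Bd.sum _ fun a _ => bd' a), M.sum _ fun a _ => bd' a]
    simp only [fun a => M.sum Finset.univ fun b _ => bd a b, hp 1 one_ne_zero]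
    simp only [← Finset.sum_mul, QQ]
    ring
  obtain ⟨t, ht⟩ := M.exists_lt ((Bd.sum _ fun a _ => bd' a).div_const _)
    (c := QQ ψ x - η * ε / 2) (by
      rw [h1]
      nlinarith [mul_le_mul hQ hz hε.le (hη.le.trans hQ), mul_pos hη hε])
  have hu : ‖ee (1 * t) * z‖ = ‖z‖ := by rw [norm_mul, norm_ee, one_mul]
  generalize ee (1 * t) * z = u at ht hu
  refine ⟨Sum.elim x fun a => x a + u, ?_, ?_⟩
  · rintro (a | a)
    · exact (hx a).trans (le_add_of_nonneg_right (norm_nonneg _))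
    · exact (norm_add_le _ _).trans (add_le_add (hx a) hu.le)
  · have e1 : ∑ a, ∑ b, ψ (x a - (x b + u)) = ∑ a, ∑ b, ψ (x a - x b + u) := by
      rw [Finset.sum_comm]
      refine Finset.sum_congr rfl fun a _ => Finset.sum_congr rfl fun b _ => ?_
      rw [← hpd.1]
      congr 1
      ring
    have e2 : ∀ a b, x a + u - x b = x a - x b + u := fun a b => by ring
    simp only [QQ, Fintype.sum_sum_type, Sum.elim_inl, Sum.elim_inr, Finset.sum_add_distrib,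
      add_sub_add_right_eq_sub, e1, e2, Fintype.card_sum, Nat.cast_add] at ht ⊢
    generalize ∑ a, ∑ b, ψ (x a - x b + u) = A at *
    generalize ∑ a, ∑ b, ψ (x a - x b) = B at *
    have e3 : (B + A + (A + B)) / ((Fintype.card ι : ℝ) + Fintype.card ι) ^ 2
        = B / (Fintype.card ι : ℝ) ^ 2 / 2 + A / (Fintype.card ι : ℝ) ^ 2 / 2 := by
      field_simp
      ring
    rw [e3]
    linarith

theorem equi (r η ε : ℝ) (hr : 0 < r) (hη : 0 < η) (hε : 0 < ε) :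
    ∃ ζ : ℝ, 0 < ζ ∧ ∀ (M : IMean ℝ) (ψ : ℂ → ℝ), ψ ∈ CC → ProdF M ψ → Low ψ r η →
      ∀ z : ℂ, ‖z‖ ≤ ζ → 1 - ψ z ≤ ε := by
  obtain ⟨N, hN⟩ := exists_nat_gt (4 / (η * ε))
  have h0 := mul_pos hη hε
  have N0 : (0 : ℝ) < N := lt_trans (by positivity) hN
  refine ⟨r / N, by positivity, fun M ψ h hp hl z hz => ?_⟩
  by_contra hc
  have key : ∀ j : ℕ, j ≤ N → ∃ (ι : Type) (_ : Fintype ι) (_ : Nonempty ι) (x : ι → ℂ),
      (∀ a, ‖x a‖ ≤ j * (r / N)) ∧ QQ ψ x ≤ 1 - j * (η * ε / 4) := by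
    intro j
    induction j with
    | zero => exact fun _ => ⟨Unit, inferInstance, inferInstance, fun _ => 0, by simp,
        by simp [QQ, h.2.2]⟩
    | succ j ih =>
      intro hj
      obtain ⟨ι, _, _, x, h1, h2⟩ := ih (by omega)
      have h3 : (j : ℝ) * (r / N) ≤ r := by
        rw [← mul_div_assoc, div_le_iff₀ N0, mul_comm]
        exact mul_le_mul_of_nonneg_left (by exact_mod_cast (by omega : j ≤ N)) hr.le
      obtain ⟨y, h4, h5⟩ := improve M h hp x _ η ε h1 hη hε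
        (hl ι x fun a => (h1 a).trans h3) z (not_le.1 hc).le
      refine ⟨ι ⊕ ι, inferInstance, inferInstance, y, fun a => (h4 a).trans ?_, ?_⟩ <;>
        push_cast <;> linarith
  obtain ⟨ι, _, _, x, -, h2⟩ := key N le_rfl
  have h3 := h.1.QQ_nonneg x
  rw [div_lt_iff₀ h0] at hN
  linarith

end Vale.Agent.P032
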