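import Vale.Agent.P032.ThmAB
import Vale.Agent.P032.Conv

namespace Vale.Agent.P032

theorem colour_iff_open (k : ℕ) :
    (∃ c : EuclideanSpace ℝ (Fin 2) → Fin k, ∀ x y, dist x y = 1 → c x ≠ c y) ↔
      ∃ O : Fin k → Set (EuclideanSpace ℝ (Fin 2)), (∀ i, IsOpen (O i)) ∧
        (∀ i, ∀ x ∈ O i, ∀ y ∈ O i, dist x y ≠ 1) ∧ Dense (⋃ i, O i) := by
  let e := Complex.orthonormalBasisOneI.repr
  constructor
  · rintro ⟨c, hc⟩
    obtain ⟨O, h1, h2, h3⟩ := open_of_proper (fun z => c (e z)) fun x y h =>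
      hc _ _ (by rw [e.dist_map, dist_eq_norm, h])
    refine ⟨fun i => e.symm ⁻¹' O i, fun i => (h1 i).preimage e.symm.continuous,
      fun i x hx y hy h => h2 i _ hx _ hy (by rw [← dist_eq_norm, e.symm.dist_map, h]), ?_⟩
    rw [← Set.preimage_iUnion]
    exact h3.preimage e.symm.toHomeomorph.isOpenMap
  · rintro ⟨O, h1, h2, h3⟩
    obtain ⟨c, hc⟩ := proper_of_open (fun i => e ⁻¹' O i) (fun i => (h1 i).preimage e.continuous)
      (fun i x hx y hy h => h2 i _ hx _ hy (by rw [e.dist_map, dist_eq_norm, h]))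
      (by
        rw [← Set.preimage_iUnion]
        exact h3.preimage e.toHomeomorph.isOpenMap)
    exact ⟨fun x => c (e.symm x), fun x y h =>
      hc _ _ (by rw [← dist_eq_norm, e.symm.dist_map, h])⟩

end Vale.Agent.P032
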