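import Vale.Agent.P032.PD2

namespace Vale.Agent.P032

theorem isCompact_CC : IsCompact CC := by
  refine (isCompact_univ_pi fun _ : ℂ => isCompact_Icc (a := (-1 : ℝ)) (b := 1)).of_isClosed_subset
    ?_ fun ψ h x _ => abs_le.1 (h.2.2 ▸ h.1.abs_le x)
  simp only [CC, PD, Rad, Set.ofPred_and, Set.ofPred_forall]
  refine ((isClosed_iInter fun x => isClosed_eq (by fun_prop) (by fun_prop)).inter
    (isClosed_iInter fun ι => isClosed_iInter fun _ => isClosed_iInter fun x =>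
      isClosed_iInter fun c => isClosed_le (by fun_prop) (by fun_prop))).inter
    ((isClosed_iInter fun x => isClosed_iInter fun y => isClosed_iInter fun _ =>
      isClosed_eq (by fun_prop) (by fun_prop)).inter (isClosed_eq (by fun_prop) (by fun_prop)))

theorem convex_CC : Convex ℝ CC := by
  intro ψ hψ φ hφ a b ha hb hab
  refine ⟨⟨fun x => by simp [hψ.1.1, hφ.1.1], fun ι _ x c => ?_⟩,
    fun x y h => by simp [hψ.2.1 x y h, hφ.2.1 x y h], by simp [hψ.2.2, hφ.2.2, hab]⟩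
  refine (add_nonneg (mul_nonneg ha (hψ.1.2 ι x c)) (mul_nonneg hb (hφ.1.2 ι x c))).trans_eq ?_
  simp only [Finset.mul_sum, ← Finset.sum_add_distrib, Pi.add_apply, Pi.smul_apply, smul_eq_mul]
  exact Finset.sum_congr rfl fun _ _ => Finset.sum_congr rfl fun _ _ => by ring

theorem prodF_of_extreme (M : IMean ℝ) {ψ : ℂ → ℝ} (h : ψ ∈ CC.extremePoints ℝ) : ProdF M ψ := by
  intro s hs x y
  have hψ : ψ ∈ CC := h.1
  obtain ⟨φ, hφ⟩ : ∃ φ : ℂ → ℝ, φ = fun z => M.m fun t => ψ (z + ee (s * t) * y) := ⟨_, rfl⟩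
  have hr : Rad φ := by
    intro z z' hz
    obtain ⟨a, ha⟩ := exists_ee z
    obtain ⟨b, hb⟩ := exists_ee z'
    have e : z' = ee (b - a) * z := by
      rw [hb, ← hz]
      nth_rewrite 2 [ha]
      rw [mul_left_comm, ← ee_add, sub_add_cancel]
    simp only [hφ]
    rw [← M.inv (fun t => ψ (z' + ee (s * t) * y)) ((b - a) / s) (hψ.1.bd.comp _)]
    congr 1
    funext t
    refine hψ.2.1 _ _ ?_
    rw [mul_add s, mul_div_cancel₀ _ hs, add_comm (s * t), ee_add, e, mul_assoc, ← mul_add,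
      norm_mul, norm_ee, one_mul]
  have h0 : φ 0 = ψ y := by
    have e : ∀ t, ψ (0 + ee (s * t) * y) = ψ y := fun t => hψ.2.1 _ _ (by simp [norm_ee])
    simp only [hφ, e, M.const]
  have h1 := abs_le.1 (hψ.2.2 ▸ hψ.1.abs_le y)
  have hP : ∀ σ : ℝ, |σ| ≤ 1 → 0 < 1 + σ * ψ y →
      (fun z => (ψ z + σ * φ z) / (1 + σ * ψ y)) ∈ CC := by
    intro σ hσ hp
    have hr' : Rad fun z => (ψ z + σ * φ z) / (1 + σ * ψ y) := fun z z' hz => by
      simp only [hψ.2.1 z z' hz, hr z z' hz]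
    refine ⟨⟨fun z => hr' _ _ (norm_neg z), fun ι _ z c => ?_⟩, hr', by
      simp only [hψ.2.2, h0, div_self hp.ne']⟩
    have h2 : ∑ a, ∑ b, c a * c b * φ (z a - z b) =
        M.m fun t => ∑ a, ∑ b, c a * c b * ψ (z a - z b + ee (s * t) * y) := by
      rw [M.sum _ fun a _ => Bd.sum _ fun b _ => (hψ.1.bd.comp _).cmul _]
      refine Finset.sum_congr rfl fun a _ => ?_
      rw [M.sum _ fun b _ => (hψ.1.bd.comp _).cmul _]
      refine Finset.sum_congr rfl fun b _ => ?_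
      rw [M.smul _ _ (hψ.1.bd.comp _), hφ]
    have h3 := M.abs_le fun t => hψ.1.shift_abs_le z c (ee (s * t) * y)
    rw [← h2] at h3
    have h4 : |σ * ∑ a, ∑ b, c a * c b * φ (z a - z b)| ≤ ∑ a, ∑ b, c a * c b * ψ (z a - z b) := by
      rw [abs_mul]
      exact (mul_le_of_le_one_left (abs_nonneg _) hσ).trans h3
    refine (div_nonneg (neg_le_iff_add_nonneg'.1 (abs_le.1 h4).1) hp.le).trans_eq ?_
    simp only [Finset.mul_sum, ← Finset.sum_add_distrib, Finset.sum_div]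
    exact Finset.sum_congr rfl fun _ _ => Finset.sum_congr rfl fun _ _ => by ring
  have p1 : 0 < 1 + 1 / 2 * ψ y := by linarith [h1.1]
  have p2 : 0 < 1 + -(1 / 2) * ψ y := by linarith [h1.2]
  have h5 := (mem_extremePoints_iff_left.1 h).2 _ (hP (1 / 2) (by norm_num [abs_of_pos]) p1) _
    (hP (-(1 / 2)) (by norm_num [abs_of_pos]) p2)
    ⟨(1 + 1 / 2 * ψ y) / 2, (1 + -(1 / 2) * ψ y) / 2, by linarith, by linarith, by ring, by
      funext z
      simp only [Pi.add_apply, Pi.smul_apply, smul_eq_mul]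
      rw [div_mul_div_comm, div_mul_div_comm, mul_comm 2, mul_comm 2,
        mul_div_mul_left _ _ p1.ne', mul_div_mul_left _ _ p2.ne']
      ring⟩
  have h6 := congrFun h5 x
  rw [div_eq_iff p1.ne'] at h6
  simp only [hφ] at h6
  linarith

/-- Krein-Milman reduction -/
theorem km_reduce (x y : ℂ) (ε : ℝ) (h : ∀ ψ ∈ CC.extremePoints ℝ, |ψ x - ψ y| ≤ ε) :
    ∀ ψ ∈ CC, |ψ x - ψ y| ≤ ε := by
  intro ψ hψ
  rw [← closure_convexHull_extremePoints isCompact_CC convex_CC] at hψ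
  refine closure_minimal (t := {ψ : ℂ → ℝ | |ψ x - ψ y| ≤ ε}) (convexHull_min h ?_)
    (isClosed_le (by fun_prop) (by fun_prop)) hψ
  intro f hf g hg a b ha hb hab
  have h1 := abs_le.1 (show |f x - f y| ≤ ε from hf)
  have h2 := abs_le.1 (show |g x - g y| ≤ ε from hg)
  have h3 : ε = a * ε + b * ε := by rw [← add_mul, hab, one_mul]
  simp only [Set.mem_ofPred_eq, Pi.add_apply, Pi.smul_apply, smul_eq_mul, abs_le]
  constructor <;> nlinarith [h1.1, h1.2, h2.1, h2.2]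

theorem scale_mem {ψ : ℂ → ℝ} (h : ψ ∈ CC) (r : ℂ) : (fun x => ψ (r * x)) ∈ CC := by
  refine ⟨⟨fun x => by simp [h.1.1], fun ι _ x c => ?_⟩,
    fun x y e => h.2.1 _ _ (by simp [e]), by simpa using h.2.2⟩
  simpa only [mul_sub] using h.1.2 ι (fun a => r * x a) c

theorem scale_prodF (M : IMean ℝ) {ψ : ℂ → ℝ} (h : ProdF M ψ) (r : ℂ) :
    ProdF M (fun x => ψ (r * x)) := by
  intro s hs x y
  simpa only [mul_add, mul_left_comm r] using h s hs (r * x) (r * y)

end Vale.Agent.P032
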