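import Vale.Agent.P032.Swap
import Vale.Agent.P032.Area

open MeasureTheory Filter Topology

namespace Vale.Agent.P032

theorem norm_ee_sub_le (a b : ℝ) : ‖ee a - ee b‖ ≤ |a - b| := by
  have h1 : ee a - ee b = ee b * (ee (a - b) - 1) := by
    rw [mul_sub, ← ee_add]; simp
  rw [h1, norm_mul, norm_ee, one_mul, ee, mul_comm]
  exact Real.norm_exp_I_mul_ofReal_sub_one_le

namespace GpAux

theorem dens_diff {A : Set ℂ} (hA : MeasurableSet A) {x : ℂ} (hx : x ∈ dens A) {ε : ℝ}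
    (hε : 0 < ε) :
    ∀ᶠ ρ : ℝ in 𝓝[>] 0, volume (Metric.closedBall x ρ \ A) ≤ ENNReal.ofReal (ε * ρ ^ 2) := by
  have h1 := (ENNReal.tendsto_toReal ENNReal.one_ne_top).comp hx
  rw [ENNReal.toReal_one] at h1
  have h2 := h1.eventually (lt_mem_nhds (show 1 - ε / 4 < 1 by linarith))
  filter_upwards [h2, self_mem_nhdsWithin] with ρ h3 hρ
  have hρ' : 0 < ρ := hρ
  have hB : (volume (Metric.closedBall x ρ)).toReal = ρ ^ 2 * Real.pi := by
    rw [Complex.volume_closedBall, ENNReal.toReal_mul, ENNReal.toReal_pow,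
      ENNReal.toReal_ofReal hρ'.le]
    simp
  have hfin : volume (Metric.closedBall x ρ) ≠ ⊤ := measure_closedBall_lt_top.ne
  simp only [Function.comp, ENNReal.toReal_div, hB] at h3
  have hpos : 0 < ρ ^ 2 * Real.pi := by have := Real.pi_pos; positivity
  rw [lt_div_iff₀ hpos] at h3
  have h4 := measure_inter_add_sdiff (μ := volume) (Metric.closedBall x ρ) hA
  have f1 : volume (Metric.closedBall x ρ ∩ A) ≠ ⊤ :=
    ne_top_of_le_ne_top hfin (measure_mono Set.inter_subset_left)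
  have f2 : volume (Metric.closedBall x ρ \ A) ≠ ⊤ :=
    ne_top_of_le_ne_top hfin (measure_mono Set.sdiff_subset)
  have h5 := congrArg ENNReal.toReal h4
  rw [ENNReal.toReal_add f1 f2, hB, Set.inter_comm] at h5
  rw [← ENNReal.ofReal_toReal f2]
  refine ENNReal.ofReal_le_ofReal ?_
  have h6 : ε / 4 * (ρ ^ 2 * Real.pi) ≤ ε / 4 * (ρ ^ 2 * 4) := by
    have := Real.pi_le_four
    gcongr
  nlinarith

theorem one_dir (a b b' : ℝ) : |Real.sin (b - b')| / 2 ≤ |Real.sin (a - b)| ∨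
    |Real.sin (b - b')| / 2 ≤ |Real.sin (a - b')| := by
  by_contra hcon
  push Not at hcon
  have e : Real.sin (b - b') = Real.sin (a - b') * Real.cos (a - b) -
      Real.cos (a - b') * Real.sin (a - b) := by
    rw [← Real.sin_sub]; congr 1; ring
  have h1 : |Real.sin (a - b') * Real.cos (a - b)| ≤ |Real.sin (a - b')| := by
    rw [abs_mul]; exact mul_le_of_le_one_right (abs_nonneg _) (Real.abs_cos_le_one _)
  have h2 : |Real.cos (a - b') * Real.sin (a - b)| ≤ |Real.sin (a - b)| := by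
    rw [abs_mul]; exact mul_le_of_le_one_left (abs_nonneg _) (Real.abs_cos_le_one _)
  have h3 := abs_sub (Real.sin (a - b') * Real.cos (a - b)) (Real.cos (a - b') * Real.sin (a - b))
  rw [← e] at h3
  linarith [hcon.1, hcon.2]

theorem core {A : Set ℂ} (hA : MeasurableSet A) (w g : ℂ) (a c s κ r : ℝ) (hs : 0 < s)
    (_hκ : 0 < κ) (hr : 0 < r) (hrs : r ≤ s / 4) (hac : s ≤ |Real.sin (a - c)|)
    (hg : ∀ᵐ p : ℝ × ℝ, ¬ (g + ee p.1 ∈ A ∧ g + ee p.1 + ee p.2 ∈ A))
    (ha : ‖g + ee a - w‖ ≤ r)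
    (hd : volume (Metric.closedBall (w + ee c) (3 * r) \ A) ≤
      ENNReal.ofReal (s * κ / 9 * (3 * r) ^ 2)) :
    volume {t : ℝ | t ∈ Set.Icc (a - r) (a + r) ∧ g + ee t ∈ A} ≤ ENNReal.ofReal (κ * r) := by
  set I := {t : ℝ | t ∈ Set.Icc (a - r) (a + r) ∧ g + ee t ∈ A} with hI
  have hm1 : Measurable fun t : ℝ => g + ee t := (continuous_const.add continuous_ee).measurable
  have hIm : MeasurableSet I := measurableSet_Icc.inter (hm1 hA)
  have hm2 : Measurable fun p : ℝ × ℝ => g + ee p.1 + ee p.2 :=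
    ((continuous_const.add (continuous_ee.comp continuous_fst)).add
      (continuous_ee.comp continuous_snd)).measurable
  set P := (I ×ˢ Set.Icc (c - r) (c + r)) \ ((fun p : ℝ × ℝ => g + ee p.1 + ee p.2) ⁻¹' A)
    with hP
  have hPm : MeasurableSet P := (hIm.prod measurableSet_Icc).diff (hm2 hA)
  have hsub : P ⊆ Set.Icc (a - r) (a + r) ×ˢ Set.Icc (c - r) (c + r) :=
    fun p hp => ⟨hp.1.1.1, hp.1.2⟩
  have h1 := area_lower g a c s r hs hac hrs P hPm hsub
  have h2 : volume (I ×ˢ Set.Icc (c - r) (c + r)) ≤ volume P := by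
    refine measure_mono_ae ?_
    filter_upwards [hg] with p hp hpI
    exact ⟨hpI, fun h3 => hp ⟨hpI.1.2, h3⟩⟩
  rw [Measure.volume_eq_prod, Measure.prod_prod, Real.volume_Icc, ← Measure.volume_eq_prod] at h2
  have h3 : (fun p : ℝ × ℝ => g + ee p.1 + ee p.2) '' P ⊆
      Metric.closedBall (w + ee c) (3 * r) \ A := by
    rintro _ ⟨p, hp, rfl⟩
    refine ⟨?_, hp.2⟩
    rw [mem_closedBall_iff_norm]
    have e : g + ee p.1 + ee p.2 - (w + ee c) =
        (g + ee a - w) + (ee p.1 - ee a) + (ee p.2 - ee c) := by ring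
    have q1 : ‖ee p.1 - ee a‖ ≤ r := (norm_ee_sub_le _ _).trans (by
      rw [abs_le]; constructor <;> linarith [hp.1.1.1.1, hp.1.1.1.2])
    have q2 : ‖ee p.2 - ee c‖ ≤ r := (norm_ee_sub_le _ _).trans (by
      rw [abs_le]; constructor <;> linarith [hp.1.2.1, hp.1.2.2])
    show ‖g + ee p.1 + ee p.2 - (w + ee c)‖ ≤ 3 * r
    rw [e]
    linarith [norm_add_le (g + ee a - w + (ee p.1 - ee a)) (ee p.2 - ee c),
      norm_add_le (g + ee a - w) (ee p.1 - ee a)]
  have h4 : ENNReal.ofReal (s / 2) * (volume I * ENNReal.ofReal (c + r - (c - r))) ≤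
      ENNReal.ofReal (s * κ / 9 * (3 * r) ^ 2) :=
    (mul_le_mul_right h2 _).trans (h1.trans ((measure_mono h3).trans hd))
  have e1 : ENNReal.ofReal (s / 2) * (volume I * ENNReal.ofReal (c + r - (c - r))) =
      ENNReal.ofReal (s * r) * volume I := by
    rw [mul_comm (volume I), ← mul_assoc, ← ENNReal.ofReal_mul (by positivity)]
    congr 2; ring
  have e2 : ENNReal.ofReal (s * κ / 9 * (3 * r) ^ 2) =
      ENNReal.ofReal (s * r) * ENNReal.ofReal (κ * r) := by
    rw [← ENNReal.ofReal_mul (by positivity)]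
    congr 1; ring
  rw [e1, e2] at h4
  exact (ENNReal.mul_le_mul_iff_right (ENNReal.ofReal_pos.2 (by positivity)).ne'
    ENNReal.ofReal_ne_top).1 h4

end GpAux

open GpAux in
/-- arcs through a small disc about `w` meet `A` in a small proportion -/
theorem arc_small {A : Set ℂ} (hA : MeasurableSet A) (h : Ind A) (w : ℂ) (b b' : ℝ)
    (hb : Real.sin (b - b') ≠ 0) (h1 : w + ee b ∈ dens A) (h2 : w + ee b' ∈ dens A)
    (κ : ℝ) (hκ : 0 < κ) :
    ∀ᶠ r : ℝ in 𝓝[>] 0, ∀ᵐ g : ℂ, ∀ a : ℝ, ‖g + ee a - w‖ ≤ r →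
      volume {t : ℝ | t ∈ Set.Icc (a - r) (a + r) ∧ g + ee t ∈ A} ≤ ENNReal.ofReal (κ * r) := by
  set s := |Real.sin (b - b')| / 2 with hs
  have hs0 : 0 < s := half_pos (abs_pos.2 hb)
  have hε : 0 < s * κ / 9 := by positivity
  have h3 : Tendsto (fun r : ℝ => 3 * r) (𝓝[>] 0) (𝓝[>] 0) := by
    refine tendsto_nhdsWithin_iff.2 ⟨?_, ?_⟩
    · have : Tendsto (fun r : ℝ => 3 * r) (𝓝 0) (𝓝 (3 * 0)) :=
        (continuous_const.mul continuous_id).tendsto 0
      rw [mul_zero] at this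
      exact this.mono_left nhdsWithin_le_nhds
    · filter_upwards [self_mem_nhdsWithin] with r hr
      have hr' : 0 < r := hr
      show 0 < 3 * r
      positivity
  have h4 : ∀ᶠ r : ℝ in 𝓝[>] 0, r ≤ s / 4 :=
    mem_nhdsWithin_of_mem_nhds (Iic_mem_nhds (by positivity))
  filter_upwards [h3.eventually (dens_diff hA h1 hε), h3.eventually (dens_diff hA h2 hε), h4,
    self_mem_nhdsWithin] with r d1 d2 hr hr0
  filter_upwards [Ind.ae_two hA h] with g hg a ha
  rcases one_dir a b b' with h5 | h5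
  · exact core hA w g a b s κ r hs0 hκ hr0 hr h5 hg ha d1
  · exact core hA w g a b' s κ r hs0 hκ hr0 hr h5 hg ha d2

end Vale.Agent.P032
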