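import Vale.Agent.P032.Defs

namespace Vale.Agent.P032

variable {I : Type} {Ψ : I → ℕ → ℝ → ℝ}

theorem Good.up (hR : ∀ i, Rules (Ψ i)) {x : I → ℝ} {S : ℕ} {η : ℝ} (hη : 0 < η)
    (h : ∀ i, η ≤ Ψ i S (x i)) (T : ℕ) (hT : S ≤ T) : ∃ η' : ℝ, 0 < η' ∧ ∀ i, η' ≤ Ψ i T (x i) := by
  induction T, hT using Nat.le_induction with
  | base => exact ⟨η, hη, h⟩
  | succ T _ ih =>
    obtain ⟨η', hη', h'⟩ := ih
    exact ⟨η' ^ 2, by positivity, fun i =>
      (pow_le_pow_left₀ hη'.le (h' i) 2).trans ((hR i).sq T (x i))⟩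

theorem IntAX.both (hR : ∀ i, Rules (Ψ i)) {x y : I → ℝ} (hx : Good Ψ x) (hy : Good Ψ y) :
    ∃ (S : ℕ) (η : ℝ), 0 < η ∧ (∀ i, η ≤ Ψ i S (x i)) ∧ ∀ i, η ≤ Ψ i S (y i) := by
  obtain ⟨S, η, hη, h⟩ := hx
  obtain ⟨S', η', hη', h'⟩ := hy
  obtain ⟨a, ha, h1⟩ := Good.up hR hη h (max S S') (le_max_left _ _)
  obtain ⟨b, hb, h2⟩ := Good.up hR hη' h' (max S S') (le_max_right _ _)
  exact ⟨max S S', min a b, lt_min ha hb, fun i => (min_le_left _ _).trans (h1 i),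
    fun i => (min_le_right _ _).trans (h2 i)⟩

theorem IntAX.pow4 {η a b : ℝ} (hη : 0 < η) (ha : η ≤ a) (hb : η ≤ b) :
    (η * η) ^ 4 ≤ (a * b) ^ 4 :=
  pow_le_pow_left₀ (by positivity) (mul_le_mul ha hb hη.le (hη.le.trans ha)) 4

theorem Good.zero (hR : ∀ i, Rules (Ψ i)) : Good Ψ (fun _ => 0) := by
  exact ⟨0, 1, one_pos, fun i => ((hR i).zero 0).ge⟩

theorem Good.of_abs_eq (hR : ∀ i, Rules (Ψ i)) {x y : I → ℝ} (hx : Good Ψ x)
    (h : ∀ i, |y i| = |x i|) : Good Ψ y := by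
  obtain ⟨S, η, hη, hx⟩ := hx
  refine ⟨S, η, hη, fun i => ?_⟩
  rcases abs_eq_abs.1 (h i) with h1 | h1
  · rw [h1]
    exact hx i
  · rw [h1, (hR i).even]
    exact hx i

/-- pointwise case split -/
theorem Good.cases (hR : ∀ i, Rules (Ψ i)) {x y z : I → ℝ} (hx : Good Ψ x) (hy : Good Ψ y)
    (h : ∀ i, z i = x i ∨ z i = y i) : Good Ψ z := by
  obtain ⟨S, η, hη, h1, h2⟩ := IntAX.both hR hx hy
  refine ⟨S, η, hη, fun i => ?_⟩
  rcases h i with h3 | h3
  · rw [h3]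
    exact h1 i
  · rw [h3]
    exact h2 i

theorem Good.abs_sub (hR : ∀ i, Rules (Ψ i)) {x y : I → ℝ} (hx : Good Ψ x) (hy : Good Ψ y) :
    Good Ψ (fun i => |x i| - |y i|) := by
  obtain ⟨S, η, hη, h1, h2⟩ := IntAX.both hR
    (hx.of_abs_eq hR (y := fun i => |x i|) fun i => abs_abs _)
    (hy.of_abs_eq hR (y := fun i => |y i|) fun i => abs_abs _)
  exact ⟨S + 2, (η * η) ^ 4, by positivity, fun i => (IntAX.pow4 hη (h1 i) (h2 i)).trans
    ((hR i).r1 S _ _ (abs_nonneg _) (abs_nonneg _))⟩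

theorem Good.gm (hR : ∀ i, Rules (Ψ i)) {x y : I → ℝ} (hx : Good Ψ x) (hy : Good Ψ y) :
    Good Ψ (fun i => √(|x i| * |y i|)) := by
  obtain ⟨S, η, hη, h1, h2⟩ := IntAX.both hR
    (hx.of_abs_eq hR (y := fun i => |x i|) fun i => abs_abs _)
    (hy.of_abs_eq hR (y := fun i => |y i|) fun i => abs_abs _)
  exact ⟨S + 2, (η * η) ^ 4, by positivity, fun i => (IntAX.pow4 hη (h1 i) (h2 i)).trans
    ((hR i).r2 S _ _ (abs_nonneg _) (abs_nonneg _))⟩

theorem Good.add (hR : ∀ i, Rules (Ψ i)) (h1 : Good Ψ (fun _ => 1)) {x y : I → ℝ}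
    (hx : Good Ψ x) (hy : Good Ψ y) (hb : ∀ i, |x i| + |y i| ≤ 1) :
    Good Ψ (fun i => x i + y i) := by
  classical
  have hA := hx.abs_sub hR hy
  have hB : Good Ψ fun i => |x i| + |y i| := by
    refine (h1.abs_sub hR ((h1.abs_sub hR hx).abs_sub hR hy)).of_abs_eq hR fun i => ?_
    have h2 := hb i
    have h3 := abs_nonneg (x i)
    have h4 := abs_nonneg (y i)
    rw [abs_one, abs_of_nonneg (a := 1 - |x i|) (by linarith),
      abs_of_nonneg (a := 1 - |x i| - |y i|) (by linarith)]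
    congr 1
    ring
  have hC : Good Ψ fun i => if 0 ≤ x i * y i then |x i| + |y i| else |x i| - |y i| :=
    hB.cases hR hA fun i => by
      by_cases h : 0 ≤ x i * y i
      · exact Or.inl (if_pos h)
      · exact Or.inr (if_neg h)
  refine hC.of_abs_eq hR fun i => ?_
  rw [← sq_eq_sq_iff_abs_eq_abs]
  have h2 := sq_abs (x i)
  have h3 := sq_abs (y i)
  by_cases h : 0 ≤ x i * y i
  · rw [if_pos h]
    have h4 : |x i| * |y i| = x i * y i := by rw [← abs_mul, abs_of_nonneg h]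
    nlinarith
  · rw [if_neg h]
    have h4 : |x i| * |y i| = -(x i * y i) := by rw [← abs_mul, abs_of_neg (not_le.1 h)]
    nlinarith

/-- midpoint rule -/
theorem Good.mid (hR : ∀ i, Rules (Ψ i)) (h1 : Good Ψ (fun _ => 1)) {L a b : I → ℝ}
    (hL : Good Ψ L) (hL0 : ∀ i, 0 ≤ L i) (hL1 : ∀ i, 2 * L i ≤ 1)
    (ha : Good Ψ (fun i => L i * Real.cos (a i))) (hb : Good Ψ (fun i => L i * Real.cos (b i))) :
    Good Ψ (fun i => 2 * L i * Real.cos ((a i + b i) / 2)) := by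
  have hbd : ∀ (c : I → ℝ) i, |L i| + |L i * Real.cos (c i)| ≤ 1 := fun c i => by
    rw [abs_mul, abs_of_nonneg (hL0 i)]
    nlinarith [Real.abs_cos_le_one (c i), hL0 i, hL1 i]
  have hp : ∀ {c : I → ℝ}, Good Ψ (fun i => L i * Real.cos (c i)) →
      Good Ψ fun i => L i + L i * Real.cos (c i) := fun hc => Good.add hR h1 hL hc (hbd _)
  have hm : ∀ {c : I → ℝ}, Good Ψ (fun i => L i * Real.cos (c i)) →
      Good Ψ fun i => L i + -(L i * Real.cos (c i)) := fun {c} hc =>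
    Good.add hR h1 hL (hc.of_abs_eq hR fun i => abs_neg _) fun i => by
      rw [abs_neg]
      exact hbd c i
  have c1 : ∀ t : ℝ, Real.cos t = 2 * Real.cos (t / 2) ^ 2 - 1 := fun t => by
    rw [← Real.cos_two_mul]
    congr 1
    ring
  have c2 : ∀ t : ℝ, Real.cos t = 1 - 2 * Real.sin (t / 2) ^ 2 := fun t => by
    rw [c1 t, Real.cos_sq']
    ring
  have hcc : Good Ψ fun i => 2 * L i * (Real.cos (a i / 2) * Real.cos (b i / 2)) := by
    refine ((hp ha).gm hR (hp hb)).of_abs_eq hR fun i => ?_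
    rw [← abs_mul, c1 (a i), c1 (b i), show (L i + L i * (2 * Real.cos (a i / 2) ^ 2 - 1)) *
      (L i + L i * (2 * Real.cos (b i / 2) ^ 2 - 1)) =
      (2 * L i * (Real.cos (a i / 2) * Real.cos (b i / 2))) ^ 2 by ring, abs_sq,
      Real.sqrt_sq_eq_abs, abs_abs]
  have hss : Good Ψ fun i => -(2 * L i * (Real.sin (a i / 2) * Real.sin (b i / 2))) := by
    refine ((hm ha).gm hR (hm hb)).of_abs_eq hR fun i => ?_
    rw [← abs_mul, c2 (a i), c2 (b i), show (L i + -(L i * (1 - 2 * Real.sin (a i / 2) ^ 2))) *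
      (L i + -(L i * (1 - 2 * Real.sin (b i / 2) ^ 2))) =
      (2 * L i * (Real.sin (a i / 2) * Real.sin (b i / 2))) ^ 2 by ring, abs_sq,
      Real.sqrt_sq_eq_abs, abs_abs, abs_neg]
  refine (Good.add hR h1 hcc hss fun i => ?_).of_abs_eq hR fun i => ?_
  · have h2 : 0 ≤ 2 * L i := by linarith [hL0 i]
    rw [abs_neg, abs_mul (2 * L i), abs_mul (2 * L i), abs_of_nonneg h2, abs_mul, abs_mul]
    have h3 : |Real.cos (a i / 2)| * |Real.cos (b i / 2)| +
        |Real.sin (a i / 2)| * |Real.sin (b i / 2)| ≤ 1 := by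
      nlinarith [sq_nonneg (|Real.cos (a i / 2)| - |Real.cos (b i / 2)|),
        sq_nonneg (|Real.sin (a i / 2)| - |Real.sin (b i / 2)|), sq_abs (Real.cos (a i / 2)),
        sq_abs (Real.cos (b i / 2)), sq_abs (Real.sin (a i / 2)), sq_abs (Real.sin (b i / 2)),
        Real.sin_sq_add_cos_sq (a i / 2), Real.sin_sq_add_cos_sq (b i / 2)]
    have h4 := mul_le_mul_of_nonneg_left h3 h2
    linarith [hL1 i]
  · rw [add_div, Real.cos_add]
    congr 1
    ring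

end Vale.Agent.P032
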