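import Vale.Agent.P032.IntA

namespace Vale.Agent.P032

variable {I : Type} {Ψ : I → ℕ → ℝ → ℝ}

/-- dyadic averages -/
theorem Good.dyadic (hR : ∀ i, Rules (Ψ i)) (h1 : Good Ψ (fun _ => 1)) {L a b : I → ℝ}
    (hL : Good Ψ L) (hL0 : ∀ i, 0 ≤ L i)
    (ha : Good Ψ (fun i => L i * Real.cos (a i))) (hb : Good Ψ (fun i => L i * Real.cos (b i)))
    (r : ℕ) (hL1 : ∀ i, 2 ^ r * L i ≤ 1) (n : I → ℕ) (hn : ∀ i, n i ≤ 2 ^ r) :
    Good Ψ (fun i => 2 ^ r * L i) ∧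
    Good Ψ (fun i => 2 ^ r * L i * Real.cos ((n i * a i + (2 ^ r - n i) * b i) / 2 ^ r)) := by
  induction r generalizing n with
  | zero =>
    refine ⟨hL.of_abs_eq hR fun i => by rw [pow_zero, one_mul], ha.cases hR hb fun i => ?_⟩
    have h := hn i
    rw [pow_zero] at h
    rcases Nat.le_one_iff_eq_zero_or_eq_one.1 h with h2 | h2
    · right
      simp [h2]
    · left
      simp [h2]
  | succ r ih =>
    have hp : ∀ i, 0 ≤ 2 ^ r * L i := fun i => mul_nonneg (by positivity) (hL0 i)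
    have hq : ∀ i, 2 * (2 ^ r * L i) ≤ 1 := fun i => by
      have := hL1 i
      rw [pow_succ] at this
      linarith
    have hq' : ∀ i, 2 ^ r * L i ≤ 1 := fun i => by linarith [hp i, hq i]
    obtain ⟨g0, g1⟩ := ih hq' (fun i => n i / 2) fun i => by
      have := hn i
      rw [pow_succ] at this
      omega
    obtain ⟨-, g2⟩ := ih hq' (fun i => (n i + 1) / 2) fun i => by
      have := hn i
      rw [pow_succ] at this
      omega
    refine ⟨(Good.add hR h1 g0 g0 fun i => ?_).of_abs_eq hR fun i => ?_,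
      (Good.mid hR h1 g0 hp hq g1 g2).of_abs_eq hR fun i => ?_⟩
    · rw [abs_of_nonneg (hp i)]
      linarith [hq i]
    · congr 1
      ring
    · have h2 : ((n i / 2 : ℕ) : ℝ) + (((n i + 1) / 2 : ℕ) : ℝ) = n i := by
        rw [← Nat.cast_add]
        congr 1
        omega
      generalize ((n i / 2 : ℕ) : ℝ) = p at h2 ⊢
      generalize (((n i + 1) / 2 : ℕ) : ℝ) = q at h2 ⊢
      rw [← h2]
      congr 2
      · ring
      · congr 1
        field_simp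
        ring

/-- the interval theorem -/
theorem interval_thm (δ : ℝ) (hδ : 0 < δ) :
    ∃ (S : ℕ) (η L : ℝ), 0 < η ∧ 0 < L ∧ ∀ Φ : ℕ → ℝ → ℝ, Rules Φ → δ ≤ |Φ 0 1| →
      ∀ t : ℝ, |t| ≤ L → η ≤ Φ S t := by
  obtain ⟨e0, he0⟩ : ∃ e0, e0 = δ ^ 2 := ⟨_, rfl⟩
  have e0p : 0 < e0 := by rw [he0]; positivity
  obtain ⟨n0, hn0⟩ : ∃ n0 : ℕ, 2 ≤ n0 * e0 := ⟨⌈2 / e0⌉₊, (div_le_iff₀ e0p).1 (Nat.le_ceil _)⟩
  have n0p : (0 : ℝ) < n0 := by
    by_contra h
    nlinarith [not_lt.1 h]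
  obtain ⟨e1, he1⟩ : ∃ e1, e1 = (e0 / 2) ^ 2 := ⟨_, rfl⟩
  have e1p : 0 < e1 := by rw [he1]; positivity
  obtain ⟨n1, hn1⟩ : ∃ n1 : ℕ, 2 ≤ n1 * e1 := ⟨⌈2 / e1⌉₊, (div_le_iff₀ e1p).1 (Nat.le_ceil _)⟩
  obtain ⟨r, hr⟩ : ∃ r : ℕ, n1.factorial ≤ 2 ^ r := ⟨_, Nat.lt_two_pow_self.le⟩
  obtain ⟨w0, hw0⟩ : ∃ w0 : ℝ, w0 = 1 / (2 ^ (r + 1) * n0) := ⟨_, rfl⟩
  have w0p : 0 < w0 := by rw [hw0]; positivity
  have hw1 : 2 ^ (r + 1) * (n0 * w0) = 1 := by
    rw [hw0]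
    field_simp
  have hP : (1 : ℝ) ≤ 2 ^ (r + 1) := one_le_pow₀ one_le_two
  have hw2 : n0 * w0 ≤ 1 := by nlinarith [mul_pos n0p w0p]
  have n01 : (1 : ℝ) ≤ n0 := by
    have : 0 < n0 := by exact_mod_cast n0p
    exact_mod_cast this
  have hpi := Real.pi_gt_three
  have hs0 : 0 < Real.sin (w0 / 2) :=
    Real.sin_pos_of_pos_of_lt_pi (by positivity) (by nlinarith)
  obtain ⟨L, hL⟩ : ∃ L : ℝ, L = 2 ^ (r + 1) * (2 * Real.sin (w0 / 2)) := ⟨_, rfl⟩
  have Lp : 0 < L := by rw [hL]; positivity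
  let J := {p : (ℕ → ℝ → ℝ) × ℝ // Rules p.1 ∧ δ ≤ |p.1 0 1| ∧ |p.2| ≤ L}
  have hR : ∀ i : J, Rules i.1.1 := fun i => i.2.1
  have hone : ∀ i : J, e0 ≤ i.1.1 1 1 := fun i => by
    have h1 := (hR i).sq 0 1
    have h2 := pow_le_pow_left₀ hδ.le i.2.2.1 2
    rw [sq_abs] at h2
    rw [he0]
    exact h2.trans h1
  have h1 : Good (fun i : J => i.1.1) (fun _ => 1) := ⟨1, e0, e0p, hone⟩
  have hlam : ∀ i : J, ∃ lam : ℝ, 2 * Real.sin (w0 / 2) ≤ lam ∧ 2 ^ (r + 1) * lam ≤ 1 ∧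
      e1 ≤ i.1.1 1 lam := by
    intro i
    obtain ⟨j, hj1, hj2, hj⟩ := (hR i).r4 0 1 w0 e0 n0 e0p (hone i) hn0
    have j1 : (1 : ℝ) ≤ j := by exact_mod_cast hj1
    have j2 : (j : ℝ) ≤ n0 := by exact_mod_cast hj2
    have j3 : j * w0 ≤ n0 * w0 := mul_le_mul_of_nonneg_right j2 w0p.le
    have j4 : w0 ≤ j * w0 := le_mul_of_one_le_left w0p.le j1
    refine ⟨2 * 1 * Real.sin (j * w0 / 2), ?_, ?_, ?_⟩
    · have := Real.sin_le_sin_of_le_of_le_pi_div_two (x := w0 / 2) (y := j * w0 / 2)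
        (by linarith) (by linarith) (by linarith)
      linarith
    · have := Real.sin_le (x := j * w0 / 2) (by linarith)
      exact le_of_le_of_eq (mul_le_mul_of_nonneg_left (by linarith) (by positivity)) hw1
    · rw [he1]
      exact (pow_le_pow_left₀ (by positivity) hj 2).trans ((hR i).sq 0 _)
  choose lam l1 l2 l3 using hlam
  have lp : ∀ i, 0 < lam i := fun i => by linarith [l1 i]
  have hj := fun i : J => (hR i).r4 0 (lam i)
    (2 ^ (r + 1) * Real.arcsin (i.1.2 / (2 ^ (r + 1) * lam i)) / n1.factorial) e1 n1 e1p (l3 i) hn1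
  choose j j1 j2 j3 using hj
  have gl : Good (fun i : J => i.1.1) lam := ⟨1, e1, e1p, l3⟩
  have hl2 : ∀ i, 2 ^ r * (2 * lam i) ≤ 1 := fun i => by
    have := l2 i
    rw [pow_succ] at this
    linarith
  have hP' : (1 : ℝ) ≤ 2 ^ r := one_le_pow₀ one_le_two
  have gL : Good (fun i : J => i.1.1) fun i => 2 * lam i := by
    refine (Good.add hR h1 gl gl fun i => ?_).of_abs_eq hR fun i => by rw [two_mul]
    rw [abs_of_pos (lp i)]
    nlinarith [hl2 i, lp i]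
  have ga : Good (fun i : J => i.1.1) fun i => 2 * lam i * Real.cos (j i *
      (2 ^ (r + 1) * Real.arcsin (i.1.2 / (2 ^ (r + 1) * lam i)) / n1.factorial) / 2 -
        Real.pi / 2) :=
    ⟨0, e1 / 2, by positivity, fun i => by
      beta_reduce
      rw [Real.cos_sub_pi_div_two]
      exact j3 i⟩
  have gb : Good (fun i : J => i.1.1) fun i => 2 * lam i * Real.cos (-(Real.pi / 2)) :=
    (Good.zero hR).of_abs_eq hR fun i => by simp
  obtain ⟨-, S, η, hη, hS⟩ := Good.dyadic hR h1 gL (fun i => by linarith [lp i]) ga gb r hl2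
    (fun i => n1.factorial / j i) fun i => (Nat.div_le_self _ _).trans hr
  refine ⟨S, η, L, hη, Lp, fun Φ hΦ h0 t ht => ?_⟩
  obtain ⟨i, hi1, hi2⟩ : ∃ i : J, i.1.1 = Φ ∧ i.1.2 = t := ⟨⟨(Φ, t), hΦ, h0, ht⟩, rfl, rfl⟩
  have h2 := hS i
  beta_reduce at h2
  have hn : ((n1.factorial / j i : ℕ) : ℝ) * j i = n1.factorial := by
    rw [← Nat.cast_mul, Nat.div_mul_cancel (Nat.dvd_factorial (j1 i) (j2 i))]
  have hf : (0 : ℝ) < n1.factorial := by exact_mod_cast n1.factorial_pos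
  have hq : 0 < 2 ^ (r + 1) * lam i := mul_pos (by positivity) (lp i)
  have hLi : |t| ≤ 2 ^ (r + 1) * lam i := by
    rw [hL] at ht
    exact ht.trans (mul_le_mul_of_nonneg_left (l1 i) (by positivity))
  have hs : Real.sin (Real.arcsin (t / (2 ^ (r + 1) * lam i))) = t / (2 ^ (r + 1) * lam i) :=
    Real.sin_arcsin (by rw [le_div_iff₀ hq]; linarith [(abs_le.1 hLi).1])
      (by rw [div_le_iff₀ hq]; linarith [(abs_le.1 hLi).2])
  rw [hi1, hi2] at h2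
  generalize Real.arcsin (t / (2 ^ (r + 1) * lam i)) = φ at h2 hs
  generalize ((n1.factorial / j i : ℕ) : ℝ) = N at h2 hn
  have h3 : (N * (j i * (2 ^ (r + 1) * φ / n1.factorial) / 2 - Real.pi / 2) +
      (2 ^ r - N) * -(Real.pi / 2)) / 2 ^ r = φ - Real.pi / 2 := by
    rw [← hn] at hf ⊢
    have h4 : N ≠ 0 := fun h => by simp [h] at hf
    have h5 : (j i : ℝ) ≠ 0 := fun h => by simp [h] at hf
    field_simp
    ring
  rw [h3, Real.cos_sub_pi_div_two, hs] at h2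
  have h4 : 2 ^ r * (2 * lam i) * (t / (2 ^ (r + 1) * lam i)) = t := by
    have := (lp i).ne'
    field_simp
    ring
  rwa [h4] at h2

end Vale.Agent.P032
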