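import Vale.Agent.P032.Defs

open MeasureTheory Filter Topology

namespace Vale.Agent.P032

namespace LimX

theorem vol (z : ℂ) {r : ℝ} (hr : 0 ≤ r) :
    volume.real (Metric.closedBall z r) = Real.pi * r ^ 2 := by
  rw [Measure.real, Complex.volume_closedBall, ENNReal.toReal_mul, ENNReal.toReal_pow,
    ENNReal.toReal_ofReal hr, mul_comm]
  rfl

theorem intg {f : ℂ → ℝ} (hm : Measurable f) (h0 : ∀ x, 0 ≤ f x) (h1 : ∀ x, f x ≤ 1) {S : Set ℂ}
    (hS : Bornology.IsBounded S) : IntegrableOn f S :=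
  Measure.integrableOn_of_bounded (M := 1) hS.measure_lt_top.ne hm.aestronglyMeasurable
    (Eventually.of_forall fun x => by rw [Real.norm_of_nonneg (h0 x)]; exact h1 x)

theorem le_vol {f : ℂ → ℝ} (h0 : ∀ x, 0 ≤ f x) (h1 : ∀ x, f x ≤ 1) {S : Set ℂ}
    (hS : Bornology.IsBounded S) : ∫ x in S, f x ≤ volume.real S := by
  have := norm_setIntegral_le_of_norm_le_const (f := f) (C := 1) (μ := volume) hS.measure_lt_top
    fun x _ => by rw [Real.norm_of_nonneg (h0 x)]; exact h1 x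
  linarith [Real.le_norm_self (∫ x in S, f x)]

theorem shift {f : ℂ → ℝ} (hm : Measurable f) (h0 : ∀ x, 0 ≤ f x) (h1 : ∀ x, f x ≤ 1) {δ ρ : ℝ}
    (hδ : 0 ≤ δ) {z z' : ℂ} (h : ‖z - z'‖ ≤ ρ) : ∫ x in Metric.closedBall z δ, f x ≤
      (∫ x in Metric.closedBall z' δ, f x) + Real.pi * ((δ + ρ) ^ 2 - δ ^ 2) := by
  have hρ : 0 ≤ ρ := (norm_nonneg _).trans h
  have h2 : ∫ x in Metric.closedBall z δ, f x ≤ ∫ x in Metric.closedBall z' (δ + ρ), f x :=
    setIntegral_mono_set (intg hm h0 h1 Metric.isBounded_closedBall) (Eventually.of_forall h0)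
      (Metric.closedBall_subset_closedBall' (by rw [dist_eq_norm]; linarith)).eventuallyLE
  have hs : Metric.closedBall z' δ ⊆ Metric.closedBall z' (δ + ρ) :=
    Metric.closedBall_subset_closedBall (by linarith)
  have h3 := setIntegral_diff measurableSet_closedBall (intg hm h0 h1 Metric.isBounded_closedBall) hs
  have h4 := le_vol h0 h1 (S := Metric.closedBall z' (δ + ρ) \ Metric.closedBall z' δ)
    (Metric.isBounded_closedBall.subset Set.diff_subset)
  rw [measureReal_diff hs measurableSet_closedBall Metric.isBounded_closedBall.measure_lt_top.ne,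
    vol _ hδ, vol _ (by linarith)] at h4
  linarith

end LimX

open LimX

theorem DD_mem (δ : ℝ) (hδ : 0 < δ) {f : ℂ → ℝ} (hm : Measurable f) (h0 : ∀ x, 0 ≤ f x)
    (h1 : ∀ x, f x ≤ 1) (z : ℂ) : 0 ≤ DD δ f z ∧ DD δ f z ≤ 1 := by
  have _ := hm
  have hp : 0 < Real.pi * δ ^ 2 := by positivity
  refine ⟨div_nonneg (integral_nonneg h0) hp.le, (div_le_one hp).2 ?_⟩
  rw [← vol z hδ.le]
  exact le_vol h0 h1 Metric.isBounded_closedBall

/-- uniform modulus of continuity of the ball averages -/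
theorem DD_equicont (δ : ℝ) (hδ : 0 < δ) (ε : ℝ) (hε : 0 < ε) :
    ∃ ρ : ℝ, 0 < ρ ∧ ∀ f : ℂ → ℝ, Measurable f → (∀ x, 0 ≤ f x) → (∀ x, f x ≤ 1) →
      ∀ z z' : ℂ, ‖z - z'‖ ≤ ρ → |DD δ f z - DD δ f z'| ≤ ε := by
  refine ⟨min δ (ε * δ / 3), by positivity, fun f hm h0 h1 z z' h => ?_⟩
  have hp : 0 < Real.pi * δ ^ 2 := by positivity
  have h2 := shift hm h0 h1 hδ.le h
  have h3 := shift hm h0 h1 hδ.le ((norm_sub_rev z' z).trans_le h)
  have h4 := min_le_left δ (ε * δ / 3)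
  have h5 := min_le_right δ (ε * δ / 3)
  have h6 : 0 < min δ (ε * δ / 3) := by positivity
  generalize min δ (ε * δ / 3) = ρ at *
  have h7 : Real.pi * ((δ + ρ) ^ 2 - δ ^ 2) ≤ Real.pi * (ε * δ ^ 2) :=
    mul_le_mul_of_nonneg_left (by nlinarith) Real.pi_pos.le
  rw [DD, DD, ← sub_div, abs_div, abs_of_pos hp, div_le_iff₀ hp, abs_le]
  constructor <;> linarith

theorem LimX.cont (δ : ℝ) (hδ : 0 < δ) {f : ℂ → ℝ} (hm : Measurable f) (h0 : ∀ x, 0 ≤ f x)
    (h1 : ∀ x, f x ≤ 1) : Continuous (DD δ f) := by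
  refine Metric.continuous_iff.2 fun z ε hε => ?_
  obtain ⟨ρ, hρ, h⟩ := DD_equicont δ hδ (ε / 2) (half_pos hε)
  refine ⟨ρ, hρ, fun y hy => ?_⟩
  rw [dist_eq_norm] at hy
  exact (h f hm h0 h1 y z hy.le).trans_lt (half_lt_self hε)

theorem tendsto_DD_integral (l : Filter ℕ) (F : ℕ → ℂ → ℝ) (hm : ∀ n, Measurable (F n))
    (h0 : ∀ n x, 0 ≤ F n x) (h1 : ∀ n x, F n x ≤ 1) (f : ℂ → ℝ) (hf : Measurable f)
    (hf0 : ∀ x, 0 ≤ f x) (hf1 : ∀ x, f x ≤ 1)
    (hl : ∀ S : Set ℂ, MeasurableSet S → Bornology.IsBounded S →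
        Tendsto (fun n => ∫ x in S, F n x) l (𝓝 (∫ x in S, f x)))
    (δ : ℝ) (hδ : 0 < δ) (R : ℝ) (u : ℂ) :
    Tendsto (fun n => ∫ z in Metric.closedBall (0 : ℂ) R, DD δ (F n) z * DD δ (F n) (z + u)) l
      (𝓝 (∫ z in Metric.closedBall (0 : ℂ) R, DD δ f z * DD δ f (z + u))) := by
  refine Metric.tendsto_nhds.2 fun ε hε => ?_
  have hV : 0 ≤ volume.real (Metric.closedBall (0 : ℂ) R) := measureReal_nonneg
  obtain ⟨η, hη⟩ : ∃ η, η = ε / (6 * volume.real (Metric.closedBall (0 : ℂ) R) + 1) := ⟨_, rfl⟩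
  have hη0 : 0 < η := by rw [hη]; positivity
  have hη1 : η * (6 * volume.real (Metric.closedBall (0 : ℂ) R) + 1) = ε := by
    rw [hη]; field_simp
  obtain ⟨ρ, hρ, hE⟩ := DD_equicont δ hδ η hη0
  obtain ⟨t, -, ht, hcov⟩ := finite_cover_balls_of_compact
    (isCompact_closedBall (0 : ℂ) (R + ‖u‖)) hρ
  have hpt : ∀ᶠ n in l, ∀ y ∈ t, |DD δ (F n) y - DD δ f y| < η := by
    refine (eventually_all_finite ht).2 fun y _ => ?_
    exact Metric.tendsto_nhds.1 ((hl _ measurableSet_closedBall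
      Metric.isBounded_closedBall).div_const (Real.pi * δ ^ 2)) η hη0
  filter_upwards [hpt] with n hn
  have hu : ∀ z : ℂ, ‖z‖ ≤ R + ‖u‖ → |DD δ (F n) z - DD δ f z| ≤ 3 * η := by
    intro z hz
    obtain ⟨y, hy, hzy⟩ := Set.mem_iUnion₂.1 (hcov (mem_closedBall_zero_iff.2 hz))
    have h2 := abs_le.1 (hE (F n) (hm n) (h0 n) (h1 n) z y (mem_ball_iff_norm.1 hzy).le)
    have h3 := abs_le.1 (hE f hf hf0 hf1 z y (mem_ball_iff_norm.1 hzy).le)
    have h4 := abs_lt.1 (hn y hy)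
    rw [abs_le]
    constructor <;> linarith [h2.1, h2.2, h3.1, h3.2, h4.1, h4.2]
  have hi : ∀ g : ℂ → ℝ, Continuous g →
      IntegrableOn (fun z => g z * g (z + u)) (Metric.closedBall (0 : ℂ) R) := fun g hg =>
    (hg.mul (hg.comp (continuous_add_const u))).continuousOn.integrableOn_compact
      (isCompact_closedBall _ _)
  rw [dist_eq_norm, ← integral_sub (hi _ (cont δ hδ (hm n) (h0 n) (h1 n)))
    (hi _ (cont δ hδ hf hf0 hf1))]
  refine (norm_setIntegral_le_of_norm_le_const (C := 6 * η)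
    Metric.isBounded_closedBall.measure_lt_top fun z hz => ?_).trans_lt (by nlinarith)
  have hz' := mem_closedBall_zero_iff.1 hz
  have h2 := hu z (by linarith [norm_nonneg u])
  have h3 := hu (z + u) (by linarith [norm_add_le z u])
  have h4 := DD_mem δ hδ (hm n) (h0 n) (h1 n) (z + u)
  have h5 := DD_mem δ hδ hf hf0 hf1 z
  rw [Real.norm_eq_abs, show DD δ (F n) z * DD δ (F n) (z + u) - DD δ f z * DD δ f (z + u) =
    (DD δ (F n) z - DD δ f z) * DD δ (F n) (z + u) +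
      DD δ f z * (DD δ (F n) (z + u) - DD δ f (z + u)) by ring]
  refine (abs_add_le _ _).trans ?_
  rw [abs_mul, abs_mul, abs_of_nonneg h4.1, abs_of_nonneg h5.1]
  nlinarith [mul_le_of_le_one_right (abs_nonneg (DD δ (F n) z - DD δ f z)) h4.2,
    mul_le_of_le_one_left (abs_nonneg (DD δ (F n) (z + u) - DD δ f (z + u))) h5.2]

end Vale.Agent.P032
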