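import Vale.Agent.P032.PD2

namespace Vale.Agent.P032

variable (M : IMean ℝ) {ψ : ℂ → ℝ}

theorem norm_one_sub_ee (t : ℝ) : ‖1 - ee t‖ = |2 * Real.sin (t / 2)| := by
  rw [norm_sub_rev, ee, mul_comm (t : ℂ), Complex.norm_exp_I_mul_ofReal_sub_one,
    Real.norm_eq_abs]

theorem circ_sub (h : ψ ∈ CC) (x : ℂ) (s t : ℝ) :
    ψ (x * (1 - ee (s - t))) = ψ (x * ee s - x * ee t) := by
  apply h.2.1
  have e : x * ee s - x * ee t = -(x * (1 - ee (s - t)) * ee t) := by
    have : ee s = ee (s - t) * ee t := by rw [← ee_add, sub_add_cancel]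
    rw [this]
    ring
  rw [e, norm_neg, norm_mul (x * _), norm_ee, mul_one]

theorem pd_circ (h : ψ ∈ CC) (x : ℂ) : PD (fun t : ℝ => ψ (x * (1 - ee t))) := by
  refine ⟨fun t => ?_, fun ι _ y c => ?_⟩
  · have h1 := circ_sub h x 0 t
    have h2 := circ_sub h x t 0
    rw [zero_sub] at h1
    rw [sub_zero] at h2
    show ψ (x * (1 - ee (-t))) = ψ (x * (1 - ee t))
    rw [h1, h2, h.1.swap]
  · simp only [circ_sub h]
    exact h.1.2 ι (fun a => x * ee (y a)) c

theorem MM_mem (h : ψ ∈ CC) : MM M ψ ∈ CC := by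
  refine ⟨⟨fun x => ?_, fun ι _ y c => ?_⟩, fun x y hxy => ?_, ?_⟩
  · simp only [MM, neg_mul, h.1.1]
  · have hb : ∀ a b, Bd fun t : ℝ => c a * c b * ψ ((y a - y b) * (1 - ee t)) := fun a b =>
      Bd.cmul _ (h.1.bd.comp _)
    have e : ∀ a b, c a * c b * MM M ψ (y a - y b) =
        M.m fun t : ℝ => c a * c b * ψ ((y a - y b) * (1 - ee t)) := fun a b =>
      (M.smul _ (fun t : ℝ => ψ ((y a - y b) * (1 - ee t))) (h.1.bd.comp _)).symm
    simp only [e]
    rw [← M.sum₂ hb]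
    refine M.nonneg _ (Bd.sum₂ hb) fun t => ?_
    simp only [sub_mul (y _)]
    exact h.1.2 ι (fun a => y a * (1 - ee t)) c
  · unfold MM
    congr 1
    funext t
    apply h.2.1
    rw [norm_mul, norm_mul, hxy]
  · simp only [MM, zero_mul, h.2.2, M.one]

theorem MM_nonneg (h : ψ ∈ CC) (x : ℂ) : 0 ≤ MM M ψ x := M.pd_nonneg (pd_circ h x)

theorem MM_iter_mem (h : ψ ∈ CC) (s : ℕ) : (MM M)^[s] ψ ∈ CC := by
  induction s with
  | zero => exact h
  | succ s ih =>
    rw [Function.iterate_succ_apply']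
    exact MM_mem M ih

theorem vdc1_aux (h : ψ ∈ CC) (s : ℝ) (hs : s ≠ 0) (b c : ℂ) :
    (M.m (fun t => ψ (b + c * ee (s * t)))) ^ 2 ≤ MM M ψ c := by
  refine le_of_forall_pos_le_add fun ε hε => ?_
  obtain ⟨n, y, hy⟩ := M.exists_QQ_le (pd_circ h c).bd (pd_circ h c).1 hε
  refine le_trans ((M.vdc h.1 h.2.2 b (fun t => c * ee (s * t)) fun i => y i / s).trans
    (le_of_eq ?_)) hy
  unfold QQ
  congr 1
  refine Finset.sum_congr rfl fun i _ => Finset.sum_congr rfl fun j _ => ?_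
  have e : (fun t => ψ (c * ee (s * (t + y i / s)) - c * ee (s * (t + y j / s)))) =
      fun _ => ψ (c * (1 - ee (y i - y j))) := by
    funext t
    rw [← circ_sub h]
    congr 4
    field_simp
    ring
  rw [e, M.const]

theorem rad_flip (h : ψ ∈ CC) (b c : ℂ) (u : ℝ) : ψ (b + c * ee u) = ψ (c + b * ee (-u)) := by
  apply h.2.1
  have e : b + c * ee u = (c + b * ee (-u)) * ee u := by
    rw [add_mul, mul_assoc, ← ee_add, neg_add_cancel, ee_zero]
    ring
  rw [e, norm_mul, norm_ee, mul_one]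

/-- first order van der Corput -/
theorem vdc1 (h : ψ ∈ CC) (s : ℝ) (hs : s ≠ 0) (b c : ℂ) :
    (M.m (fun t => ψ (b + c * ee (s * t)))) ^ 2 ≤ MM M ψ c ∧
      (M.m (fun t => ψ (b + c * ee (s * t)))) ^ 2 ≤ MM M ψ b := by
  refine ⟨vdc1_aux M h s hs b c, ?_⟩
  have := vdc1_aux M h (-s) (neg_ne_zero.mpr hs) c b
  simp only [neg_mul, ← rad_flip h] at this
  exact this

theorem sq_le_MM (h : ψ ∈ CC) (x : ℂ) : (ψ x) ^ 2 ≤ MM M ψ x := by
  have h1 := vdc1_aux M h 1 one_ne_zero 0 x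
  have e : (fun t : ℝ => ψ (0 + x * ee (1 * t))) = fun _ => ψ x := by
    funext t
    apply h.2.1
    rw [zero_add, norm_mul, norm_ee, mul_one]
  rwa [e, M.const] at h1

theorem MM_r4 (h : ψ ∈ CC) (lam w η : ℝ) (n : ℕ) (hη : 0 < η) (h1 : η ≤ MM M ψ (lam : ℂ))
    (h2 : 2 ≤ n * η) :
    ∃ j : ℕ, 1 ≤ j ∧ j ≤ n ∧ η / 2 ≤ ψ ((2 * lam * Real.sin (j * w / 2) : ℝ) : ℂ) := by
  by_contra hc
  push Not at hc
  have hn : 0 < n := by
    rcases Nat.eq_zero_or_pos n with h0 | h0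
    · subst h0; norm_num at h2
    · exact h0
  have hn' : (0 : ℝ) < n := by exact_mod_cast hn
  have : Nonempty (Fin n) := ⟨⟨0, hn⟩⟩
  set g : ℝ → ℝ := fun t => ψ (lam * (1 - ee t)) with hg
  have hpd : PD g := pd_circ h lam
  have hr : ∀ d : ℝ, g d = ψ ((2 * lam * Real.sin (d / 2) : ℝ) : ℂ) := by
    intro d
    apply h.2.1
    rw [norm_mul, norm_one_sub_ee, Complex.norm_real, Complex.norm_real, Real.norm_eq_abs,
      Real.norm_eq_abs, ← abs_mul]
    congr 1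
    ring
  have hlt : ∀ i i' : Fin n, i' < i → g ((i : ℕ) * w - (i' : ℕ) * w) ≤ η / 2 := by
    intro i i' hi
    have hi' : (i' : ℕ) < i := hi
    have e : ((i : ℕ) : ℝ) * w - (i' : ℕ) * w = (((i : ℕ) - (i' : ℕ) : ℕ) : ℝ) * w := by
      rw [Nat.cast_sub hi'.le]
      ring
    rw [e, hr]
    exact (hc _ (by omega) (by omega)).le
  have hterm : ∀ i i' : Fin n, g ((i : ℕ) * w - (i' : ℕ) * w) ≤
      (if i = i' then 1 - η / 2 else 0) + η / 2 := by
    intro i i'
    rcases lt_trichotomy i i' with hi | hi | hi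
    · rw [if_neg hi.ne, zero_add, hpd.swap]
      exact hlt i' i hi
    · rw [if_pos hi, hi, sub_self, hg]
      simp only [ee_zero, sub_self, mul_zero, h.2.2]
      linarith
    · rw [if_neg hi.ne', zero_add]
      exact hlt i i' hi
  have h3 := h1.trans (M.le_QQ hpd fun i : Fin n => (i : ℕ) * w)
  unfold QQ at h3
  rw [Fintype.card_fin, le_div_iff₀ (by positivity)] at h3
  have h4 := h3.trans (Finset.sum_le_sum fun i _ => Finset.sum_le_sum fun i' _ => hterm i i')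
  simp only [Finset.sum_add_distrib, Finset.sum_ite_eq, Finset.mem_univ, if_true,
    Finset.sum_const, Finset.card_univ, Fintype.card_fin, nsmul_eq_mul] at h4
  nlinarith [mul_le_mul_of_nonneg_left h2 hn'.le, mul_pos hn' hη]

end Vale.Agent.P032
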