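import Vale.Agent.P032.MMa

namespace Vale.Agent.P032

variable (M : IMean ℝ) {ψ : ℂ → ℝ}

theorem vdc2_aux (h : ψ ∈ CC) (a b : ℂ) (u : ℝ → ℂ) (σ : ℝ → ℝ) (C : ℝ → ℝ → ℂ)
    (hu : ∀ y y' t, ‖u (t + σ y) - u (t + σ y')‖ =
      ‖(b * ee y - b * ee y') + C y y' * ee (1 * t)‖) :
    (M.m (fun t => ψ (a + u t))) ^ 4 ≤ MM M (MM M ψ) b := by
  have hφ := MM_mem M h
  refine le_of_forall_pos_le_add fun ε hε => ?_
  obtain ⟨n, y, hy⟩ := M.exists_QQ_le (pd_circ hφ b).bd (pd_circ hφ b).1 hε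
  refine le_trans ?_ hy
  have h1 := M.vdc h.1 h.2.2 a u fun i => σ (y i)
  set T : Fin (n + 1) → Fin (n + 1) → ℝ :=
    fun i j => M.m fun t => ψ (u (t + σ (y i)) - u (t + σ (y j))) with hT
  have h2 : ∀ i j, T i j ^ 2 ≤ MM M ψ (b * (1 - ee (y i - y j))) := by
    intro i j
    have e : (fun t => ψ (u (t + σ (y i)) - u (t + σ (y j)))) =
        fun t => ψ ((b * ee (y i) - b * ee (y j)) + C (y i) (y j) * ee (1 * t)) := by
      funext t
      exact h.2.1 _ _ (hu _ _ t)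
    rw [circ_sub hφ]
    simp only [hT]
    rw [e]
    exact (vdc1 M h 1 one_ne_zero _ _).2
  have hc : (0 : ℝ) < Fintype.card (Fin (n + 1)) := by exact_mod_cast Fintype.card_pos
  set N : ℝ := (Fintype.card (Fin (n + 1)) : ℝ) with hN
  have h3 : (∑ i, ∑ j, T i j) ^ 2 ≤ N ^ 2 * ∑ i, ∑ j, T i j ^ 2 := by
    have := sq_sum_le_card_mul_sum_sq (s := (Finset.univ : Finset (Fin (n + 1) × Fin (n + 1))))
      (f := fun p => T p.1 p.2)
    rw [Finset.card_univ, Fintype.card_prod, Nat.cast_mul, Fintype.sum_prod_type,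
      Fintype.sum_prod_type, ← sq] at this
    exact this
  have h4 : ∑ i, ∑ j, T i j ^ 2 ≤ ∑ i, ∑ j, MM M ψ (b * (1 - ee (y i - y j))) :=
    Finset.sum_le_sum fun i _ => Finset.sum_le_sum fun j _ => h2 i j
  calc (M.m (fun t => ψ (a + u t))) ^ 4 = ((M.m (fun t => ψ (a + u t))) ^ 2) ^ 2 := by ring
    _ ≤ ((∑ i, ∑ j, T i j) / N ^ 2) ^ 2 := pow_le_pow_left₀ (sq_nonneg _) h1 2
    _ ≤ (∑ i, ∑ j, T i j ^ 2) / N ^ 2 := by
        rw [div_pow, div_le_div_iff₀ (by positivity) (by positivity)]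
        nlinarith [mul_le_mul_of_nonneg_right h3 (sq_nonneg N)]
    _ ≤ _ := div_le_div_of_nonneg_right h4 (by positivity)

/-- second order van der Corput, middle coefficient -/
theorem vdc2_mid (h : ψ ∈ CC) (a b c : ℂ) :
    (M.m (fun t => ψ (a + b * ee t + c * ee (2 * t)))) ^ 4 ≤ MM M (MM M ψ) b := by
  simp only [add_assoc a]
  refine vdc2_aux M h a b (fun t => b * ee t + c * ee (2 * t)) id
    (fun y y' => c * (ee (2 * y) - ee (2 * y'))) fun y y' t => ?_
  have e : (b * ee (t + id y) + c * ee (2 * (t + id y))) -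
      (b * ee (t + id y') + c * ee (2 * (t + id y'))) =
      ((b * ee y - b * ee y') + c * (ee (2 * y) - ee (2 * y')) * ee (1 * t)) * ee t := by
    simp only [id, two_mul, one_mul, ee_add]
    ring
  rw [e, norm_mul, norm_ee, mul_one]

/-- second order van der Corput, constant coefficient -/
theorem vdc2_end (h : ψ ∈ CC) (a b c : ℂ) :
    (M.m (fun t => ψ (a + b * ee t + c * ee (2 * t)))) ^ 4 ≤ MM M (MM M ψ) a := by
  have hinv : ∀ t : ℝ, ee (-t) * ee t = 1 := fun t => by rw [← ee_add, neg_add_cancel, ee_zero]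
  have e0 : (fun t : ℝ => ψ (a + b * ee t + c * ee (2 * t))) =
      fun t => ψ (c + (b * ee (-t) + a * ee (-(2 * t)))) := by
    funext t
    apply h.2.1
    have e : a + b * ee t + c * ee (2 * t) =
        (c + (b * ee (-t) + a * ee (-(2 * t)))) * ee (2 * t) := by
      have h1 := hinv (2 * t)
      have h2 := hinv t
      have h3 : ee (2 * t) = ee t * ee t := by rw [two_mul, ee_add]
      linear_combination (-a) * h1 - b * ee t * h2 - b * ee (-t) * h3
    rw [e, norm_mul, norm_ee, mul_one]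
  rw [e0]
  refine vdc2_aux M h c a (fun t => b * ee (-t) + a * ee (-(2 * t))) (fun y => -(y / 2))
    (fun y y' => b * (ee (y / 2) - ee (y' / 2))) fun y y' t => ?_
  have a1 : ∀ z : ℝ, ee (-(t + -(z / 2))) = ee (z / 2) * ee (1 * t) * ee (-(2 * t)) := by
    intro z
    rw [← ee_add, ← ee_add]
    congr 1
    ring
  have a2 : ∀ z : ℝ, ee (-(2 * (t + -(z / 2)))) = ee z * ee (-(2 * t)) := by
    intro z
    rw [← ee_add]
    congr 1
    ring
  have e : (b * ee (-(t + -(y / 2))) + a * ee (-(2 * (t + -(y / 2))))) -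
      (b * ee (-(t + -(y' / 2))) + a * ee (-(2 * (t + -(y' / 2))))) =
      ((a * ee y - a * ee y') + b * (ee (y / 2) - ee (y' / 2)) * ee (1 * t)) * ee (-(2 * t)) := by
    rw [a1, a1, a2, a2]
    ring
  rw [e, norm_mul, norm_ee, mul_one]

theorem norm_ident (p q t : ℝ) (hp : 0 ≤ p) (hq : 0 ≤ q) :
    ‖(p : ℂ) + ee (2 * t) * (-(q : ℂ))‖ =
      ‖((√(p * q) : ℝ) : ℂ) + ((p - q : ℝ) : ℂ) * ee t + (-((√(p * q) : ℝ) : ℂ)) * ee (2 * t)‖ := by
  have hr : √(p * q) ^ 2 = p * q := Real.sq_sqrt (mul_nonneg hp hq)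
  generalize √(p * q) = r at hr ⊢
  generalize hd : p - q = d
  rw [← sq_eq_sq₀ (norm_nonneg _) (norm_nonneg _), Complex.sq_norm, Complex.sq_norm,
    Complex.normSq_apply, Complex.normSq_apply]
  simp only [Complex.add_re, Complex.add_im, Complex.mul_re, Complex.mul_im, Complex.neg_re,
    Complex.neg_im, Complex.ofReal_re, Complex.ofReal_im, ee_re, ee_im, Real.cos_two_mul,
    Real.sin_two_mul]
  subst hd
  have h1 := Real.sin_sq_add_cos_sq t
  generalize Real.sin t = s at h1 ⊢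
  generalize Real.cos t = c at h1 ⊢
  linear_combination (4 * q ^ 2 * c ^ 2 - (p - q) ^ 2 + 4 * r * (p - q) * c - 4 * r ^ 2 * c ^ 2) * h1
    - (4 - 4 * c ^ 2) * hr

end Vale.Agent.P032
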