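import Vale.Agent.P032.Defs

open MeasureTheory Filter Topology

namespace Vale.Agent.P032

theorem exists_maxInd {A : Set ℂ} (hA : MeasurableSet A) (hI : Ind A) :
    ∃ B : Set ℂ, A ⊆ B ∧ MaxInd B := by
  obtain ⟨μ, hμ⟩ : ∃ μ : Measure ℂ, μ = (volume : Measure ℂ).toFinite := ⟨_, rfl⟩
  have : IsFiniteMeasure μ := by rw [hμ]; infer_instance
  have step : ∀ (n : ℕ) (S : Set ℂ), MeasurableSet S ∧ Ind S → ∃ T, (MeasurableSet T ∧ Ind T) ∧
      S ⊆ T ∧ ∀ T', MeasurableSet T' → Ind T' → S ⊆ T' → μ.real T' ≤ μ.real T + 1 / (n + 1) := by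
    intro n S hS
    have hb : BddAbove (μ.real '' {T | (MeasurableSet T ∧ Ind T) ∧ S ⊆ T}) := by
      refine ⟨μ.real Set.univ, ?_⟩
      rintro _ ⟨T, -, rfl⟩
      exact measureReal_mono (Set.subset_univ T)
    have hp : (0 : ℝ) < 1 / (n + 1) := by positivity
    obtain ⟨_, ⟨T, hT, rfl⟩, h1⟩ := exists_lt_of_lt_csSup
      (s := μ.real '' {T | (MeasurableSet T ∧ Ind T) ∧ S ⊆ T}) ⟨_, S, ⟨hS, subset_rfl⟩, rfl⟩
      (sub_lt_self _ hp)
    refine ⟨T, hT.1, hT.2, fun T' h2 h3 h4 => ?_⟩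
    have := le_csSup hb ⟨T', ⟨⟨h2, h3⟩, h4⟩, rfl⟩
    linarith
  choose! f hf using step
  obtain ⟨s, s0, s1⟩ : ∃ s : ℕ → Set ℂ, s 0 = A ∧ ∀ n, s (n + 1) = f n (s n) :=
    ⟨fun n => Nat.rec A f n, rfl, fun _ => rfl⟩
  have hs : ∀ n, MeasurableSet (s n) ∧ Ind (s n) := by
    intro n
    induction n with
    | zero => rw [s0]; exact ⟨hA, hI⟩
    | succ n ih => rw [s1]; exact (hf n _ ih).1
  have hmono : Monotone s := monotone_nat_of_le_succ fun n => by
    rw [s1]; exact (hf n _ (hs n)).2.1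
  have hB : MeasurableSet (⋃ n, s n) := MeasurableSet.iUnion fun n => (hs n).1
  refine ⟨⋃ n, s n, s0 ▸ Set.subset_iUnion s 0, hB, fun u hu => ?_, fun S hS hI' => ?_⟩
  · filter_upwards [ae_all_iff.2 fun n => (hs n).2 u hu] with z hz
    rintro ⟨h1, h2⟩
    obtain ⟨n, hn⟩ := Set.mem_iUnion.1 h1
    obtain ⟨m, hm⟩ := Set.mem_iUnion.1 h2
    exact hz (max n m) ⟨hmono (le_max_left _ _) hn, hmono (le_max_right _ _) hm⟩
  · have h1 : μ.real ((⋃ n, s n) ∪ S) ≤ μ.real (⋃ n, s n) := by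
      refine le_of_forall_pos_le_add fun ε hε => ?_
      obtain ⟨n, hn⟩ := exists_nat_one_div_lt hε
      have h2 := (hf n _ (hs n)).2.2 _ (hB.union hS) hI'
        ((Set.subset_iUnion s n).trans Set.subset_union_left)
      rw [← s1] at h2
      have h3 : μ.real (s (n + 1)) ≤ μ.real (⋃ n, s n) :=
        measureReal_mono (Set.subset_iUnion s (n + 1))
      linarith
    rw [← Set.union_diff_self, measureReal_union Set.disjoint_sdiff_right (hS.diff hB)] at h1
    have h2 : μ (S \ ⋃ n, s n) = 0 :=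
      (measureReal_eq_zero_iff (measure_ne_top _ _)).1
        (le_antisymm (by linarith) measureReal_nonneg)
    have h3 := measure_eq_zero_iff_ae_notMem.1 h2
    rw [hμ, ae_toFinite] at h3
    filter_upwards [h3] with z hz hzS
    by_contra h4
    exact hz ⟨hzS, h4⟩

/-- if an annulus misses `A` almost everywhere, the small disc is contained in `A` -/
theorem MaxInd.ball_sub {A : Set ℂ} (h : MaxInd A) (w : ℂ) (r : ℝ) (hr : r ≤ 1 / 2)
    (hN : ∀ᵐ g : ℂ, |‖w - g‖ - 1| < r → g ∉ A) : ∀ᵐ z : ℂ, z ∈ Metric.ball w r → z ∈ A := by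
  refine h.2.2 _ Metric.isOpen_ball.measurableSet fun u hu => ?_
  filter_upwards [h.2.1 u hu, hN,
    (measurePreserving_add_right volume u).quasiMeasurePreserving.ae hN] with z h1 h2 h3
  rintro ⟨h4 | h4, h5 | h5⟩
  · exact h1 ⟨h4, h5⟩
  · refine h2 ?_ h4
    have h6 := abs_norm_sub_norm_le (w - z) u
    rw [mem_ball_iff_norm'] at h5
    rw [hu, sub_sub] at h6
    exact h6.trans_lt h5
  · refine h3 ?_ h5
    have h6 := abs_norm_sub_norm_le (w - (z + u)) (-u)
    rw [mem_ball_iff_norm'] at h4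
    rw [norm_neg, hu, show w - (z + u) - -u = w - z by ring] at h6
    exact h6.trans_lt h4
  · have h6 := norm_sub_le_norm_sub_add_norm_sub (z + u) w z
    rw [mem_ball_iff_norm'] at h4
    rw [mem_ball_iff_norm] at h5
    rw [add_sub_cancel_left, hu] at h6
    linarith

end Vale.Agent.P032
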