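import Vale.Agent.P032.Defs

open Filter Topology

namespace Vale.Agent.P032

namespace Mean0X

variable {G : Type} [AddCommGroup G]

theorem abs_le' {m : (G → ℝ) →ₗ[ℝ] ℝ} (h0 : ∀ f : G → ℝ, (∀ x, 0 ≤ f x) → 0 ≤ m f)
    (h1 : m (fun _ => 1) = 1) {f : G → ℝ} {C : ℝ} (hf : ∀ x, |f x| ≤ C) : |m f| ≤ C := by
  have a := h0 (C • (fun _ => 1) - f) fun x => by simpa using (abs_le.1 (hf x)).2
  have b := h0 (C • (fun _ => 1) + f) fun x => by
    have := (abs_le.1 (hf x)).1
    simp only [Pi.add_apply, Pi.smul_apply, smul_eq_mul]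
    linarith
  rw [map_sub, map_smul, h1, smul_eq_mul] at a
  rw [map_add, map_smul, h1, smul_eq_mul] at b
  rw [abs_le]
  constructor <;> linarith

theorem approx (N : ℕ) (S : Finset G) : ∃ m : (G → ℝ) →ₗ[ℝ] ℝ,
    (∀ f : G → ℝ, (∀ x, 0 ≤ f x) → 0 ≤ m f) ∧ m (fun _ => 1) = 1 ∧
    ∀ a ∈ S, ∀ (f : G → ℝ) (C : ℝ), (∀ x, |f x| ≤ C) →
      |m (fun x => f (x + a)) - m f| ≤ 2 * C / (N + 1) := by
  classical
  induction S using Finset.induction_on with
  | empty => exact ⟨LinearMap.proj 0, fun f h => h 0, rfl, by simp⟩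
  | insert a S _ ih =>
    obtain ⟨m, h0, h1, h2⟩ := ih
    have hN : (0 : ℝ) < N + 1 := by positivity
    let m' : (G → ℝ) →ₗ[ℝ] ℝ := ((N : ℝ) + 1)⁻¹ •
      ∑ j ∈ Finset.range (N + 1), m ∘ₗ LinearMap.funLeft ℝ ℝ fun x => x + j • a
    have e : ∀ f : G → ℝ, m' f =
        (∑ j ∈ Finset.range (N + 1), m fun x => f (x + j • a)) / (N + 1) := fun f => by
      simp only [m', LinearMap.smul_apply, LinearMap.sum_apply, smul_eq_mul, div_eq_inv_mul]
      rfl
    refine ⟨m', fun f h => ?_, ?_, fun b hb f C hf => ?_⟩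
    · rw [e]
      exact div_nonneg (Finset.sum_nonneg fun j _ => h0 _ fun x => h _) hN.le
    · rw [e]
      simp only [h1, Finset.sum_const, Finset.card_range, nsmul_eq_mul, mul_one]
      push_cast
      exact div_self hN.ne'
    · rw [e, e, ← sub_div, abs_div, abs_of_pos hN, ← Finset.sum_sub_distrib]
      refine div_le_div_of_nonneg_right ?_ hN.le
      rcases Finset.mem_insert.1 hb with rfl | hb
      · have := Finset.sum_range_sub (fun j : ℕ => m fun x => f (x + j • b)) (N + 1)
        simp only [succ_nsmul _ _, ← add_assoc] at this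
        rw [this]
        refine (abs_sub _ _).trans ?_
        linarith [abs_le' h0 h1 (f := fun x => f (x + N • b + b)) fun x => hf _,
          abs_le' h0 h1 (f := fun x => f (x + 0 • b)) fun x => hf _]
      · refine (Finset.abs_sum_le_sum_abs _ _).trans ((Finset.sum_le_card_nsmul _ _
          (2 * C / (N + 1)) fun j _ => ?_).trans (le_of_eq ?_))
        · have := h2 b hb (fun x => f (x + j • a)) C fun x => hf _
          simpa only [add_right_comm _ b] using this
        · rw [Finset.card_range, nsmul_eq_mul]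
          push_cast
          field_simp

end Mean0X

open Mean0X

theorem exists_imean (G : Type) [AddCommGroup G] : Nonempty (IMean G) := by
  classical
  choose m h0 h1 h2 using fun p : ℕ × Finset G => approx p.1 p.2
  let U : Ultrafilter (ℕ × Finset G) := Ultrafilter.of atTop
  have hU : (U : Filter (ℕ × Finset G)) ≤ atTop := Ultrafilter.of_le _
  let L : (G → ℝ) → ℝ := fun f => limUnder U fun p => m p f
  have hL : ∀ f, Bd f → Tendsto (fun p => m p f) U (𝓝 (L f)) := by
    rintro f ⟨C, hf⟩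
    obtain ⟨x, -, hx⟩ := (isCompact_Icc (a := -C) (b := C)).ultrafilter_le_nhds
      (U.map fun p => m p f) (by
        rw [Ultrafilter.coe_map, le_principal_iff, mem_map]
        exact univ_mem' fun p => abs_le.1 (abs_le' (h0 p) (h1 p) hf))
    exact tendsto_nhds_limUnder ⟨x, hx⟩
  refine ⟨⟨L, fun f g hf hg => ?_, fun c f hf => ?_, fun f hf h => ?_, ?_, fun f a hf => ?_⟩⟩
  · obtain ⟨C, h⟩ := id hf
    obtain ⟨D, h'⟩ := id hg
    refine tendsto_nhds_unique (hL _ ⟨C + D, fun x =>
      (abs_add_le _ _).trans (add_le_add (h x) (h' x))⟩) ?_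
    exact ((hL f hf).add (hL g hg)).congr fun p => ((m p).map_add f g).symm
  · obtain ⟨C, h⟩ := id hf
    refine tendsto_nhds_unique (hL _ ⟨|c| * C, fun x => (abs_mul _ _).trans_le
      (mul_le_mul_of_nonneg_left (h x) (abs_nonneg _))⟩) ?_
    exact ((hL f hf).const_mul c).congr fun p => ((m p).map_smul c f).symm
  · exact ge_of_tendsto' (hL f hf) fun p => h0 p f h
  · refine tendsto_nhds_unique (hL _ ⟨1, fun _ => by simp⟩) ?_
    simp only [h1]
    exact tendsto_const_nhds
  · obtain ⟨C, h⟩ := id hf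
    rw [← sub_eq_zero]
    refine tendsto_nhds_unique ((hL _ ⟨C, fun x => h (x + a)⟩).sub (hL f hf)) ?_
    refine Tendsto.mono_left ?_ hU
    have t1 : Tendsto (fun p : ℕ × Finset G => 2 * C / ((p.1 : ℝ) + 1)) atTop (𝓝 0) := by
      refine Tendsto.const_div_atTop (tendsto_atTop_add_const_right _ _
        (tendsto_natCast_atTop_atTop.comp ?_)) _
      rw [← prod_atTop_atTop_eq]
      exact tendsto_fst
    refine squeeze_zero_norm' ?_ t1
    filter_upwards [eventually_ge_atTop ((0, {a}) : ℕ × Finset G)] with p hp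
    exact h2 p a (hp.2 (Finset.mem_singleton_self a)) f C h

end Vale.Agent.P032
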