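import Vale.Agent.P032.Defs

namespace Vale.Agent.P032

variable {G : Type}

theorem Bd.const (c : ℝ) : Bd (fun _ : G => c) := ⟨|c|, fun _ => le_rfl⟩
theorem Bd.add {f g : G → ℝ} (hf : Bd f) (hg : Bd g) : Bd (fun x => f x + g x) := by
  obtain ⟨C, h⟩ := hf
  obtain ⟨D, h'⟩ := hg
  exact ⟨C + D, fun x => (abs_add_le _ _).trans (add_le_add (h x) (h' x))⟩
theorem Bd.sub {f g : G → ℝ} (hf : Bd f) (hg : Bd g) : Bd (fun x => f x - g x) := by
  obtain ⟨C, h⟩ := hf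
  obtain ⟨D, h'⟩ := hg
  exact ⟨C + D, fun x => (abs_sub _ _).trans (add_le_add (h x) (h' x))⟩
theorem Bd.mul {f g : G → ℝ} (hf : Bd f) (hg : Bd g) : Bd (fun x => f x * g x) := by
  obtain ⟨C, h⟩ := hf
  obtain ⟨D, h'⟩ := hg
  exact ⟨C * D, fun x => (abs_mul _ _).trans_le
    (mul_le_mul (h x) (h' x) (abs_nonneg _) ((abs_nonneg _).trans (h x)))⟩
theorem Bd.pow {f : G → ℝ} (hf : Bd f) (n : ℕ) : Bd (fun x => f x ^ n) := by
  obtain ⟨C, h⟩ := hf
  exact ⟨C ^ n, fun x => (abs_pow _ _).trans_le (pow_le_pow_left₀ (abs_nonneg _) (h x) n)⟩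
theorem Bd.cmul {f : G → ℝ} (c : ℝ) (hf : Bd f) : Bd (fun x => c * f x) := (Bd.const c).mul hf
theorem Bd.div_const {f : G → ℝ} (c : ℝ) (hf : Bd f) : Bd (fun x => f x / c) :=
  hf.mul (Bd.const c⁻¹)
theorem Bd.comp {H : Type} {f : G → ℝ} (hf : Bd f) (u : H → G) : Bd (fun x => f (u x)) := by
  obtain ⟨C, h⟩ := hf
  exact ⟨C, fun x => h _⟩
theorem Bd.sum {ι : Type} (s : Finset ι) {f : ι → G → ℝ} (hf : ∀ i ∈ s, Bd (f i)) :
    Bd (fun x => ∑ i ∈ s, f i x) := by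
  classical
  induction s using Finset.induction_on with
  | empty => exact Bd.const 0
  | insert a s ha ih =>
    simp only [Finset.sum_insert ha]
    exact (hf a (Finset.mem_insert_self _ _)).add
      (ih fun i hi => hf i (Finset.mem_insert_of_mem hi))

variable [AddCommGroup G] (M : IMean G)

theorem IMean.const (c : ℝ) : M.m (fun _ => c) = c := by
  simpa [M.one] using M.smul c _ (Bd.const 1)
theorem IMean.sub {f g : G → ℝ} (hf : Bd f) (hg : Bd g) :
    M.m (fun x => f x - g x) = M.m f - M.m g := by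
  have h := M.add _ _ (hf.sub hg) hg
  simp only [sub_add_cancel] at h
  exact eq_sub_of_add_eq h.symm
theorem IMean.div_const {f : G → ℝ} (c : ℝ) (hf : Bd f) :
    M.m (fun x => f x / c) = M.m f / c := by
  simp only [div_eq_inv_mul]
  exact M.smul _ _ hf
theorem IMean.mono {f g : G → ℝ} (hf : Bd f) (hg : Bd g) (h : ∀ x, f x ≤ g x) :
    M.m f ≤ M.m g := by
  have := M.nonneg _ (hg.sub hf) fun x => sub_nonneg.2 (h x)
  rwa [M.sub hg hf, sub_nonneg] at this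
theorem IMean.le_of_le {f : G → ℝ} (hf : Bd f) {c : ℝ} (h : ∀ x, f x ≤ c) : M.m f ≤ c :=
  (M.mono hf (Bd.const c) h).trans_eq (M.const c)
theorem IMean.ge_of_ge {f : G → ℝ} (hf : Bd f) {c : ℝ} (h : ∀ x, c ≤ f x) : c ≤ M.m f :=
  (M.const c).symm.trans_le (M.mono (Bd.const c) hf h)
theorem IMean.abs_le {f : G → ℝ} {c : ℝ} (h : ∀ x, |f x| ≤ c) : |M.m f| ≤ c :=
  _root_.abs_le.2 ⟨M.ge_of_ge ⟨c, h⟩ fun x => (_root_.abs_le.1 (h x)).1,
    M.le_of_le ⟨c, h⟩ fun x => (_root_.abs_le.1 (h x)).2⟩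
theorem IMean.sum {ι : Type} (s : Finset ι) {f : ι → G → ℝ} (hf : ∀ i ∈ s, Bd (f i)) :
    M.m (fun x => ∑ i ∈ s, f i x) = ∑ i ∈ s, M.m (f i) := by
  classical
  induction s using Finset.induction_on with
  | empty => exact M.const 0
  | insert a s ha ih =>
    have h' := fun i hi => hf i (Finset.mem_insert_of_mem hi)
    simp only [Finset.sum_insert ha]
    rw [M.add _ _ (hf a (Finset.mem_insert_self _ _)) (Bd.sum s h'), ih h']
/-- Jensen for the square -/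
theorem IMean.sq_le {f : G → ℝ} (hf : Bd f) : (M.m f) ^ 2 ≤ M.m (fun x => f x ^ 2) := by
  have h := M.mono ((hf.cmul (2 * M.m f)).sub (Bd.const (M.m f ^ 2))) (hf.pow 2)
    fun x => by nlinarith [sq_nonneg (f x - M.m f)]
  rw [M.sub (hf.cmul _) (Bd.const _), M.smul _ _ hf, M.const] at h
  linarith
/-- Jensen for the fourth power -/
theorem IMean.pow4_le {f : G → ℝ} (hf : Bd f) : (M.m f) ^ 4 ≤ M.m (fun x => f x ^ 4) := by
  have h := (pow_le_pow_left₀ (sq_nonneg _) (M.sq_le hf) 2).trans (M.sq_le (hf.pow 2))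
  simpa only [← pow_mul] using h
theorem IMean.exists_lt {f : G → ℝ} (hf : Bd f) {c : ℝ} (h : M.m f < c) : ∃ x, f x < c := by
  by_contra h'
  exact absurd (M.ge_of_ge hf fun x => not_lt.1 fun hx => h' ⟨x, hx⟩) (not_le.2 h)
/-- a parametrized mean of a uniformly bounded family is bounded -/
theorem IMean.bd_param {H : Type} {F : H → G → ℝ} {C : ℝ} (h : ∀ y x, |F y x| ≤ C) :
    Bd (fun y => M.m (F y)) := ⟨C, fun y => M.abs_le (h y)⟩

end Vale.Agent.P032
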