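import Vale.Agent.P032.PD1

namespace Vale.Agent.P032

variable {G : Type} [AddCommGroup G] (M : IMean G) {g : G → ℝ}

theorem IMean.greedy (hb : Bd g) (hs : ∀ x, g (-x) = g x) {e : ℝ} (he : 0 < e) (n : ℕ) :
    ∃ x : Fin (n + 1) → G,
      ∑ a, ∑ b, g (x a - x b) ≤ (n + 1) * g 0 + n * (n + 1) * (M.m g + e) := by
  induction n with
  | zero => exact ⟨fun _ => 0, by simp⟩
  | succ n ih =>
    obtain ⟨x, hx⟩ := ih
    have hm : M.m (fun t => ∑ i, g (t + -x i)) = (n + 1) * M.m g := by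
      rw [M.sum Finset.univ (f := fun i t => g (t + -x i)) fun i _ => hb.comp _]
      simp only [M.inv g _ hb, Finset.sum_const, Finset.card_univ, Fintype.card_fin, nsmul_eq_mul]
      push_cast
      ring
    have hn : (0 : ℝ) < n + 1 := by positivity
    obtain ⟨t, ht⟩ := M.exists_lt (f := fun t => ∑ i, g (t + -x i))
      (Bd.sum Finset.univ (f := fun i t => g (t + -x i)) fun i _ => hb.comp _)
      (c := (n + 1) * (M.m g + e)) (by rw [hm]; nlinarith)
    refine ⟨Fin.cons t x, ?_⟩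
    have e1 : ∀ i, g (x i - t) = g (t - x i) := fun i => by rw [← hs, neg_sub]
    simp only [← sub_eq_add_neg] at ht
    rw [Fin.sum_univ_succ]
    simp only [Fin.sum_univ_succ (n := n + 1), Fin.cons_zero, Fin.cons_succ, sub_self,
      Finset.sum_add_distrib, e1]
    push_cast
    nlinarith

/-- greedy choice of a finite family -/
theorem IMean.exists_QQ_le (hb : Bd g) (hs : ∀ x, g (-x) = g x) {ε : ℝ} (hε : 0 < ε) :
    ∃ (n : ℕ) (x : Fin (n + 1) → G), QQ g x ≤ M.m g + ε := by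
  obtain ⟨n, hn⟩ := exists_nat_ge ((g 0 - (M.m g + ε / 2)) / (ε / 2))
  obtain ⟨x, hx⟩ := M.greedy hb hs (half_pos hε) n
  refine ⟨n, x, ?_⟩
  have h0 : (0 : ℝ) < n + 1 := by positivity
  rw [div_le_iff₀ (half_pos hε)] at hn
  unfold QQ
  rw [Fintype.card_fin, div_le_iff₀ (by positivity)]
  refine hx.trans ?_
  push_cast
  have h1 : g 0 + n * (M.m g + ε / 2) ≤ (M.m g + ε) * (n + 1) := by nlinarith
  nlinarith [mul_le_mul_of_nonneg_left h1 h0.le]

theorem IMean.pd_nonneg (h : PD g) : 0 ≤ M.m g := by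
  refine le_of_forall_pos_le_add fun ε hε => ?_
  obtain ⟨n, x, hx⟩ := M.exists_QQ_le h.bd h.1 hε
  exact (h.QQ_nonneg x).trans hx

theorem IMean.sum₂ {ι κ : Type} [Fintype ι] [Fintype κ] {f : ι → κ → G → ℝ}
    (hf : ∀ a b, Bd (f a b)) : M.m (fun t => ∑ a, ∑ b, f a b t) = ∑ a, ∑ b, M.m (f a b) := by
  rw [M.sum Finset.univ (f := fun a t => ∑ b, f a b t)
    fun a _ => Bd.sum Finset.univ fun b _ => hf a b]
  exact Finset.sum_congr rfl fun a _ => M.sum Finset.univ fun b _ => hf a b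

theorem Bd.sum₂ {H ι κ : Type} [Fintype ι] [Fintype κ] {f : ι → κ → H → ℝ}
    (hf : ∀ a b, Bd (f a b)) : Bd (fun t => ∑ a, ∑ b, f a b t) :=
  Bd.sum Finset.univ (f := fun a t => ∑ b, f a b t)
    fun a _ => Bd.sum Finset.univ fun b _ => hf a b

theorem IMean.pd_sub (h : PD g) : PD (fun x => g x - M.m g) := by
  refine ⟨fun x => by simp only [h.1], fun ι _ x c => ?_⟩
  have hb : ∀ a b, Bd fun t => c a * c b * g (x a - x b + t) := fun a b =>
    Bd.cmul _ (h.bd.comp _)
  have h1 : M.m (fun t => ∑ a, ∑ b, c a * c b * g (x a - x b + t)) ≤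
      ∑ a, ∑ b, c a * c b * g (x a - x b) :=
    M.le_of_le (Bd.sum₂ hb) fun t => (le_abs_self _).trans (h.shift_abs_le x c t)
  rw [M.sum₂ hb] at h1
  have h2 : ∀ a b, M.m (fun t => c a * c b * g (x a - x b + t)) = c a * c b * M.m g := by
    intro a b
    rw [M.smul _ (fun t => g (x a - x b + t)) (h.bd.comp _)]
    simp only [add_comm (x a - x b), M.inv g _ h.bd]
  simp only [h2] at h1
  simp only [mul_sub, Finset.sum_sub_distrib]
  linarith

theorem IMean.le_QQ (h : PD g) {ι : Type} [Fintype ι] [Nonempty ι] (x : ι → G) :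
    M.m g ≤ QQ g x := by
  have hι : (0 : ℝ) < Fintype.card ι := by exact_mod_cast Fintype.card_pos
  have h1 := (M.pd_sub h).2 ι x fun _ => 1
  simp only [mul_one, one_mul, Finset.sum_sub_distrib, Finset.sum_const, Finset.card_univ,
    nsmul_eq_mul] at h1
  unfold QQ
  rw [le_div_iff₀ (by positivity)]
  nlinarith

theorem IMean.pd_mul_ge {g' : G → ℝ} (h : PD g) (h' : PD g') :
    M.m g * M.m g' ≤ M.m (fun x => g x * g' x) := by
  have h1 := M.pd_nonneg ((M.pd_sub h).mul (M.pd_sub h'))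
  have e : (fun x => (g x - M.m g) * (g' x - M.m g')) =
      fun x => (g x * g' x - M.m g' * g x) - (M.m g * g' x - M.m g * M.m g') := by
    funext x; ring
  have b1 : Bd fun x => M.m g' * g x := Bd.cmul _ h.bd
  have b2 : Bd fun x => M.m g * g' x := Bd.cmul _ h'.bd
  rw [e, M.sub ((h.bd.mul h'.bd).sub b1) (b2.sub (Bd.const _)), M.sub (h.bd.mul h'.bd) b1,
    M.sub b2 (Bd.const _), M.smul _ _ h.bd, M.smul _ _ h'.bd, M.const] at h1
  linarith

/-- van der Corput inequality -/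
theorem IMean.vdc {H : Type} [AddCommGroup H] {ψ : H → ℝ} (h : PD ψ) (h0 : ψ 0 = 1) (a : H)
    (u : G → H) {ι : Type} [Fintype ι] [Nonempty ι] (s : ι → G) :
    (M.m (fun t => ψ (a + u t))) ^ 2 ≤
      (∑ i, ∑ j, M.m (fun t => ψ (u (t + s i) - u (t + s j)))) / (Fintype.card ι : ℝ) ^ 2 := by
  have hι : (0 : ℝ) < Fintype.card ι := by exact_mod_cast Fintype.card_pos
  have b0 : Bd fun t => ψ (a + u t) := h.bd.comp _
  have b1 : Bd fun t => ∑ i, ψ (a + u (t + s i)) :=
    Bd.sum Finset.univ (f := fun i t => ψ (a + u (t + s i))) fun i _ => h.bd.comp _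
  have e1 : M.m (fun t => (∑ i, ψ (a + u (t + s i))) / (Fintype.card ι : ℝ)) =
      M.m fun t => ψ (a + u t) := by
    rw [M.div_const _ b1,
      M.sum Finset.univ (f := fun i t => ψ (a + u (t + s i))) fun i _ => h.bd.comp _]
    have : ∀ i, M.m (fun t => ψ (a + u (t + s i))) = M.m fun t => ψ (a + u t) := fun i =>
      M.inv (fun t => ψ (a + u t)) (s i) b0
    simp only [this, Finset.sum_const, Finset.card_univ, nsmul_eq_mul]
    field_simp
  have b2 : ∀ i j, Bd fun t => ψ (u (t + s i) - u (t + s j)) := fun i j => h.bd.comp _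
  rw [← e1, ← M.sum₂ b2, ← M.div_const _ (Bd.sum₂ b2)]
  refine (M.sq_le (b1.div_const _)).trans ?_
  exact M.mono ((b1.div_const _).pow 2) ((Bd.sum₂ b2).div_const _)
    fun t => h.avg_sq_le h0 a fun i => u (t + s i)

end Vale.Agent.P032
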