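import Vale.Agent.P032.Defs

open MeasureTheory

namespace Vale.Agent.P032

theorem exists_finite_approx (R η : ℝ) (hη : 0 < η) :
    ∃ (T : Finset ℂ) (p : ℂ → ℂ), Measurable p ∧ (∀ x, p x ∈ T) ∧
      ∀ x, ‖x‖ ≤ R → ‖p x - x‖ ≤ η := by
  obtain ⟨t, ht⟩ := (isCompact_closedBall (0 : ℂ) R).elim_finite_subcover
    (fun k => Metric.ball (TopologicalSpace.denseSeq ℂ k) η) (fun _ => Metric.isOpen_ball)
    (fun x _ => by
      obtain ⟨k, hk⟩ := (TopologicalSpace.denseRange_denseSeq ℂ).exists_dist_lt x hη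
      exact Set.mem_iUnion.2 ⟨k, hk⟩)
  refine ⟨(SimpleFunc.nearestPt (TopologicalSpace.denseSeq ℂ) (t.sup id)).range,
    SimpleFunc.nearestPt (TopologicalSpace.denseSeq ℂ) (t.sup id), SimpleFunc.measurable _,
    fun x => SimpleFunc.mem_range_self _ x, fun x hx => ?_⟩
  obtain ⟨k, hk, hx'⟩ := Set.mem_iUnion₂.1 (ht (mem_closedBall_zero_iff.2 hx))
  have h1 := SimpleFunc.edist_nearestPt_le (TopologicalSpace.denseSeq ℂ) x
    (Finset.le_sup (f := id) hk)
  rw [edist_dist, edist_dist, ENNReal.ofReal_le_ofReal_iff dist_nonneg] at h1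
  rw [← dist_eq_norm]
  exact h1.trans (Metric.mem_ball'.1 hx').le

open Classical in
/-- measurable colourings with few monochromatic near unit pairs -/
theorem pick_meas {k : ℕ} (ω : ℂ → ℝ)
    (hω : ∀ (ι : Type) (s : Finset ι) (w : ι → ℝ) (x y : ι → ℂ), ∃ c' : ℂ → Fin k,
        ∑ a ∈ s, w a * (if c' (x a) = c' (y a) then 1 else 0) ≤
          ∑ a ∈ s, w a * ω (x a - y a) + 1)
    (n : ℕ) (R : ℝ) (ζ ε : ℕ → ℝ) (hζ : ∀ j, 0 < ζ j) (hε : ∀ j, 0 ≤ ε j)
    (hωζ : ∀ j (z : ℂ), |‖z‖ - 1| ≤ 3 * ζ j → ω z ≤ ε j)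
    (W : ℕ → Measure (ℂ × ℂ)) [∀ j, IsFiniteMeasure (W j)]
    (hW : ∀ j ≤ n, ∀ᵐ q ∂(W j), |‖q.1 - q.2‖ - 1| ≤ ζ j ∧ ‖q.1‖ ≤ R ∧ ‖q.2‖ ≤ R) :
    ∃ c' : ℂ → Fin k, (∀ i, MeasurableSet {x | c' x = i}) ∧
      ∑ j ∈ Finset.range (n + 1), 2 ^ j * (W j).real {q | c' q.1 = c' q.2} ≤
        ∑ j ∈ Finset.range (n + 1), 2 ^ j * (ε j * (W j).real Set.univ) + 1 := by
  obtain ⟨η, hη, hηζ⟩ : ∃ η > 0, ∀ j ≤ n, η ≤ ζ j := by
    obtain ⟨j, -, hj⟩ := (Finset.range (n + 1)).exists_min_image ζ ⟨0, by simp⟩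
    exact ⟨ζ j, hζ j, fun i hi => hj i (Finset.mem_range.2 (Nat.lt_succ_of_le hi))⟩
  obtain ⟨T, p, hp, hT, hpx⟩ := exists_finite_approx R η hη
  have hf : Measurable (Prod.map p p) := hp.prodMap hp
  obtain ⟨c', hc'⟩ := hω (ℕ × ℂ × ℂ) (Finset.range (n + 1) ×ˢ (T ×ˢ T))
    (fun a => 2 ^ a.1 * (W a.1).real (Prod.map p p ⁻¹' {a.2})) (fun a => a.2.1) (fun a => a.2.2)
  refine ⟨fun x => c' (p x), fun i => ?_, ?_⟩
  · have h1 : {x | c' (p x) = i} = p ⁻¹' (T.filter fun s => c' s = i) := by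
      ext x
      simp [hT x]
    rw [h1]
    exact hp (Finset.measurableSet _)
  · rw [Finset.sum_product, Finset.sum_product] at hc'
    refine le_trans (le_of_eq (Finset.sum_congr rfl fun j _ => ?_)) (hc'.trans ?_)
    · have h1 : {q : ℂ × ℂ | c' (p q.1) = c' (p q.2)} =
          Prod.map p p ⁻¹' ((T ×ˢ T).filter fun a => c' a.1 = c' a.2) := by
        ext q
        simp [hT]
      rw [h1, ← sum_measureReal_preimage_singleton _ (fun y _ => hf (measurableSet_singleton y)),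
        Finset.sum_filter, Finset.mul_sum]
      refine Finset.sum_congr rfl fun a _ => ?_
      by_cases h : c' a.1 = c' a.2
      · simp only [if_pos h, mul_one]
      · simp only [if_neg h, mul_zero]
    · refine add_le_add (Finset.sum_le_sum fun j hj => ?_) le_rfl
      have hj' : j ≤ n := Nat.lt_succ_iff.1 (Finset.mem_range.1 hj)
      have h1 : (Set.univ : Set (ℂ × ℂ)) = Prod.map p p ⁻¹' ((T ×ˢ T : Finset (ℂ × ℂ))) := by
        ext q
        simp [hT]
      rw [h1, ← sum_measureReal_preimage_singleton _ (fun y _ => hf (measurableSet_singleton y)),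
        Finset.mul_sum, Finset.mul_sum]
      refine Finset.sum_le_sum fun a _ => ?_
      by_cases h0 : W j (Prod.map p p ⁻¹' {a}) = 0
      · simp [measureReal_def, h0]
      · obtain ⟨q, hq, h2, h3, h4⟩ := Measure.exists_mem_of_measure_ne_zero_of_ae h0
          (ae_restrict_of_ae (hW j hj'))
        have h5 : (p q.1, p q.2) = a := hq
        have h6 := abs_norm_sub_norm_le (p q.1 - p q.2) (q.1 - q.2)
        rw [show p q.1 - p q.2 - (q.1 - q.2) = (p q.1 - q.1) - (p q.2 - q.2) by ring] at h6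
        have h7 := norm_sub_le (p q.1 - q.1) (p q.2 - q.2)
        have h8 : ω (a.1 - a.2) ≤ ε j := by
          refine hωζ j _ ?_
          rw [← h5]
          have h9 := abs_sub_le ‖p q.1 - p q.2‖ ‖q.1 - q.2‖ 1
          linarith [hpx _ h3, hpx _ h4, hηζ j hj']
        have h9 : 0 ≤ 2 ^ j * (W j).real (Prod.map p p ⁻¹' {a}) :=
          mul_nonneg (by positivity) measureReal_nonneg
        have h10 := mul_le_mul_of_nonneg_left h8 h9
        linarith

end Vale.Agent.P032
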