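import Vale.Agent.P032.MMb

namespace Vale.Agent.P032

variable (M : IMean ℝ) {ψ : ℂ → ℝ}

theorem rule12 (h : ψ ∈ CC) (hp : ProdF M ψ) (s : ℕ) (p q : ℝ) (hp0 : 0 ≤ p) (hq0 : 0 ≤ q) :
    ((MM M)^[s] ψ p * (MM M)^[s] ψ q) ^ 4 ≤ (MM M)^[s + 2] ψ ((p - q : ℝ) : ℂ) ∧
    ((MM M)^[s] ψ p * (MM M)^[s] ψ q) ^ 4 ≤ (MM M)^[s + 2] ψ ((√(p * q) : ℝ) : ℂ) := by
  induction s generalizing p q with
  | zero =>
    have h1 := hp 2 two_ne_zero p (-(q : ℂ))
    rw [h.1.1] at h1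
    simp only [fun t => h.2.1 _ _ (norm_ident p q t hp0 hq0)] at h1
    simp only [Function.iterate_zero, id]
    rw [← h1]
    exact ⟨vdc2_mid M h _ _ _, vdc2_end M h _ _ _⟩
  | succ s ih =>
    have hφ := MM_iter_mem M h s
    have hφ2 := MM_iter_mem M h (s + 2)
    rw [show s + 1 + 2 = s + 2 + 1 from rfl, Function.iterate_succ_apply',
      Function.iterate_succ_apply' (n := s + 2)]
    generalize (MM M)^[s] ψ = φ at *
    generalize (MM M)^[s + 2] ψ = φ₂ at *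
    have b1 : Bd fun t => φ (p * (1 - ee t)) * φ (q * (1 - ee t)) :=
      (hφ.1.bd.comp _).mul (hφ.1.bd.comp _)
    have h1 : (MM M φ p * MM M φ q) ^ 4 ≤
        M.m fun t => (φ (p * (1 - ee t)) * φ (q * (1 - ee t))) ^ 4 :=
      (pow_le_pow_left₀ (mul_nonneg (MM_nonneg M hφ _) (MM_nonneg M hφ _))
        (M.pd_mul_ge (pd_circ hφ p) (pd_circ hφ q)) 4).trans (M.pow4_le b1)
    have e : ∀ χ ∈ CC, ∀ (r : ℝ) (t : ℝ), χ ((r * ‖1 - ee t‖ : ℝ) : ℂ) = χ (r * (1 - ee t)) :=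
      fun χ hχ r t => hχ.2.1 _ _ (by simp)
    have h2 := fun t => ih (p * ‖1 - ee t‖) (q * ‖1 - ee t‖) (by positivity) (by positivity)
    refine ⟨h1.trans (M.mono (b1.pow 4) (hφ2.1.bd.comp _) fun t => ?_),
      h1.trans (M.mono (b1.pow 4) (hφ2.1.bd.comp _) fun t => ?_)⟩
    · have h3 := (h2 t).1
      rwa [← sub_mul, e φ hφ, e φ hφ, e φ₂ hφ2] at h3
    · have h3 := (h2 t).2
      rwa [mul_mul_mul_comm, Real.sqrt_mul (mul_nonneg hp0 hq0),
        Real.sqrt_mul_self (norm_nonneg _), e φ hφ, e φ hφ, e φ₂ hφ2] at h3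

theorem rules_of_prod (h : ψ ∈ CC) (hp : ProdF M ψ) :
    Rules (fun s (t : ℝ) => (MM M)^[s] ψ (t : ℂ)) where
  even s t := (MM_iter_mem M h s).2.1 _ _ (by simp)
  zero s := by simpa using (MM_iter_mem M h s).2.2
  le_one s t := by
    have h1 := (MM_iter_mem M h s).1.abs_le (t : ℂ)
    rw [(MM_iter_mem M h s).2.2] at h1
    exact (le_abs_self _).trans h1
  sq s t := by
    rw [Function.iterate_succ_apply']
    exact sq_le_MM M (MM_iter_mem M h s) _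
  r1 s p q hp0 hq0 := (rule12 M h hp s p q hp0 hq0).1
  r2 s p q hp0 hq0 := (rule12 M h hp s p q hp0 hq0).2
  r4 s lam w η n hη h1 h2 := by
    rw [Function.iterate_succ_apply'] at h1
    exact MM_r4 M (MM_iter_mem M h s) lam w η n hη h1 h2

end Vale.Agent.P032
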