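import Vale.Agent.P032.Mean0
import Vale.Agent.P032.Rule
import Vale.Agent.P032.Ext
import Vale.Agent.P032.IntB
import Vale.Agent.P032.Desc
import Vale.Agent.P032.Equi

namespace Vale.Agent.P032

theorem equi_of_abs (δ ε : ℝ) (hδ : 0 < δ) (hε : 0 < ε) :
    ∃ ζ : ℝ, 0 < ζ ∧ ∀ (M : IMean ℝ) (ψ : ℂ → ℝ), ψ ∈ CC → ProdF M ψ → δ ≤ |ψ 1| →
      ∀ z : ℂ, ‖z‖ ≤ ζ → 1 - ψ z ≤ ε := by
  obtain ⟨S, η, L, hη, hL, h1⟩ := interval_thm δ hδ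
  obtain ⟨r, hr, h2⟩ := descent_iter S (L / 2) η (by linarith) hη
  obtain ⟨ζ, hζ, h3⟩ := equi r (η / 2) ε hr (by linarith) hε
  refine ⟨ζ, hζ, fun M ψ hψ hp h4 => h3 M ψ hψ hp (h2 M ψ hψ fun ι _ _ x hx => ?_)⟩
  have h5 : ∀ a b, η ≤ (MM M)^[S] ψ (x a - x b) := by
    intro a b
    have h6 := h1 _ (rules_of_prod M hψ hp) (by simpa using h4) ‖x a - x b‖ (by
      rw [abs_norm]
      linarith [norm_sub_le (x a) (x b), hx a, hx b])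
    rwa [(MM_iter_mem M hψ S).2.1 _ (x a - x b) (by simp)] at h6
  have h7 : (0 : ℝ) < Fintype.card ι := by exact_mod_cast Fintype.card_pos
  rw [QQ, le_div_iff₀ (by positivity)]
  refine le_trans (le_of_eq ?_) (Finset.sum_le_sum fun a _ => Finset.sum_le_sum fun b _ => h5 a b)
  simp
  ring

/-- radial positive definite functions are equicontinuous at the unit circle -/
theorem rigid (ε : ℝ) (hε : 0 < ε) :
    ∃ ζ : ℝ, 0 < ζ ∧ ∀ ψ ∈ CC, ∀ z : ℂ, |‖z‖ - 1| ≤ ζ → |ψ z - ψ 1| ≤ ε := by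
  obtain ⟨ζ, hζ, h⟩ := equi_of_abs (ε / 2) (ε ^ 2 / 2) (by linarith) (by positivity)
  obtain ⟨M⟩ := exists_imean ℝ
  refine ⟨min (ζ / 2) (1 / 2), lt_min (by linarith) (by norm_num), fun ψ hψ z hz => ?_⟩
  refine km_reduce z 1 ε (fun φ hφ => ?_) ψ hψ
  have hp := prodF_of_extreme M hφ
  have hc : φ ∈ CC := hφ.1
  obtain ⟨h1, h2⟩ := le_min_iff.1 hz
  have h3 := abs_le.1 h2
  have hρ : 0 < ‖z‖ := by linarith [h3.1]
  have hρ' : ((‖z‖ : ℝ) : ℂ) ≠ 0 := by exact_mod_cast hρ.ne'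
  have hn : ‖((‖z‖ : ℝ) : ℂ) - 1‖ = |‖z‖ - 1| := by
    rw [← Complex.ofReal_one, ← Complex.ofReal_sub, Complex.norm_real, Real.norm_eq_abs]
  rw [hc.2.1 z (‖z‖ : ℝ) (by simp)]
  have key : 1 - φ ((‖z‖ : ℝ) - 1) ≤ ε ^ 2 / 2 → |φ (‖z‖ : ℝ) - φ 1| ≤ ε := fun h4 =>
    abs_le_of_sq_le_sq' (by linarith [hc.1.sub_sq_le hc.2.2 (‖z‖ : ℝ) 1]) hε.le |> abs_le.2
  rcases le_or_gt (ε / 2) |φ 1| with h4 | h4
  · exact key (h M φ hc hp h4 _ (by rw [hn]; linarith))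
  rcases le_or_gt (ε / 2) |φ (‖z‖ : ℝ)| with h5 | h5
  · have h6 := h M _ (scale_mem hc (‖z‖ : ℝ)) (scale_prodF M hp (‖z‖ : ℝ)) (by simpa using h5)
      ((((‖z‖ : ℝ) : ℂ) - 1) / (‖z‖ : ℝ)) (by
        rw [norm_div, hn, Complex.norm_real, norm_norm, div_le_iff₀ hρ]
        nlinarith [h3.1])
    rw [mul_div_cancel₀ _ hρ'] at h6
    exact key h6
  · linarith [abs_sub (φ (‖z‖ : ℝ)) (φ 1)]

end Vale.Agent.P032
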