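import Vale.Agent.P032.Defs

open MeasureTheory

namespace Vale.Agent.P032

namespace WmX

theorem vol_real (r : ℝ) :
    volume.real (Metric.closedBall (0 : ℂ) r) = Real.pi * (max r 0) ^ 2 := by
  rw [measureReal_def, Complex.volume_closedBall, ENNReal.toReal_mul, ENNReal.toReal_pow,
    ENNReal.toReal_ofReal', ENNReal.coe_toReal, NNReal.coe_real_pi, mul_comm]

noncomputable def nu (δ : ℝ) : Measure ℂ :=
  (volume (Metric.closedBall (0 : ℂ) δ))⁻¹ • volume.restrict (Metric.closedBall (0 : ℂ) δ)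

theorem nu_prob {δ : ℝ} (hδ : 0 < δ) : IsProbabilityMeasure (nu δ) := by
  refine ⟨?_⟩
  rw [nu, Measure.smul_apply, Measure.restrict_apply_univ, smul_eq_mul]
  exact ENNReal.inv_mul_cancel (Metric.measure_closedBall_pos volume _ hδ).ne'
    MeasureTheory.measure_closedBall_lt_top.ne

theorem nu_ae (δ : ℝ) : ∀ᵐ a ∂(nu δ), ‖a‖ ≤ δ := by
  refine Measure.ae_smul_measure ?_ _
  filter_upwards [ae_restrict_mem measurableSet_closedBall] with a ha
  exact mem_closedBall_zero_iff.1 ha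

theorem DD_eq {δ : ℝ} (hδ : 0 < δ) (f : ℂ → ℝ) (z : ℂ) :
    DD δ f z = ∫ a, f (z + a) ∂(nu δ) := by
  have h1 := (measurePreserving_add_left (volume : Measure ℂ) z).setIntegral_preimage_emb
    (measurableEmbedding_addLeft z) f (Metric.closedBall z δ)
  have h2 : (fun a => z + a) ⁻¹' Metric.closedBall z δ = Metric.closedBall 0 δ := by
    ext a
    simp
  have h3 := vol_real δ
  rw [max_eq_left hδ.le, measureReal_def] at h3
  rw [h2] at h1
  rw [DD, nu, integral_smul_measure, ENNReal.toReal_inv, h3, h1, smul_eq_mul, div_eq_inv_mul]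

end WmX

/-- the measure on near unit pairs that represents the smoothed correlation -/
theorem exists_pair_measure (R δ : ℝ) (hδ : 0 < δ) (u : ℂ) (hu : ‖u‖ = 1) :
    ∃ W : Measure (ℂ × ℂ), IsFiniteMeasure W ∧ W.real Set.univ ≤ Real.pi * R ^ 2 ∧
      (∀ᵐ q ∂W, |‖q.1 - q.2‖ - 1| ≤ 2 * δ ∧ ‖q.1‖ ≤ |R| + δ + 1 ∧ ‖q.2‖ ≤ |R| + δ + 1) ∧
      ∀ {k : ℕ} (c : ℂ → Fin k), (∀ i, MeasurableSet {x | c x = i}) → ∀ i,
        ∫ z in Metric.closedBall (0 : ℂ) R, DD δ (ind c i) z * DD δ (ind c i) (z + u) ≤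
          W.real {q | c q.1 = c q.2} := by
  have := WmX.nu_prob hδ
  have hfin : IsFiniteMeasure (volume.restrict (Metric.closedBall (0 : ℂ) R)) :=
    isFiniteMeasure_restrict.2 MeasureTheory.measure_closedBall_lt_top.ne
  obtain ⟨Φ, hΦ⟩ : ∃ Φ : ℂ × ℂ × ℂ → ℂ × ℂ, Φ = fun p => (p.1 + p.2.1, p.1 + u + p.2.2) :=
    ⟨_, rfl⟩
  have hΦm : Measurable Φ := by
    rw [hΦ]
    fun_prop
  refine ⟨((volume.restrict (Metric.closedBall (0 : ℂ) R)).prod
    ((WmX.nu δ).prod (WmX.nu δ))).map Φ, inferInstance, ?_, ?_, fun c hc i => ?_⟩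
  · rw [map_measureReal_apply hΦm MeasurableSet.univ, Set.preimage_univ, ← Set.univ_prod_univ,
      measureReal_prod_prod, probReal_univ (μ := (WmX.nu δ).prod (WmX.nu δ)), mul_one, measureReal_restrict_apply_univ,
      WmX.vol_real]
    refine mul_le_mul_of_nonneg_left ?_ Real.pi_pos.le
    rcases le_total R 0 with h | h
    · rw [max_eq_right h]
      nlinarith [sq_nonneg R]
    · rw [max_eq_left h]
  · have hcl : IsClosed {q : ℂ × ℂ | |‖q.1 - q.2‖ - 1| ≤ 2 * δ ∧ ‖q.1‖ ≤ |R| + δ + 1 ∧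
        ‖q.2‖ ≤ |R| + δ + 1} :=
      (isClosed_le (by fun_prop) continuous_const).and
        ((isClosed_le (by fun_prop) continuous_const).and
          (isClosed_le (by fun_prop) continuous_const))
    rw [ae_map_iff hΦm.aemeasurable hcl.measurableSet]
    have h1 : ∀ᵐ z ∂(volume.restrict (Metric.closedBall (0 : ℂ) R)), ‖z‖ ≤ R := by
      filter_upwards [ae_restrict_mem measurableSet_closedBall] with a ha
      exact mem_closedBall_zero_iff.1 ha
    filter_upwards [Measure.quasiMeasurePreserving_fst.ae h1,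
      Measure.quasiMeasurePreserving_snd.ae (Measure.quasiMeasurePreserving_fst.ae (WmX.nu_ae δ)),
      Measure.quasiMeasurePreserving_snd.ae (Measure.quasiMeasurePreserving_snd.ae (WmX.nu_ae δ))]
      with p h2 h3 h4
    rw [hΦ]
    have h5 := le_abs_self R
    refine ⟨?_, ?_, ?_⟩
    · change |‖p.1 + p.2.1 - (p.1 + u + p.2.2)‖ - 1| ≤ 2 * δ
      have h6 := abs_norm_sub_norm_le (p.1 + p.2.1 - (p.1 + u + p.2.2)) (-u)
      rw [norm_neg, hu, show p.1 + p.2.1 - (p.1 + u + p.2.2) - -u = p.2.1 - p.2.2 by ring] at h6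
      linarith [norm_sub_le p.2.1 p.2.2]
    · change ‖p.1 + p.2.1‖ ≤ _
      linarith [norm_add_le p.1 p.2.1]
    · change ‖p.1 + u + p.2.2‖ ≤ _
      linarith [norm_add_le (p.1 + u) p.2.2, norm_add_le p.1 u]
  · have hm : MeasurableSet {q : ℂ × ℂ | c q.1 = c q.2} := by
      have h1 : {q : ℂ × ℂ | c q.1 = c q.2} =
          ⋃ j, Prod.fst ⁻¹' {x | c x = j} ∩ Prod.snd ⁻¹' {x | c x = j} := by
        ext q
        simp only [Set.mem_setOf_eq, Set.mem_iUnion, Set.mem_inter_iff, Set.mem_preimage]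
        exact ⟨fun h => ⟨c q.2, h, rfl⟩, fun ⟨j, h1, h2⟩ => h1.trans h2.symm⟩
      rw [h1]
      exact MeasurableSet.iUnion fun j => (measurable_fst (hc j)).inter (measurable_snd (hc j))
    have hf : Measurable (ind c i) := Measurable.ite (hc i) measurable_const measurable_const
    have hF : Measurable fun p : ℂ × ℂ × ℂ => ind c i (p.1 + p.2.1) * ind c i (p.1 + u + p.2.2) :=
      (hf.comp (by fun_prop)).mul (hf.comp (by fun_prop))
    have hle : ∀ p : ℂ × ℂ × ℂ, 0 ≤ ind c i (p.1 + p.2.1) * ind c i (p.1 + u + p.2.2) ∧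
        ind c i (p.1 + p.2.1) * ind c i (p.1 + u + p.2.2) ≤
          (Φ ⁻¹' {q : ℂ × ℂ | c q.1 = c q.2}).indicator (1 : ℂ × ℂ × ℂ → ℝ) p := by
      intro p
      have h0 : 0 ≤ (Φ ⁻¹' {q : ℂ × ℂ | c q.1 = c q.2}).indicator (1 : ℂ × ℂ × ℂ → ℝ) p :=
        Set.indicator_nonneg (fun _ _ => zero_le_one) p
      unfold ind
      by_cases h1 : c (p.1 + p.2.1) = i
      · by_cases h2 : c (p.1 + u + p.2.2) = i
        · have h3 : p ∈ Φ ⁻¹' {q : ℂ × ℂ | c q.1 = c q.2} := by
            rw [hΦ]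
            exact h1.trans h2.symm
          rw [if_pos h1, if_pos h2, Set.indicator_of_mem h3]
          simp
        · rw [if_neg h2, mul_zero]
          exact ⟨le_rfl, h0⟩
      · rw [if_neg h1, zero_mul]
        exact ⟨le_rfl, h0⟩
    have hI : Integrable ((Φ ⁻¹' {q : ℂ × ℂ | c q.1 = c q.2}).indicator (1 : ℂ × ℂ × ℂ → ℝ))
        ((volume.restrict (Metric.closedBall (0 : ℂ) R)).prod ((WmX.nu δ).prod (WmX.nu δ))) :=
      (integrable_const (1 : ℝ)).indicator (hΦm hm)
    have hI' := hI.mono' hF.aestronglyMeasurable (Filter.Eventually.of_forall fun p => by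
      rw [Real.norm_eq_abs, abs_of_nonneg (hle p).1]
      exact (hle p).2)
    have h1 : ∀ z, DD δ (ind c i) z * DD δ (ind c i) (z + u) =
        ∫ y, ind c i (z + y.1) * ind c i (z + u + y.2) ∂((WmX.nu δ).prod (WmX.nu δ)) := by
      intro z
      rw [WmX.DD_eq hδ, WmX.DD_eq hδ]
      exact (integral_prod_mul (fun a => ind c i (z + a)) (fun b => ind c i (z + u + b))).symm
    simp only [h1]
    rw [map_measureReal_apply hΦm hm, ← integral_indicator_one (hΦm hm)]
    exact (integral_prod _ hI').symm.le.trans (integral_mono hI' hI fun p => (hle p).2)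

end Vale.Agent.P032
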