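import Vale.Agent.P032.Corr
import Vale.Agent.P032.Pick
import Vale.Agent.P032.Wm
import Vale.Agent.P032.Rigid

open MeasureTheory

namespace Vale.Agent.P032

theorem pick_seq {k : ℕ} (c : ℂ → Fin k) (hc : Proper c) (u : ℕ → ℂ) (hu : ∀ j, ‖u j‖ = 1) :
    ∃ δ : ℕ → ℝ, (∀ j, 0 < δ j ∧ δ j ≤ 1 / (j + 1)) ∧ ∀ n : ℕ, ∃ c' : ℂ → Fin k,
      (∀ i, MeasurableSet {x | c' x = i}) ∧ ∀ j ≤ n, ∀ i,
        ∫ z in Metric.closedBall (0 : ℂ) j,
          DD (δ j) (ind c' i) z * DD (δ j) (ind c' i) (z + u j) ≤ 3 / 2 ^ j := by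
  obtain ⟨ω, hω, h1, h2⟩ := exists_corr c hc
  have hπ := Real.pi_pos
  have hε : ∀ j : ℕ, (0 : ℝ) < (1 / 4) ^ j / (Real.pi * j ^ 2 + 1) := fun j => by positivity
  choose ζ hζ h3 using fun j => rigid _ (hε j)
  have hδ : ∀ j : ℕ, 0 < min (ζ j / 6) (1 / (j + 1)) := fun j =>
    lt_min (by linarith [hζ j]) (by positivity)
  choose W hW hW1 hW2 hW3 using fun j : ℕ => exists_pair_measure j _ (hδ j) (u j) (hu j)
  refine ⟨fun j => min (ζ j / 6) (1 / (j + 1)), fun j => ⟨hδ j, min_le_right _ _⟩, fun n => ?_⟩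
  obtain ⟨c', hm, h4⟩ := pick_meas (k := k) ω h2 n (n + 2) (fun j => ζ j / 3) _
    (fun j => by linarith [hζ j]) (fun j => (hε j).le) (fun j z hz => by
      have h5 := h3 j ω hω z (by linarith)
      rw [h1, sub_zero] at h5
      exact (le_abs_self _).trans h5) W (fun j hj => by
      have h5 : (j : ℝ) ≤ n := by exact_mod_cast hj
      have h6 := min_le_left (ζ j / 6) (1 / (j + 1) : ℝ)
      have h7 : min (ζ j / 6) (1 / (j + 1) : ℝ) ≤ 1 := (min_le_right _ _).trans (by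
        rw [div_le_one (by positivity)]
        linarith [Nat.cast_nonneg (α := ℝ) j])
      filter_upwards [hW2 j] with q hq
      rw [Nat.abs_cast] at hq
      exact ⟨by linarith [hq.1], by linarith [hq.2.1], by linarith [hq.2.2]⟩)
  refine ⟨c', hm, fun j hj i => (hW3 j c' hm i).trans ?_⟩
  have h5 : ∑ j ∈ Finset.range (n + 1), 2 ^ j * ((1 / 4) ^ j / (Real.pi * j ^ 2 + 1) *
      (W j).real Set.univ) ≤ 2 := by
    refine le_trans (Finset.sum_le_sum fun j _ => ?_) (sum_geometric_two_le (n + 1))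
    have h6 : (1 / 2 : ℝ) ^ j = 2 ^ j * (1 / 4) ^ j := by
      rw [← mul_pow]
      norm_num
    rw [h6, div_mul_eq_mul_div, mul_div_assoc]
    gcongr
    refine mul_le_of_le_one_right (by positivity) ?_
    rw [div_le_one (by positivity)]
    linarith [hW1 j]
  have h6 := Finset.single_le_sum (s := Finset.range (n + 1))
    (f := fun j => 2 ^ j * (W j).real {q | c' q.1 = c' q.2})
    (fun j _ => by positivity) (Finset.mem_range.2 (Nat.lt_succ_of_le hj))
  rw [le_div_iff₀ (by positivity)]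
  linarith

end Vale.Agent.P032
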