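import Vale.Agent.P032.TFin
import Vale.Agent.P032.Eucl

namespace Vale.Agent.P032

theorem no_five_colouring (c : ℂ → Fin 5) : ¬ Proper c := by
  intro hc
  obtain ⟨O, ho, hf, hd⟩ := open_of_proper c hc
  obtain ⟨F, hF⟩ := exists_cfg O ho hf hd
  exact hF.false

theorem no_five_colouring_eucl (c : EuclideanSpace ℝ (Fin 2) → Fin 5) :
    ∃ x y, dist x y = 1 ∧ c x = c y := by
  by_contra hcon
  push Not at hcon
  apply no_five_colouring (fun z => c (Complex.orthonormalBasisOneI.repr z))
  intro x y hxy
  apply hcon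
  rw [LinearIsometryEquiv.dist_map, dist_eq_norm, hxy]

end Vale.Agent.P032
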