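import Vale.Agent.P032.Defs

open MeasureTheory Filter Topology

namespace Vale.Agent.P032

theorem SwapX.ae_shift {P : ℂ → Prop} (h : ∀ᵐ z : ℂ, P z) (u : ℂ) : ∀ᵐ g : ℂ, P (g + u) :=
  (measurePreserving_add_right (volume : Measure ℂ) u).quasiMeasurePreserving.ae h

theorem ae_circle {P : ℂ → Prop} (h : ∀ᵐ z : ℂ, P z) : ∀ᵐ g : ℂ, ∀ᵐ a : ℝ, P (g + ee a) := by
  obtain ⟨N, hs, hm, h0⟩ := exists_measurable_superset_of_null (ae_iff.1 h)
  have hN : ∀ᵐ z : ℂ, z ∉ N := measure_eq_zero_iff_ae_notMem.1 h0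
  have m : Measurable fun x : ℂ × ℝ => x.1 + ee x.2 :=
    measurable_fst.add (continuous_ee.measurable.comp measurable_snd)
  have key : ∀ᵐ g : ℂ, ∀ᵐ a : ℝ, g + ee a ∉ N := by
    rw [Measure.ae_ae_comm (p := fun (g : ℂ) (a : ℝ) => g + ee a ∉ N) (m hm.compl)]
    exact Eventually.of_forall fun a => SwapX.ae_shift hN (ee a)
  filter_upwards [key] with g hg
  filter_upwards [hg] with a ha
  by_contra hc
  exact ha (hs hc)

theorem Ind.ae_circle {A : Set ℂ} (hA : MeasurableSet A) (h : Ind A) :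
    ∀ᵐ g : ℂ, ∀ᵐ a : ℝ, ¬ (g ∈ A ∧ g + ee a ∈ A) := by
  have m : Measurable fun x : ℂ × ℝ => x.1 + ee x.2 :=
    measurable_fst.add (continuous_ee.measurable.comp measurable_snd)
  rw [Measure.ae_ae_comm (p := fun (g : ℂ) (a : ℝ) => ¬ (g ∈ A ∧ g + ee a ∈ A))
    ((measurable_fst hA).inter (m hA)).compl]
  exact Eventually.of_forall fun a => h (ee a) (norm_ee a)

theorem Ind.ae_two {A : Set ℂ} (hA : MeasurableSet A) (h : Ind A) :
    ∀ᵐ g : ℂ, ∀ᵐ p : ℝ × ℝ, ¬ (g + ee p.1 ∈ A ∧ g + ee p.1 + ee p.2 ∈ A) := by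
  have m : Measurable fun x : ℂ × (ℝ × ℝ) => x.1 + ee x.2.1 :=
    measurable_fst.add (continuous_ee.measurable.comp measurable_snd.fst)
  have m' : Measurable fun x : ℂ × (ℝ × ℝ) => x.1 + ee x.2.1 + ee x.2.2 :=
    m.add (continuous_ee.measurable.comp measurable_snd.snd)
  rw [Measure.ae_ae_comm
    (p := fun (g : ℂ) (p : ℝ × ℝ) => ¬ (g + ee p.1 ∈ A ∧ g + ee p.1 + ee p.2 ∈ A))
    ((m hA).inter (m' hA)).compl]
  exact Eventually.of_forall fun p => SwapX.ae_shift (h (ee p.2) (norm_ee _)) (ee p.1)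

end Vale.Agent.P032
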