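import Vale.Agent.P032.CGeo

open Filter Topology Real

namespace Vale.Agent.P032

theorem TLogX.norm_zz (l : Fin 3) : ‖zz l‖ = 1 := norm_ee _

theorem TLogX.mul_conj (l : Fin 3) : zz l * (starRingEnd ℂ) (zz l) = 1 := by
  rw [Complex.mul_conj, Complex.normSq_eq_norm_sq, TLogX.norm_zz]
  simp

theorem TLogX.re_zz {k l : Fin 3} (h : k ≠ l) : (zz k * (starRingEnd ℂ) (zz l)).re = -1 / 2 := by
  have c1 : cos (2 * π / 3) = -1 / 2 := by
    rw [show 2 * π / 3 = π - π / 3 by ring, cos_pi_sub, cos_pi_div_three]; norm_num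
  have c2 : cos (4 * π / 3) = -1 / 2 := by
    rw [show 4 * π / 3 = π / 3 + π by ring, cos_add_pi, cos_pi_div_three]; norm_num
  have e : (zz k * (starRingEnd ℂ) (zz l)).re = cos (2 * π * (k : ℕ) / 3 - 2 * π * (l : ℕ) / 3) := by
    rw [Complex.mul_re, Complex.conj_re, Complex.conj_im, zz, zz, ee_re, ee_re, ee_im, ee_im,
      cos_sub]
    ring
  rw [e]
  fin_cases k <;> fin_cases l <;> first
    | exact absurd rfl h
    | (rw [← c1]; congr 1; push_cast; ring1)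
    | (rw [← c2]; congr 1; push_cast; ring1)
    | (rw [← c1, ← cos_neg]; congr 1; push_cast; ring1)
    | (rw [← c2, ← cos_neg]; congr 1; push_cast; ring1)

theorem TLogX.key (d : Fin 3 → ℝ) (hd0 : ∀ k, 0 ≤ d k) (l : Fin 3) (hl : d l = 0)
    (hne : ∃ k, d k ≠ 0) :
    0 < (-(∑ k, (d k : ℂ) * zz k) * (starRingEnd ℂ) (zz l)).re ∧
      ‖∑ k, (d k : ℂ) * zz k‖ ≤ 2 * (-(∑ k, (d k : ℂ) * zz k) * (starRingEnd ℂ) (zz l)).re := by
  have e : (-(∑ k, (d k : ℂ) * zz k) * (starRingEnd ℂ) (zz l)).re = (∑ k, d k) / 2 := by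
    rw [neg_mul, Finset.sum_mul, Complex.neg_re, Complex.re_sum, Finset.sum_div,
      ← Finset.sum_neg_distrib]
    refine Finset.sum_congr rfl fun k _ => ?_
    rw [mul_assoc, Complex.re_ofReal_mul]
    by_cases h : k = l
    · rw [h, hl]; simp
    · rw [TLogX.re_zz h]; ring
  obtain ⟨k, hk⟩ := hne
  have p : 0 < ∑ k, d k :=
    Finset.sum_pos' (fun k _ => hd0 k) ⟨k, Finset.mem_univ _, (hd0 k).lt_of_ne' hk⟩
  rw [e]
  refine ⟨by linarith, (norm_sum_le _ _).trans (le_of_eq ?_)⟩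
  rw [mul_div_cancel₀ _ two_ne_zero]
  refine Finset.sum_congr rfl fun k _ => ?_
  rw [norm_mul, TLogX.norm_zz, mul_one, Complex.norm_real, Real.norm_eq_abs, abs_of_nonneg (hd0 k)]

theorem TLogX.exp_n {n : ℤ} {l : Fin 3} (h : n % 3 = ((l : ℕ) : ℤ)) :
    Complex.exp (((π + 2 * π * n / 3 : ℝ) : ℂ) * Complex.I) = -zz l := by
  have e : (n : ℝ) = 3 * (n / 3 : ℤ) + (l : ℕ) := by
    have : n = 3 * (n / 3) + ((l : ℕ) : ℤ) := by omega
    exact_mod_cast this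
  have e2 : ((π + 2 * π * n / 3 : ℝ) : ℂ) * Complex.I = π * Complex.I +
      ((n / 3 : ℤ) * (2 * π * Complex.I) + ((2 * π * (l : ℕ) / 3 : ℝ) : ℂ) * Complex.I) := by
    rw [e]
    generalize n / 3 = q
    push_cast
    ring
  rw [e2, Complex.exp_add, Complex.exp_add, Complex.exp_pi_mul_I,
    Complex.exp_int_mul_two_pi_mul_I, one_mul, zz, ee]
  ring

/-- local logarithm -/
theorem exists_loc_log (A : Set ℂ) (hA : IsClosed A) (C : Fin 5 → Set ℂ) (hC : ∀ a, IsClosed (C a))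
    (hcov : ∀ z ∈ A, ∃ a, z ∈ C a) (l : Fin 5 → Fin 3) (n : Fin 5 → ℤ)
    (hn : ∀ a, n a % 3 = ((l a : ℕ) : ℤ)) (d : Fin 3 → ℂ → ℝ) (hd : ∀ k, Continuous (d k))
    (hd0 : ∀ k z, 0 ≤ d k z) (hz : ∀ z ∈ A, ∀ a, z ∈ C a → d (l a) z = 0)
    (hadj : ∀ z ∈ A, ∀ a b, z ∈ C a → z ∈ C b → |n a - n b| ≤ 1)
    (hne : ∀ z ∈ A, ∃ k, d k z ≠ 0) :
    ∃ L : ℂ → ℂ, ContinuousOn L A ∧ ∀ z ∈ A, Complex.exp (L z) = ∑ k, (d k z : ℂ) * zz k := by
  obtain ⟨w, hw⟩ : ∃ w : Fin 5 → ℂ → ℂ,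
      w = fun a z => -(∑ k, (d k z : ℂ) * zz k) * (starRingEnd ℂ) (zz (l a)) := ⟨_, rfl⟩
  have w1 : ∀ a, Continuous (w a) := fun a => by
    rw [hw]
    exact (continuous_finsetSum _ fun k _ =>
      (Complex.continuous_ofReal.comp (hd k)).mul continuous_const).neg.mul continuous_const
  have w2 : ∀ z ∈ A, ∀ a, z ∈ C a → 0 < (w a z).re := fun z h1 a h2 => by
    rw [hw]
    exact (TLogX.key (fun k => d k z) (fun k => hd0 k z) (l a) (hz z h1 a h2) (hne z h1)).1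
  obtain ⟨M, hM⟩ : ∃ M : Fin 5 → ℂ → ℂ, M = fun a z =>
      Complex.log (w a z) + ((π + 2 * π * n a / 3 : ℝ) : ℂ) * Complex.I := ⟨_, rfl⟩
  have m1 : ∀ z ∈ A, ∀ a, z ∈ C a → Complex.exp (M a z) = ∑ k, (d k z : ℂ) * zz k := by
    intro z h1 a h2
    have h3 : w a z ≠ 0 := fun h => by simpa [h] using w2 z h1 a h2
    rw [hM]
    simp only
    rw [Complex.exp_add, Complex.exp_log h3, TLogX.exp_n (hn a), hw]
    linear_combination (∑ k, (d k z : ℂ) * zz k) * TLogX.mul_conj (l a)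
  have m2 : ∀ z ∈ A, ∀ a b, z ∈ C a → z ∈ C b → M a z = M b z := by
    intro z h1 a b h2 h3
    obtain ⟨k, hk⟩ := Complex.exp_eq_exp_iff_exists_int.mp
      ((m1 z h1 a h2).trans (m1 z h1 b h3).symm)
    have e := congrArg Complex.im hk
    rw [hM] at e
    simp only [Complex.add_im, Complex.log_im, Complex.mul_I_im, Complex.ofReal_re] at e
    have e' : ((k : ℂ) * (2 * π * Complex.I)).im = k * (2 * π) := by simp
    rw [e'] at e
    have a1 := abs_lt.mp (Complex.abs_arg_lt_pi_div_two_iff.mpr (Or.inl (w2 z h1 a h2)))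
    have a2 := abs_lt.mp (Complex.abs_arg_lt_pi_div_two_iff.mpr (Or.inl (w2 z h1 b h3)))
    have a3 := abs_le.mp (hadj z h1 a b h2 h3)
    have a4 : (-1 : ℝ) ≤ n a - n b := by exact_mod_cast a3.1
    have a5 : (n a - n b : ℝ) ≤ 1 := by exact_mod_cast a3.2
    have a6 := mul_le_mul_of_nonneg_left a4 pi_pos.le
    have a7 := mul_le_mul_of_nonneg_left a5 pi_pos.le
    have b1 : (k : ℝ) < 1 := lt_of_mul_lt_mul_right (by linarith [pi_pos]) two_pi_pos.le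
    have b2 : (-1 : ℝ) < k := lt_of_mul_lt_mul_right (by linarith [pi_pos]) two_pi_pos.le
    have b3 : k < 1 := by exact_mod_cast b1
    have b4 : -1 < k := by exact_mod_cast b2
    have b5 : k = 0 := by omega
    rw [hk, b5]
    simp
  have hch : ∀ z, ∃ a, z ∈ A → z ∈ C a := fun z => by
    by_cases h : z ∈ A
    · obtain ⟨a, ha⟩ := hcov z h
      exact ⟨a, fun _ => ha⟩
    · exact ⟨0, fun h' => absurd h' h⟩
  choose c hc using hch
  refine ⟨fun z => M (c z) z, ?_, fun z h => m1 z h _ (hc z h)⟩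
  have e : A = ⋃ a, A ∩ C a := by
    ext z
    simp only [Set.mem_iUnion, Set.mem_inter_iff]
    exact ⟨fun h => ⟨c z, h, hc z h⟩, fun ⟨_, h, _⟩ => h⟩
  rw [e]
  refine (locallyFinite_of_finite _).continuousOn_iUnion (fun a => hA.inter (hC a)) fun a => ?_
  refine ContinuousOn.congr (f := M a) ?_ fun z h => m2 z h.1 _ _ (hc z h.1) h.2
  rw [hM]
  exact ((w1 a).continuousOn.clog fun z h => Or.inl (w2 z h.1 a h.2)).add continuousOn_const

theorem sum_ne_zero (d : Fin 3 → ℝ) (hd0 : ∀ k, 0 ≤ d k) (l : Fin 3) (hl : d l = 0)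
    (hne : ∃ k, d k ≠ 0) : ∑ k, (d k : ℂ) * zz k ≠ 0 := fun h => by
  simpa [h] using (TLogX.key d hd0 l hl hne).1

theorem boundary_slit (d : Fin 3 → ℝ) (hd0 : ∀ k, 0 ≤ d k) (l : Fin 3) (hl : d l = 0)
    (hne : ∃ k, d k ≠ 0) (z : ℂ) (hz : ‖z‖ = 3) (hzl : -3 / 2 < (z * (starRingEnd ℂ) (zz l)).re) :
    -(∑ k, (d k : ℂ) * zz k) / z ∈ Complex.slitPlane := by
  obtain ⟨h1, h2⟩ := TLogX.key d hd0 l hl hne
  obtain ⟨G, hG⟩ : ∃ G, G = ∑ k, (d k : ℂ) * zz k := ⟨_, rfl⟩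
  rw [← hG] at h1 h2 ⊢
  by_contra hc
  rw [Complex.mem_slitPlane_iff, not_or, not_lt, not_not] at hc
  have z0 : z ≠ 0 := fun h => by simp [h] at hz
  obtain ⟨t, ht⟩ : ∃ t : ℝ, t = (-G / z).re := ⟨_, rfl⟩
  have e : -G = t * z := by
    have : -G / z = t := Complex.ext (by simp [ht]) (by rw [hc.2]; simp)
    rw [← this]
    field_simp
  have t0 : t ≤ 0 := ht ▸ hc.1
  have n1 : ‖G‖ = -t * 3 := by
    rw [← norm_neg, e, norm_mul, hz, Complex.norm_real, Real.norm_eq_abs, abs_of_nonpos t0]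
  rw [e, mul_assoc, Complex.re_ofReal_mul] at h1 h2
  rw [n1] at h2
  rcases t0.eq_or_lt with h | h
  · simp [h] at h1
  · nlinarith

end Vale.Agent.P032
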