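import Vale.Agent.P032.CDefs

open Filter Topology Real

namespace Vale.Agent.P032

theorem tpart_clopen {X : Type*} [TopologicalSpace X] [T2Space X] [CompactSpace X] {x : X}
    {U : Set X} (hU : IsOpen U) (h : connectedComponent x ⊆ U) :
    ∃ s : Set X, IsClopen s ∧ x ∈ s ∧ s ⊆ U := by
  rw [connectedComponent_eq_iInter_isClopen] at h
  let N := { s : Set X // IsClopen s ∧ x ∈ s }
  have : Nonempty N := ⟨⟨Set.univ, isClopen_univ, Set.mem_univ x⟩⟩
  have hNcl : ∀ s : N, IsClosed s.val := fun s => s.property.1.1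
  have hdir : Directed GE.ge fun s : N => s.val := by
    rintro ⟨s, hs, hxs⟩ ⟨t, ht, hxt⟩
    exact ⟨⟨s ∩ t, hs.inter ht, ⟨hxs, hxt⟩⟩, Set.inter_subset_left, Set.inter_subset_right⟩
  obtain ⟨⟨s, hs, hs'⟩, hs''⟩ : ∃ s : N, s.val ⊆ U :=
    exists_subset_nhds_of_compactSpace hdir hNcl fun y hy => hU.mem_nhds (h hy)
  exact ⟨s, hs, hs', hs''⟩

theorem tpart_gen {X : Type*} [TopologicalSpace X] [T2Space X] [CompactSpace X] {ι : Type}
    [Fintype ι] (U : ι → Set X) (hU : ∀ i, IsOpen (U i))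
    (h : ∀ x, ∃ i, connectedComponent x ⊆ U i) :
    ∃ E : ι → Set X, (∀ i, IsClosed (E i)) ∧ (∀ i, E i ⊆ U i) ∧
      (∀ i j, i ≠ j → Disjoint (E i) (E j)) ∧ ∀ x, ∃ i, x ∈ E i := by
  classical
  choose k hk using h
  choose V hV hxV hVU using fun x => tpart_clopen (hU (k x)) (hk x)
  obtain ⟨t, ht⟩ := isCompact_univ.elim_finite_subcover V (fun x => (hV x).isOpen)
    (fun x _ => Set.mem_iUnion.2 ⟨x, hxV x⟩)
  let W : ι → Set X := fun i => ⋃ x ∈ t.filter (fun x => k x = i), V x
  have hW : ∀ i, IsClopen (W i) := fun i => isClopen_biUnion_finset fun x _ => hV x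
  have hWU : ∀ i, W i ⊆ U i := by
    intro i y hy
    obtain ⟨x, hx, hy⟩ := Set.mem_iUnion₂.1 hy
    rw [← (Finset.mem_filter.1 hx).2]
    exact hVU x hy
  have hcov : ∀ y, ∃ i, y ∈ W i := by
    intro y
    obtain ⟨x, hx, hy⟩ := Set.mem_iUnion₂.1 (ht (Set.mem_univ y))
    exact ⟨k x, Set.mem_iUnion₂.2 ⟨x, Finset.mem_filter.2 ⟨hx, rfl⟩, hy⟩⟩
  let e := Fintype.equivFin ι
  refine ⟨fun i => W i \ ⋃ j, ⋃ (_ : e j < e i), W j, fun i => ?_,
    fun i => Set.diff_subset.trans (hWU i), fun i j hij => ?_, fun y => ?_⟩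
  · exact (hW i).isClosed.sdiff (isOpen_iUnion fun j => isOpen_iUnion fun _ => (hW j).isOpen)
  · rw [Set.disjoint_left]
    intro y h1 h2
    rcases lt_or_gt_of_ne (e.injective.ne hij) with hl | hl
    · exact h2.2 (Set.mem_iUnion₂.2 ⟨i, hl, h1.1⟩)
    · exact h1.2 (Set.mem_iUnion₂.2 ⟨j, hl, h2.1⟩)
  · obtain ⟨i, hi, hm⟩ := Set.exists_min_image {i | y ∈ W i} e (Set.toFinite _) (hcov y)
    refine ⟨i, hi, fun hy => ?_⟩
    obtain ⟨j, hj, hy⟩ := Set.mem_iUnion₂.1 hy
    exact absurd (hm j hy) (not_le.2 hj)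

/-- partition of a compact set subordinate to an open family containing its components -/
theorem exists_partition {ι : Type} [Fintype ι] (K : Set ℂ) (hK : IsCompact K) (U : ι → Set ℂ)
    (hU : ∀ i, IsOpen (U i)) (h : ∀ z ∈ K, ∃ i, connectedComponentIn K z ⊆ U i) :
    ∃ E : ι → Set ℂ, (∀ i, IsCompact (E i)) ∧ (∀ i, E i ⊆ U i) ∧
      (∀ i j, i ≠ j → Disjoint (E i) (E j)) ∧ ⋃ i, E i = K := by
  haveI : CompactSpace K := isCompact_iff_compactSpace.1 hK
  obtain ⟨E, h1, h2, h3, h4⟩ := tpart_gen (X := K) (fun i => Subtype.val ⁻¹' U i)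
    (fun i => (hU i).preimage continuous_subtype_val) (fun x => by
      obtain ⟨i, hi⟩ := h x x.2
      rw [connectedComponentIn_eq_image x.2] at hi
      exact ⟨i, Set.image_subset_iff.1 hi⟩)
  refine ⟨fun i => Subtype.val '' E i, fun i => (h1 i).isCompact.image continuous_subtype_val,
    fun i => Set.image_subset_iff.2 (h2 i), fun i j hij =>
      (Set.disjoint_image_iff Subtype.val_injective).2 (h3 i j hij), ?_⟩
  apply Set.Subset.antisymm
  · exact Set.iUnion_subset fun i => by rintro _ ⟨x, -, rfl⟩; exact x.2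
  · intro z hz
    obtain ⟨i, hi⟩ := h4 ⟨z, hz⟩
    exact Set.mem_iUnion.2 ⟨i, ⟨z, hz⟩, hi, rfl⟩

theorem tot_union {X Y : Set ℂ} (hX : IsClosed X) (hY : IsClosed Y)
    (h1 : IsTotallyDisconnected X) (h2 : IsTotallyDisconnected Y) :
    IsTotallyDisconnected (X ∪ Y) := by
  intro t ht hc
  have hK : closure t ⊆ X ∪ Y := closure_minimal ht (hX.union hY)
  refine Set.Subsingleton.anti ?_ (subset_closure (s := t))
  have hKc := hc.closure
  generalize hKe : closure t = K at hK hKc
  have hcl : IsClosed K := hKe ▸ isClosed_closure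
  by_cases hx : K ⊆ X
  · exact h1 K hx hKc
  obtain ⟨z, hz, hzX⟩ := Set.not_subset.1 hx
  obtain ⟨r, hr, hb⟩ := Metric.nhds_basis_closedBall.mem_iff.1 (hX.isOpen_compl.mem_nhds hzX)
  have hCY : K ∩ Metric.closedBall z r ⊆ Y := fun w hw => (hK hw.1).resolve_left (hb hw.2)
  obtain ⟨E, e1, e2, e3, e4⟩ := exists_partition (ι := Bool) (K ∩ Metric.closedBall z r)
    ((isCompact_closedBall z r).inter_left hcl) (fun b => if b then Metric.ball z r else {z}ᶜ)
    (fun b => by cases b <;> simp [Metric.isOpen_ball]) (fun w hw => by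
      have hs := h2 _ ((connectedComponentIn_subset _ w).trans hCY)
        isPreconnected_connectedComponentIn
      have hm := mem_connectedComponentIn hw
      by_cases hwz : w = z
      · refine ⟨true, fun y hy => ?_⟩
        rw [hs hy hm, hwz]
        simpa using hr
      · refine ⟨false, fun y hy => ?_⟩
        rw [hs hy hm]
        simpa using hwz)
  have hsub : ∀ b, E b ⊆ K ∩ Metric.closedBall z r := fun b => e4 ▸ Set.subset_iUnion E b
  have key := (isPreconnected_iff_subset_of_disjoint_closed.1 hKc) (E true)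
    (E false ∪ (Metric.ball z r)ᶜ) (e1 true).isClosed
    ((e1 false).isClosed.union Metric.isOpen_ball.isClosed_compl) ?_ ?_
  · rcases key with key | key
    · exact h2 K (key.trans ((hsub true).trans hCY)) hKc
    · rcases key hz with hh | hh
      · simpa using e2 false hh
      · exact (hh (Metric.mem_ball_self hr)).elim
  · intro w hw
    by_cases hwb : w ∈ Metric.ball z r
    · have : w ∈ ⋃ i, E i := e4.symm ▸ ⟨hw, Metric.ball_subset_closedBall hwb⟩
      obtain ⟨b, hb⟩ := Set.mem_iUnion.1 this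
      cases b
      · exact Or.inr (Or.inl hb)
      · exact Or.inl hb
    · exact Or.inr (Or.inr hwb)
  · rw [Set.eq_empty_iff_forall_notMem]
    rintro w ⟨-, hw1, hw2 | hw2⟩
    · exact Set.disjoint_left.1 (e3 true false (by simp)) hw1 hw2
    · exact hw2 (by simpa using e2 true hw1)

theorem tot_iUnion {ι : Type} [Fintype ι] (X : ι → Set ℂ) (hX : ∀ i, IsClosed (X i))
    (h1 : ∀ i, IsTotallyDisconnected (X i)) : IsTotallyDisconnected (⋃ i, X i) := by
  classical
  have key : ∀ s : Finset ι, IsTotallyDisconnected (⋃ i ∈ s, X i) := by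
    intro s
    induction s using Finset.induction_on with
    | empty => simpa using isTotallyDisconnected_empty
    | insert a s _ ih =>
      rw [Finset.set_biUnion_insert]
      exact tot_union (hX a) (isClosed_biUnion_finset fun i _ => hX i) (h1 a) ih
  simpa using key Finset.univ

end Vale.Agent.P032
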