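import Vale.Agent.P032.CBas
import Vale.Agent.P032.TPart
import Vale.Agent.P032.TLog

open Filter Topology Real

namespace Vale.Agent.P032

variable {F : Fin 5 → Set ℂ}

theorem TLabX.coords (z : ℂ) :
    (z * (starRingEnd ℂ) (zz 0)).re = z.re ∧
      (z * (starRingEnd ℂ) (zz 1)).re = -z.re / 2 + √3 / 2 * z.im ∧
      (z * (starRingEnd ℂ) (zz 2)).re = -z.re / 2 - √3 / 2 * z.im := by
  have c1 : cos (2 * π / 3) = -1 / 2 := by
    rw [show 2 * π / 3 = π - π / 3 by ring, cos_pi_sub, cos_pi_div_three]; norm_num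
  have c2 : cos (4 * π / 3) = -1 / 2 := by
    rw [show 4 * π / 3 = π / 3 + π by ring, cos_add_pi, cos_pi_div_three]; norm_num
  have s1 : sin (2 * π / 3) = √3 / 2 := by
    rw [show 2 * π / 3 = π - π / 3 by ring, sin_pi_sub, sin_pi_div_three]
  have s2 : sin (4 * π / 3) = -(√3 / 2) := by
    rw [show 4 * π / 3 = π / 3 + π by ring, sin_add_pi, sin_pi_div_three]
  have e : ∀ t : ℝ, (z * (starRingEnd ℂ) (ee t)).re = z.re * cos t + z.im * sin t := fun t => by
    rw [Complex.mul_re, Complex.conj_re, Complex.conj_im, ee_re, ee_im]; ring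
  have a0 : zz 0 = ee 0 := by rw [zz]; congr 1; simp
  have a1 : zz 1 = ee (2 * π / 3) := by rw [zz]; congr 1; simp
  have a2 : zz 2 = ee (4 * π / 3) := by
    rw [zz]; congr 1
    have : ((2 : Fin 3) : ℕ) = 2 := rfl
    rw [this]; push_cast; ring
  rw [a0, a1, a2, e, e, e, c1, c2, s1, s2, cos_zero, sin_zero]
  refine ⟨by ring, by ring, by ring⟩

theorem TLabX.exists_nonneg (z : ℂ) : ∃ l, 0 ≤ (z * (starRingEnd ℂ) (zz l)).re := by
  obtain ⟨h0, h1, h2⟩ := TLabX.coords z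
  by_contra hc
  push Not at hc
  have := hc 0
  have := hc 1
  have := hc 2
  linarith

theorem TLabX.norm_lt (z : ℂ) (hz : ‖z‖ ≤ 3)
    (h : ∀ l, -3 / 2 < (z * (starRingEnd ℂ) (zz l)).re) : ‖z‖ < 3 := by
  obtain ⟨h0, h1, h2⟩ := TLabX.coords z
  have a0 := h 0
  have a1 := h 1
  have a2 := h 2
  rw [h0] at a0
  rw [h1] at a1
  rw [h2] at a2
  refine lt_of_le_of_ne hz fun he => ?_
  have e : z.re ^ 2 + z.im ^ 2 = 9 := by
    have := Complex.sq_norm z
    rw [he, Complex.normSq_apply] at this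
    nlinarith
  have s3 : √3 ^ 2 = (3 : ℝ) := Real.sq_sqrt (by norm_num)
  obtain ⟨w, hw⟩ : ∃ w, w = √3 / 2 * z.im := ⟨_, rfl⟩
  have hw2 : w ^ 2 = 3 / 4 * z.im ^ 2 := by rw [hw, mul_pow, div_pow, s3]; ring
  rw [← hw] at a1 a2
  have p01 := mul_pos (sub_pos.2 a0) (sub_pos.2 a1)
  have p02 := mul_pos (sub_pos.2 a0) (sub_pos.2 a2)
  have p12 := mul_pos (sub_pos.2 a1) (sub_pos.2 a2)
  nlinarith

theorem Cfg.exists_labels (h : Cfg F) :
    ∃ E : Fin 5 → Fin 3 → Set ℂ, (∀ i l, IsCompact (E i l)) ∧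
      (∀ i l l', l ≠ l' → Disjoint (E i l) (E i l')) ∧
      (∀ i, ⋃ l, E i l = F i ∩ Metric.closedBall 0 3) ∧
      (∀ i l, ∀ z ∈ E i l, -3 / 2 < (z * (starRingEnd ℂ) (zz l)).re) ∧
      (∀ l, (⋃ i, E i l).Nonempty) ∧
      ∀ z, (∀ l, z ∈ ⋃ i, E i l) → ‖z‖ < 3 ∧ z ∈ X3 F := by
  have hU : ∀ l : Fin 3, IsOpen {z : ℂ | -3 / 2 < (z * (starRingEnd ℂ) (zz l)).re} := fun l =>
    isOpen_lt continuous_const (Complex.continuous_re.comp (continuous_id.mul continuous_const))
  have key : ∀ i, ∃ E : Fin 3 → Set ℂ, (∀ l, IsCompact (E l)) ∧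
      (∀ l, E l ⊆ {z : ℂ | -3 / 2 < (z * (starRingEnd ℂ) (zz l)).re}) ∧
      (∀ l l', l ≠ l' → Disjoint (E l) (E l')) ∧ ⋃ l, E l = F i ∩ Metric.closedBall 0 3 := by
    intro i
    refine exists_partition _ ((isCompact_closedBall 0 3).inter_left (h.closed i)) _ hU ?_
    intro z hz
    obtain ⟨l, hl⟩ := TLabX.exists_nonneg z
    refine ⟨l, fun q hq => ?_⟩
    have hd : ‖z - q‖ ≤ 1 := by
      by_contra hc
      push Not at hc
      exact h.shadow (isPreconnected_connectedComponentIn)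
        ((connectedComponentIn_subset _ _).trans Set.inter_subset_left)
        (mem_connectedComponentIn hz) hq (by simp) hc hz.1
    have e : (q * (starRingEnd ℂ) (zz l)).re =
        (z * (starRingEnd ℂ) (zz l)).re - ((z - q) * (starRingEnd ℂ) (zz l)).re := by
      rw [← Complex.sub_re]; congr 1; ring
    have b : ((z - q) * (starRingEnd ℂ) (zz l)).re ≤ 1 := by
      refine (Complex.re_le_norm _).trans ?_
      rw [norm_mul, Complex.norm_conj, TLogX.norm_zz, mul_one]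
      exact hd
    show -3 / 2 < (q * (starRingEnd ℂ) (zz l)).re
    linarith
  choose E h1 h2 h3 h4 using key
  refine ⟨E, h1, h3, h4, fun i l z hz => h2 i l hz, fun l => ?_, fun z hz => ?_⟩
  · obtain ⟨i, hi⟩ := h.cover (3 * zz l)
    have hm : 3 * zz l ∈ F i ∩ Metric.closedBall 0 3 := by
      refine ⟨hi, ?_⟩
      rw [mem_closedBall_zero_iff, norm_mul, TLogX.norm_zz]
      simp
    rw [← h4 i] at hm
    obtain ⟨l', hl'⟩ := Set.mem_iUnion.1 hm
    by_cases hll : l = l'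
    · rw [← hll] at hl'
      exact ⟨_, Set.mem_iUnion.2 ⟨i, hl'⟩⟩
    · have t : -3 / 2 < (3 * zz l * (starRingEnd ℂ) (zz l')).re := h2 i l' hl'
      have e : (3 * zz l * (starRingEnd ℂ) (zz l')).re =
          3 * (zz l * (starRingEnd ℂ) (zz l')).re := by
        rw [mul_assoc, show (3 : ℂ) = ((3 : ℝ) : ℂ) by simp, Complex.re_ofReal_mul]
      rw [e, TLogX.re_zz hll] at t
      linarith
  · choose a ha using fun l => Set.mem_iUnion.1 (hz l)
    have hm : ∀ l, z ∈ F (a l) ∩ Metric.closedBall 0 3 := fun l => by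
      rw [← h4]; exact Set.mem_iUnion.2 ⟨l, ha l⟩
    have hne : ∀ l l', l ≠ l' → a l ≠ a l' := fun l l' hl he =>
      Set.disjoint_left.1 (h3 (a l) l l' hl) (ha l) (he ▸ ha l')
    refine ⟨TLabX.norm_lt z (mem_closedBall_zero_iff.1 (hm 0).2) fun l => h2 _ l (ha l), ?_⟩
    exact ⟨a 0, a 1, a 2, hne _ _ (by decide), hne _ _ (by decide), hne _ _ (by decide),
      (hm 0).1, (hm 1).1, (hm 2).1⟩

/-- separated neighbourhoods of the pieces of a totally disconnected compact set -/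
theorem exists_sep_nhds (K : Set ℂ) (hK : IsCompact K) (ht : IsTotallyDisconnected K)
    (r : ℂ → ℝ) (hr : ∀ y ∈ K, 0 < r y) :
    ∃ (T : Finset ℂ) (V : T → Set ℂ), (∀ y : T, (y : ℂ) ∈ K) ∧ (∀ y, IsOpen (V y)) ∧
      (∀ y, closure (V y) ⊆ Metric.ball (y : ℂ) (r y)) ∧
      (∀ y y', y ≠ y' → Disjoint (closure (V y)) (closure (V y'))) ∧
      ∀ z ∈ K, ∃ y, z ∈ V y := by
  obtain ⟨T, hT, hc⟩ := hK.elim_nhds_subcover (fun y => Metric.ball y (r y))
    (fun y hy => Metric.ball_mem_nhds y (hr y hy))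
  obtain ⟨E, e1, e2, e3, e4⟩ := exists_partition (ι := T) K hK
    (fun y => Metric.ball (y : ℂ) (r y)) (fun _ => Metric.isOpen_ball) (by
      intro z hz
      obtain ⟨y, hy, hzy⟩ := Set.mem_iUnion₂.1 (hc hz)
      refine ⟨⟨y, hy⟩, fun q hq => ?_⟩
      have := ht _ (connectedComponentIn_subset K z) isPreconnected_connectedComponentIn hq
        (mem_connectedComponentIn hz)
      rw [this]
      exact hzy)
  have a1 : ∀ᶠ δ in 𝓝[>] (0 : ℝ), ∀ y : T,
      Metric.cthickening δ (E y) ⊆ Metric.ball (y : ℂ) (r y) := by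
    refine eventually_all.2 fun y => ?_
    obtain ⟨d, hd, hs⟩ := (e1 y).exists_cthickening_subset_open Metric.isOpen_ball (e2 y)
    filter_upwards [Ioc_mem_nhdsGT hd] with δ hδ
    exact (Metric.cthickening_mono hδ.2 _).trans hs
  have a2 : ∀ᶠ δ in 𝓝[>] (0 : ℝ), ∀ y y' : T, y ≠ y' →
      Disjoint (Metric.cthickening δ (E y)) (Metric.cthickening δ (E y')) := by
    refine eventually_all.2 fun y => eventually_all.2 fun y' => ?_
    by_cases hy : y = y'
    · exact Eventually.of_forall fun _ hn => absurd hy hn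
    obtain ⟨d, hd, hs⟩ := (e3 y y' hy).exists_cthickenings (e1 y) (e1 y').isClosed
    filter_upwards [Ioc_mem_nhdsGT hd] with δ hδ _
    exact hs.mono (Metric.cthickening_mono hδ.2 _) (Metric.cthickening_mono hδ.2 _)
  obtain ⟨δ, ⟨d1, d2⟩, d3⟩ := ((a1.and a2).and self_mem_nhdsWithin).exists
  refine ⟨T, fun y => Metric.thickening δ (E y), fun y => hT y y.2,
    fun _ => Metric.isOpen_thickening,
    fun y => (Metric.closure_thickening_subset_cthickening _ _).trans (d1 y),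
    fun y y' hy => (d2 y y' hy).mono (Metric.closure_thickening_subset_cthickening _ _)
      (Metric.closure_thickening_subset_cthickening _ _), fun z hz => ?_⟩
  rw [← e4] at hz
  obtain ⟨y, hy⟩ := Set.mem_iUnion.1 hz
  exact ⟨y, Metric.self_subset_thickening d3 _ hy⟩

end Vale.Agent.P032
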