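import Vale.Agent.P032.CDefs

namespace Vale.Agent.P032

namespace TPotAux

theorem bij {a b c d e : Fin 5} (ab : a ≠ b) (ac : a ≠ c) (ad : a ≠ d) (ae : a ≠ e) (bc : b ≠ c)
    (bd : b ≠ d) (be : b ≠ e) (cd : c ≠ d) (ce : c ≠ e) (de : d ≠ e) :
    Function.Bijective ![a, b, c, d, e] := by
  refine Finite.injective_iff_bijective.1 fun i j h => ?_
  have := ab.symm; have := ac.symm; have := ad.symm; have := ae.symm; have := bc.symm
  have := bd.symm; have := be.symm; have := cd.symm; have := ce.symm; have := de.symm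
  fin_cases i <;> fin_cases j <;> first | rfl | (exfalso; simp at h; contradiction)

theorem fifth : ∀ a b c d : Fin 5, ∃ x, a ≠ x ∧ b ≠ x ∧ c ≠ x ∧ d ≠ x := by decide

theorem pot {α : Type} [DecidableEq α] (E : α → α → Prop) (hs : ∀ a b, E a b → E b a)
    (hi : ∀ a, ¬ E a a)
    (hd : ∀ t : Finset α, t.Nonempty → ∃ a ∈ t, ∃ p, ∀ b ∈ t, E a b → b = p) (l : α → ℤ)
    (t : Finset α) :
    ∃ n : α → ℤ, (∀ a, n a % 3 = l a % 3) ∧ ∀ a ∈ t, ∀ b ∈ t, E a b → |n a - n b| ≤ 1 := by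
  induction t using Finset.strongInduction with
  | H t ih =>
    rcases t.eq_empty_or_nonempty with rfl | ht
    · exact ⟨l, fun _ => rfl, by simp⟩
    obtain ⟨a, ha, p, hp⟩ := hd t ht
    obtain ⟨n, h1, h2⟩ := ih (t.erase a) (Finset.erase_ssubset ha)
    have key : ∀ b ∈ t, E a b →
        |Function.update n a (n p + (l a - n p + 1) % 3 - 1) a -
          Function.update n a (n p + (l a - n p + 1) % 3 - 1) b| ≤ 1 := by
      intro b hb hab
      have hne : b ≠ a := fun h => hi a (h ▸ hab)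
      rw [Function.update_self, Function.update_of_ne hne, hp b hb hab, abs_le]
      omega
    refine ⟨Function.update n a (n p + (l a - n p + 1) % 3 - 1), fun b => ?_,
      fun b hb c hc hbc => ?_⟩
    · by_cases h : b = a
      · rw [h, Function.update_self]; omega
      · rw [Function.update_of_ne h, h1]
    · by_cases h : b = a
      · subst h; exact key c hc hbc
      by_cases h' : c = a
      · subst h'; rw [abs_sub_comm]; exact key b hb (hs _ _ hbc)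
      rw [Function.update_of_ne h, Function.update_of_ne h']
      exact h2 b (Finset.mem_erase.2 ⟨h, hb⟩) c (Finset.mem_erase.2 ⟨h', hc⟩) hbc

end TPotAux
open TPotAux

/-- integer potentials on a forest with five vertices -/
theorem exists_potential (E : Fin 5 → Fin 5 → Prop) (hs : ∀ a b, E a b → E b a)
    (hi : ∀ a, ¬ E a a) (h3 : ∀ a b c, E a b → E b c → E c a → False)
    (h4 : ∀ σ : Fin 5 → Fin 5, Function.Bijective σ → E (σ 0) (σ 1) → E (σ 1) (σ 2) →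
      E (σ 2) (σ 3) → E (σ 3) (σ 0) → False)
    (h5 : ∀ σ : Fin 5 → Fin 5, Function.Bijective σ → E (σ 0) (σ 1) → E (σ 1) (σ 2) →
      E (σ 2) (σ 3) → E (σ 3) (σ 4) → E (σ 4) (σ 0) → False)
    (l : Fin 5 → Fin 3) :
    ∃ n : Fin 5 → ℤ, (∀ a, n a % 3 = ((l a : ℕ) : ℤ)) ∧ ∀ a b, E a b → |n a - n b| ≤ 1 := by
  have ne : ∀ {a b}, E a b → a ≠ b := fun {a b} h e => hi a (e ▸ h)
  have c4 : ∀ a b c d, E a b → E b c → E c d → E d a → a ≠ c → b ≠ d → False := by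
    intro a b c d h1 h2 h3 h4' ac bd
    obtain ⟨x, ax, bx, cx, dx⟩ := fifth a b c d
    exact h4 _ (bij (ne h1) ac (ne h4').symm ax (ne h2) bd bx (ne h3) cx dx) h1 h2 h3 h4'
  suffices hd : ∀ t : Finset (Fin 5), t.Nonempty → ∃ a ∈ t, ∃ p, ∀ b ∈ t, E a b → b = p by
    obtain ⟨n, h1, h2⟩ := pot E hs hi hd (fun a => ((l a : ℕ) : ℤ)) Finset.univ
    refine ⟨n, fun a => ?_, fun a b => h2 a (Finset.mem_univ _) b (Finset.mem_univ _)⟩
    have := h1 a
    have := (l a).2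
    omega
  intro t ht
  by_contra H
  push Not at H
  obtain ⟨a0, m0⟩ := ht
  obtain ⟨a1, m1, e1, -⟩ := H a0 m0 a0
  obtain ⟨a2, m2, e2, n2⟩ := H a1 m1 a0
  obtain ⟨a3, m3, e3, n3⟩ := H a2 m2 a1
  obtain ⟨a4, m4, e4, n4⟩ := H a3 m3 a2
  obtain ⟨a5, -, e5, n5⟩ := H a4 m4 a3
  have n03 : a0 ≠ a3 := fun h => h3 _ _ _ e1 e2 (h ▸ e3)
  have n14 : a1 ≠ a4 := fun h => h3 _ _ _ e2 e3 (h ▸ e4)
  have n25 : a2 ≠ a5 := fun h => h3 _ _ _ e3 e4 (h ▸ e5)
  have n04 : a0 ≠ a4 := fun h => c4 _ _ _ _ e1 e2 e3 (h ▸ e4) n2.symm n3.symm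
  have n15 : a1 ≠ a5 := fun h => c4 _ _ _ _ e2 e3 e4 (h ▸ e5) n3.symm n4.symm
  have hb := bij (ne e1) n2.symm n03 n04 (ne e2) n3.symm n14 (ne e3) n4.symm (ne e4)
  have n05 : a0 ≠ a5 := fun h => h5 _ hb e1 e2 e3 e4 (h ▸ e5)
  obtain ⟨i, hi'⟩ := hb.2 a5
  fin_cases i
  · exact n05 hi'
  · exact n15 hi'
  · exact n25 hi'
  · exact n5 hi'.symm
  · exact ne e5 hi'

end Vale.Agent.P032
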