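import Vale.Agent.P032.CDefs

open Filter Topology Real

namespace Vale.Agent.P032

theorem TRetX.exists_log (G : ℂ → ℂ) (hG : Continuous G) (h0 : ∀ z, G z ≠ 0) :
    ∃ L : ℂ → ℂ, Continuous L ∧ ∀ z, Complex.exp (L z) = G z := by
  have hs : IsSimplyConnected (Set.univ : Set ℂ) := by
    have : ContractibleSpace (Set.univ : Set ℂ) := convex_univ.contractibleSpace ⟨0, trivial⟩
    exact SimplyConnectedSpace.ofContractible _
  obtain ⟨L, h1, h2⟩ := Complex.exists_continuousOn_eqOn_exp_comp hs isOpen_univ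
    hG.continuousOn (by rintro ⟨z, -, hz⟩; exact h0 z hz)
  exact ⟨L, continuousOn_univ.mp h1, fun z => h2 (Set.mem_univ z)⟩

theorem no_retraction (R : ℝ) (hR : 0 < R) (g : ℂ → ℂ) (hg : Continuous g)
    (h0 : ∀ z, ‖z‖ ≤ R → g z ≠ 0) (h1 : ∀ z, ‖z‖ = R → -g z / z ∈ Complex.slitPlane) : False := by
  have hm : ∀ z : ℂ, 0 < max R ‖z‖ := fun z => hR.trans_le (le_max_left _ _)
  have hρ : Continuous fun z : ℂ => (R / max R ‖z‖) • z :=
    (continuous_const.div (continuous_const.max continuous_norm) fun z => (hm z).ne').smul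
      continuous_id
  obtain ⟨L, hL, hexp⟩ := TRetX.exists_log (fun z => -g ((R / max R ‖z‖) • z))
    (hg.comp hρ).neg fun z => neg_ne_zero.mpr (h0 _ (by
      rw [norm_smul, Real.norm_eq_abs, abs_of_pos (div_pos hR (hm z)), div_mul_eq_mul_div,
        div_le_iff₀ (hm z)]
      exact mul_le_mul_of_nonneg_left (le_max_right _ _) hR.le))
  have hn : ∀ t, ‖(R : ℂ) * ee t‖ = R := fun t => by
    rw [norm_mul, norm_ee, mul_one, Complex.norm_real, Real.norm_eq_abs, abs_of_pos hR]
  have hc : Continuous fun t => (R : ℂ) * ee t := continuous_const.mul continuous_ee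
  have hne : ∀ t, (R : ℂ) * ee t ≠ 0 := fun t h => by
    have := hn t
    rw [h, norm_zero] at this
    exact hR.ne this
  obtain ⟨φ, hφ⟩ : ∃ φ : ℝ → ℂ, φ = fun t => L (R * ee t) -
      Complex.log (-g (R * ee t) / (R * ee t)) - Complex.log R - t * Complex.I := ⟨_, rfl⟩
  have c1 : Continuous φ := by
    rw [hφ]
    refine (((hL.comp hc).sub (Continuous.clog ((hg.comp hc).neg.div hc hne)
      fun t => h1 _ (hn t))).sub continuous_const).sub (by fun_prop)
  have c2 : ∀ t, ∃ k : ℤ, (φ t).im = k * (2 * π) := by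
    intro t
    have hR' : (R : ℂ) ≠ 0 := by exact_mod_cast hR.ne'
    have e0 : ee t ≠ 0 := right_ne_zero_of_mul (hne t)
    have g0 := h0 _ (hn t).le
    have e : Complex.exp (φ t) = 1 := by
      rw [hφ]
      simp only [Complex.exp_sub]
      rw [hexp, Complex.exp_log (Complex.slitPlane_ne_zero (h1 _ (hn t))), Complex.exp_log hR',
        hn, max_self, div_self hR.ne', one_smul]
      change _ / ee t = 1
      field_simp
    obtain ⟨k, hk⟩ := Complex.exp_eq_one_iff.mp e
    exact ⟨k, by rw [hk]; simp⟩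
  have c3 : (φ (2 * π)).im = (φ 0).im - 2 * π := by
    have e : ee (2 * π) = ee 0 := by
      rw [two_mul, ee_add, ee_pi, ee_zero]; norm_num
    rw [hφ]
    simp only [e, Complex.sub_im]
    simp
  obtain ⟨t, ht⟩ := intermediate_value_univ (2 * π) 0 (Complex.continuous_im.comp c1)
    (show (φ 0).im - π ∈ Set.Icc (φ (2 * π)).im (φ 0).im from
      ⟨by rw [c3]; linarith [pi_pos], by linarith [pi_pos]⟩)
  obtain ⟨k, hk⟩ := c2 t
  obtain ⟨k', hk'⟩ := c2 0
  have e1 : (φ t).im = (φ 0).im - π := ht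
  rw [hk, hk'] at e1
  have e2 : (2 * k : ℝ) = 2 * k' - 1 := by
    apply mul_right_cancel₀ pi_pos.ne'
    linarith
  have e3 : 2 * k = 2 * k' - 1 := by exact_mod_cast e2
  omega

/-- removing zeros inside finitely many separated open sets -/
theorem fix_zeros {ι : Type} [Fintype ι] (g : ℂ → ℂ) (hg : Continuous g) (V : ι → Set ℂ)
    (hV : ∀ i, IsOpen (V i)) (hd : ∀ i j, i ≠ j → Disjoint (closure (V i)) (closure (V j)))
    (hL : ∀ i, ∃ L : ℂ → ℂ, ContinuousOn L (frontier (V i)) ∧
      ∀ z ∈ frontier (V i), Complex.exp (L z) = g z) :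
    ∃ g' : ℂ → ℂ, Continuous g' ∧ (∀ z, (∀ i, z ∉ V i) → g' z = g z) ∧
      ∀ i, ∀ z ∈ V i, g' z ≠ 0 := by
  classical
  have hL' : ∀ i, ∃ L : ℂ → ℂ, Continuous L ∧ ∀ z ∈ frontier (V i), Complex.exp (L z) = g z := by
    intro i
    obtain ⟨L, h1, h2⟩ := hL i
    obtain ⟨L', h3⟩ := ContinuousMap.exists_restrict_eq (s := frontier (V i)) isClosed_frontier
      ⟨fun z => L z, continuousOn_iff_continuous_domRestrict.mp h1⟩
    refine ⟨L', L'.continuous, fun z hz => ?_⟩
    rw [← h2 z hz]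
    exact congrArg Complex.exp (DFunLike.congr_fun h3 ⟨z, hz⟩)
  choose L h1 h2 using hL'
  refine ⟨fun z => g z + ∑ i, (V i).indicator (fun z => Complex.exp (L i z) - g z) z,
    hg.add (continuous_finsetSum _ fun i _ => continuous_indicator
      (fun z hz => sub_eq_zero.mpr (h2 i z hz)) ((h1 i).cexp.sub hg).continuousOn),
    fun z hz => ?_, fun i z hz => ?_⟩
  · simp only
    rw [Finset.sum_eq_zero fun i _ => Set.indicator_of_notMem (hz i) _, add_zero]
  · simp only
    rw [Finset.sum_eq_single i (fun j _ hj => Set.indicator_of_notMem (fun h =>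
      Set.disjoint_left.mp (hd j i hj) (subset_closure h) (subset_closure hz)) _) (by simp),
      Set.indicator_of_mem hz, add_sub_cancel]
    exact Complex.exp_ne_zero _

end Vale.Agent.P032
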