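import Vale.Agent.P032.CFive
import Vale.Agent.P032.CF4
import Vale.Agent.P032.TPot
import Vale.Agent.P032.TLog
import Vale.Agent.P032.TRet
import Vale.Agent.P032.TLab

open Filter Topology Real

namespace Vale.Agent.P032

variable {F : Fin 5 → Set ℂ}

theorem Cfg.X3_closed_tot (h : Cfg F) : IsClosed (X3 F) ∧ IsTotallyDisconnected (X3 F) := by
  have e : X3 F = ⋃ p : {p : Fin 5 × Fin 5 × Fin 5 // p.1 ≠ p.2.1 ∧ p.1 ≠ p.2.2 ∧ p.2.1 ≠ p.2.2},
      F p.1.1 ∩ F p.1.2.1 ∩ F p.1.2.2 := by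
    ext z
    simp only [X3, Set.mem_ofPred_eq, Set.mem_iUnion, Set.mem_inter_iff]
    constructor
    · rintro ⟨a, b, c, h1, h2, h3, h4, h5, h6⟩
      exact ⟨⟨(a, b, c), h1, h2, h3⟩, ⟨h4, h5⟩, h6⟩
    · rintro ⟨⟨⟨a, b, c⟩, h1, h2, h3⟩, ⟨h4, h5⟩, h6⟩
      exact ⟨a, b, c, h1, h2, h3, h4, h5, h6⟩
  rw [e]
  exact ⟨isClosed_iUnion_of_finite fun p => ((h.closed _).inter (h.closed _)).inter (h.closed _),
    tot_iUnion _ (fun p => ((h.closed _).inter (h.closed _)).inter (h.closed _))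
      fun p => h.triple_tot p.2.1 p.2.2.1 p.2.2.2⟩

/-- local structure near a point -/
theorem Cfg.local_data (h : Cfg F) (E : Fin 5 → Fin 3 → Set ℂ) (hE : ∀ i l, IsCompact (E i l))
    (hd : ∀ i l l', l ≠ l' → Disjoint (E i l) (E i l'))
    (hu : ∀ i, ⋃ l, E i l = F i ∩ Metric.closedBall 0 3) (y : ℂ) (hy : ‖y‖ < 3) :
    ∃ (r : ℝ) (l : Fin 5 → Fin 3) (n : Fin 5 → ℤ), 0 < r ∧ Metric.ball y r ⊆ Metric.ball 0 3 ∧
      (∀ a, n a % 3 = ((l a : ℕ) : ℤ)) ∧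
      (∀ z ∈ Metric.ball y r, ∀ a, z ∈ F a → z ∈ E a (l a)) ∧
      ∀ z ∈ Metric.ball y r, z ∉ X3 F → ∀ a b, z ∈ F a → z ∈ F b → |n a - n b| ≤ 1 := by
  have hl : ∀ a, ∃ l, ∀ l', y ∈ E a l' → l' = l := by
    intro a
    by_cases h1 : ∃ l, y ∈ E a l
    · obtain ⟨l, hl⟩ := h1
      refine ⟨l, fun l' hl' => ?_⟩
      by_contra hne
      exact Set.disjoint_left.mp (hd a l' l hne) hl' hl
    · exact ⟨0, fun l' hl' => absurd ⟨l', hl'⟩ h1⟩
  choose l hl using hl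
  obtain ⟨n, hn1, hn2⟩ := exists_potential (Adj F y) (fun a b hab => hab.symm)
    (fun a ha => (ha.mem h).1 rfl) (fun a b c h1 h2 h3 => h.no_triangle y h1 h2 h3)
    (fun σ hσ h1 h2 h3 h4 => h.no_four y σ hσ h1 h2 h3 h4)
    (fun σ hσ h1 h2 h3 h4 h5 => h.no_five y σ hσ h1 h2 h3 h4 h5) l
  have e1 : ∀ᶠ z in 𝓝 y, z ∈ Metric.ball (0 : ℂ) 3 :=
    Metric.isOpen_ball.mem_nhds (mem_ball_zero_iff.mpr hy)
  have e2 : ∀ᶠ z in 𝓝 y, ∀ a l', z ∈ E a l' → y ∈ E a l' := by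
    refine eventually_all.mpr fun a => eventually_all.mpr fun l' => ?_
    by_cases h1 : y ∈ E a l'
    · exact Eventually.of_forall fun _ _ => h1
    · filter_upwards [(hE a l').isClosed.isOpen_compl.mem_nhds h1] with z hz h2
      exact absurd h2 hz
  have e3 : ∀ᶠ z in 𝓝 y, ∀ a b, z ∈ Pur F a b → Adj F y a b := by
    refine eventually_all.mpr fun a => eventually_all.mpr fun b => ?_
    by_cases h1 : Adj F y a b
    · exact Eventually.of_forall fun _ _ => h1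
    · filter_upwards [isClosed_closure.isOpen_compl.mem_nhds h1] with z hz h2
      exact absurd (subset_closure h2) hz
  obtain ⟨r, hr, hb⟩ := Metric.mem_nhds_iff.mp (e1.and (e2.and e3))
  refine ⟨r, l, n, hr, fun z hz => (hb hz).1, hn1, fun z hz a ha => ?_, fun z hz hx a b ha hb' => ?_⟩
  · have h1 : z ∈ ⋃ l, E a l := by
      rw [hu]
      exact ⟨ha, Metric.ball_subset_closedBall (hb hz).1⟩
    obtain ⟨l', hl'⟩ := Set.mem_iUnion.mp h1
    rw [← hl a l' ((hb hz).2.1 a l' hl')]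
    exact hl'
  · by_cases hab : a = b
    · simp [hab]
    · exact hn2 a b ((hb hz).2.2 a b ⟨hab, ha, hb', fun c h1 h2 h3 =>
        hx ⟨a, b, c, hab, h1.symm, h2.symm, ha, hb', h3⟩⟩)

theorem Cfg.false (h : Cfg F) : False := by
  classical
  obtain ⟨E, E1, E2, E3, E4, E5, E6⟩ := h.exists_labels
  obtain ⟨x1, x2⟩ := h.X3_closed_tot
  have cl : ∀ l, IsClosed (⋃ i, E i l) := fun l =>
    isClosed_iUnion_of_finite fun i => (E1 i l).isClosed
  obtain ⟨d, hd⟩ : ∃ d : Fin 3 → ℂ → ℝ, d = fun l z => Metric.infDist z (⋃ i, E i l) := ⟨_, rfl⟩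
  have d1 : ∀ l, Continuous (d l) := fun l => by rw [hd]; exact Metric.continuous_infDist_pt _
  have d2 : ∀ l z, 0 ≤ d l z := fun l z => by rw [hd]; exact Metric.infDist_nonneg
  have d3 : ∀ l z, d l z = 0 ↔ z ∈ ⋃ i, E i l := fun l z => by
    rw [hd]; exact ((cl l).mem_iff_infDist_zero (E5 l)).symm
  obtain ⟨Z, hZ⟩ : ∃ Z : Set ℂ, Z = {z | ∀ l, z ∈ ⋃ i, E i l} := ⟨_, rfl⟩
  have z1 : IsClosed Z := by
    rw [hZ, Set.ofPred_forall]
    exact isClosed_iInter cl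
  have z2 : ∀ z ∈ Z, ‖z‖ < 3 ∧ z ∈ X3 F := fun z hz => E6 z (by rwa [hZ] at hz)
  have z3 : ∀ z, z ∉ Z → ∃ k, d k z ≠ 0 := fun z hz => by
    by_contra hc
    push Not at hc
    exact hz (by rw [hZ]; exact fun l => (d3 l z).mp (hc l))
  have z4 : ∀ z : ℂ, ‖z‖ ≤ 3 → ∃ i l, z ∈ E i l := fun z hz => by
    obtain ⟨i, hi⟩ := h.cover z
    have h1 : z ∈ ⋃ l, E i l := by
      rw [E3]
      exact ⟨hi, mem_closedBall_zero_iff.mpr hz⟩
    obtain ⟨l, hl⟩ := Set.mem_iUnion.mp h1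
    exact ⟨i, l, hl⟩
  have hr : ∀ y : ℂ, ∃ r, 0 < r ∧ (y ∉ Z → Metric.ball y r ⊆ Zᶜ) ∧ (y ∈ Z →
      ∃ (l : Fin 5 → Fin 3) (n : Fin 5 → ℤ), Metric.ball y r ⊆ Metric.ball 0 3 ∧
      (∀ a, n a % 3 = ((l a : ℕ) : ℤ)) ∧
      (∀ z ∈ Metric.ball y r, ∀ a, z ∈ F a → z ∈ E a (l a)) ∧
      ∀ z ∈ Metric.ball y r, z ∉ X3 F → ∀ a b, z ∈ F a → z ∈ F b → |n a - n b| ≤ 1) := by
    intro y
    by_cases hy : y ∈ Z
    · obtain ⟨r, l, n, r0, k⟩ := h.local_data E E1 E2 E3 y (z2 y hy).1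
      exact ⟨r, r0, fun h' => absurd hy h', fun _ => ⟨l, n, k⟩⟩
    · obtain ⟨r, r0, k⟩ := Metric.isOpen_iff.mp z1.isOpen_compl y hy
      exact ⟨r, r0, fun _ => k, fun h' => absurd h' hy⟩
  choose r r0 r1 r2 using hr
  obtain ⟨T, V, -, V1, V2, V3, V4⟩ := exists_sep_nhds (X3 F ∩ Metric.closedBall 0 3)
    ((isCompact_closedBall 0 3).inter_left x1)
    (fun t ht => x2 t (ht.trans Set.inter_subset_left)) r
    (fun y _ => r0 y)
  have gc : Continuous fun z => ∑ k, (d k z : ℂ) * zz k := continuous_finsetSum _ fun k _ =>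
    (Complex.continuous_ofReal.comp (d1 k)).mul continuous_const
  obtain ⟨g, g1, g2, g3⟩ := fix_zeros (ι := {y : T // (y : ℂ) ∈ Z}) _ gc (fun y => V y.1)
    (fun y => V1 y.1) (fun y y' hne => V3 _ _ fun e => hne (Subtype.ext e)) (by
      rintro ⟨y, hy⟩
      obtain ⟨l, n, k1, k2, k3, k4⟩ := r2 y hy
      have f1 : ∀ z ∈ frontier (V y), z ∈ Metric.ball (y : ℂ) (r y) := fun z hz =>
        V2 y (frontier_subset_closure hz)
      have f2 : ∀ z ∈ frontier (V y), z ∉ X3 F := fun z hz hx => by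
        obtain ⟨y', hy'⟩ := V4 z ⟨hx, Metric.ball_subset_closedBall (k1 (f1 z hz))⟩
        by_cases e : y' = y
        · rw [e] at hy'
          exact hz.2 (by rwa [(V1 y).interior_eq])
        · exact Set.disjoint_left.mp (V3 _ _ e) (subset_closure hy') (frontier_subset_closure hz)
      exact exists_loc_log _ isClosed_frontier F h.closed (fun z _ => h.cover z) l n k2 d d1 d2
        (fun z hz a ha => (d3 _ _).mpr (Set.mem_iUnion.mpr ⟨a, k3 z (f1 z hz) a ha⟩))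
        (fun z hz => k4 z (f1 z hz) (f2 z hz)) fun z hz => z3 z fun h' => f2 z hz (z2 z h').2)
  refine no_retraction 3 (by norm_num) g g1 (fun z hz => ?_) fun z hz => ?_
  · by_cases hv : ∃ y : {y : T // (y : ℂ) ∈ Z}, z ∈ V y.1
    · obtain ⟨y, hy⟩ := hv
      exact g3 y z hy
    · push Not at hv
      obtain ⟨i, l, hl⟩ := z4 z hz
      rw [g2 z hv]
      refine sum_ne_zero (fun k => d k z) (fun k => d2 k z) l
        ((d3 _ _).mpr (Set.mem_iUnion.mpr ⟨i, hl⟩)) (z3 z fun hz' => ?_)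
      obtain ⟨y, hy⟩ := V4 z ⟨(z2 z hz').2, mem_closedBall_zero_iff.mpr hz⟩
      by_cases hy' : (y : ℂ) ∈ Z
      · exact hv ⟨y, hy'⟩ hy
      · exact r1 y hy' (V2 y (subset_closure hy)) hz'
  · obtain ⟨i, l, hl⟩ := z4 z hz.le
    rw [g2 z fun y hy => by
      obtain ⟨_, _, k1, -⟩ := r2 y.1 y.2
      exact (mem_ball_zero_iff.mp (k1 (V2 _ (subset_closure hy)))).ne hz]
    exact boundary_slit (fun k => d k z) (fun k => d2 k z) l
      ((d3 _ _).mpr (Set.mem_iUnion.mpr ⟨i, hl⟩)) (z3 z fun hz' => (z2 z hz').1.ne hz) z hz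
      (E4 i l z hl)

end Vale.Agent.P032
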