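import Vale.Agent.P032.Defs

open MeasureTheory Filter Topology

namespace Vale.Agent.P032

namespace WLAux

/-- inverse weight -/
noncomputable def iw (x : ℂ) : ℝ := (1 + ‖x‖) ^ 2

theorem iw_pos (x : ℂ) : 0 < iw x := by unfold iw; positivity

theorem iw_cont : Continuous iw := by unfold iw; fun_prop

theorem w_mem : MemLp (fun x => (iw x)⁻¹) 2 (volume : Measure ℂ) := by
  have hc : Continuous fun x => (iw x)⁻¹ := iw_cont.inv₀ fun x => (iw_pos x).ne'
  rw [memLp_two_iff_integrable_sq hc.aestronglyMeasurable]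
  have h := integrable_one_add_norm (E := ℂ) (μ := volume) (r := 4)
    (by rw [Complex.finrank_real_complex]; norm_num)
  refine h.congr (Eventually.of_forall fun x => ?_)
  have h1 : (0 : ℝ) < 1 + ‖x‖ := by positivity
  simp only [iw]
  rw [Real.rpow_neg h1.le, show (4 : ℝ) = ((4 : ℕ) : ℝ) by norm_num, Real.rpow_natCast,
    inv_pow, ← pow_mul]

theorem G_mem {F : ℂ → ℝ} (hm : Measurable F) (h0 : ∀ x, 0 ≤ F x) (h1 : ∀ x, F x ≤ 1) :
    MemLp (fun x => F x * (iw x)⁻¹) 2 (volume : Measure ℂ) := by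
  refine w_mem.of_le (hm.mul iw_cont.measurable.inv).aestronglyMeasurable
    (Eventually.of_forall fun x => ?_)
  rw [norm_mul]
  refine mul_le_of_le_one_left (norm_nonneg _) ?_
  rw [Real.norm_eq_abs, abs_of_nonneg (h0 x)]; exact h1 x

theorem g_mem {S : Set ℂ} (hS : MeasurableSet S) (hb : Bornology.IsBounded S) :
    MemLp (S.indicator iw) 2 (volume : Measure ℂ) := by
  rw [memLp_indicator_iff_restrict hS]
  have : IsFiniteMeasure ((volume : Measure ℂ).restrict S) :=
    isFiniteMeasure_restrict.2 hb.measure_lt_top.ne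
  obtain ⟨R, hR⟩ := hb.subset_closedBall 0
  refine MemLp.of_bound iw_cont.aestronglyMeasurable ((1 + R) ^ 2) ?_
  filter_upwards [ae_restrict_mem hS] with x hx
  have h1 : ‖x‖ ≤ R := by simpa using hR hx
  rw [Real.norm_eq_abs, abs_of_pos (iw_pos x)]
  unfold iw
  gcongr

/-- an unclipped weak limit -/
theorem exists_pre (U : Ultrafilter ℕ) (F : ℕ → ℂ → ℝ) (hm : ∀ n, Measurable (F n))
    (h0 : ∀ n x, 0 ≤ F n x) (h1 : ∀ n x, F n x ≤ 1) :
    ∃ f : ℂ → ℝ, Measurable f ∧
      ∀ S : Set ℂ, MeasurableSet S → Bornology.IsBounded S → IntegrableOn f S ∧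
        Tendsto (fun n => ∫ x in S, F n x) U (𝓝 (∫ x in S, f x)) := by
  let G : ℕ → Lp ℝ 2 (volume : Measure ℂ) := fun n => (G_mem (hm n) (h0 n) (h1 n)).toLp _
  have hG : ∀ n, ‖G n‖ ≤ ‖w_mem.toLp _‖ := by
    intro n
    refine Lp.norm_le_norm_of_ae_le ?_
    filter_upwards [(G_mem (hm n) (h0 n) (h1 n)).coeFn_toLp, w_mem.coeFn_toLp] with x hx hx'
    rw [hx, hx', norm_mul]
    refine mul_le_of_le_one_left (norm_nonneg _) ?_
    rw [Real.norm_eq_abs, abs_of_nonneg (h0 n x)]; exact h1 n x
  let T : ℕ → WeakDual ℝ (Lp ℝ 2 (volume : Measure ℂ)) := fun n =>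
    StrongDual.toWeakDual (InnerProductSpace.toDual ℝ _ (G n))
  have hK := WeakDual.isCompact_closedBall (𝕜 := ℝ) (E := Lp ℝ 2 (volume : Measure ℂ)) 0
    ‖w_mem.toLp _‖
  obtain ⟨φ, -, hφ⟩ := hK.ultrafilter_le_nhds (U.map T) (by
    rw [le_principal_iff, Ultrafilter.coe_map, mem_map]
    refine univ_mem' fun n => ?_
    simp only [Set.mem_preimage, T, mem_closedBall_zero_iff]
    have : WeakDual.toStrongDual (StrongDual.toWeakDual (InnerProductSpace.toDual ℝ _ (G n))) =
        InnerProductSpace.toDual ℝ _ (G n) := rfl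
    rw [this, LinearIsometryEquiv.norm_map]
    exact hG n)
  let f0 : Lp ℝ 2 (volume : Measure ℂ) :=
    (InnerProductSpace.toDual ℝ _).symm (WeakDual.toStrongDual φ)
  have hlim : ∀ g : Lp ℝ 2 (volume : Measure ℂ),
      Tendsto (fun n => inner ℝ (G n) g) U (𝓝 (inner ℝ f0 g)) := by
    intro g
    have h2 : Tendsto T U (𝓝 φ) := hφ
    have h3 := ((WeakDual.eval_continuous g).tendsto φ).comp h2
    have h4 : inner ℝ f0 g = φ g := InnerProductSpace.toDual_symm_apply
    rw [h4]
    exact h3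
  have hf0 := Lp.stronglyMeasurable f0
  refine ⟨fun x => f0 x * iw x, hf0.measurable.mul iw_cont.measurable, fun S hS hb => ?_⟩
  have hg := g_mem hS hb
  constructor
  · have h5 : Integrable (fun x => f0 x * S.indicator iw x) volume :=
      (Lp.memLp f0).integrable_mul hg
    rw [← integrable_indicator_iff hS]
    refine h5.congr (Eventually.of_forall fun x => ?_)
    by_cases hx : x ∈ S <;> simp [hx]
  · have h6 := hlim (hg.toLp _)
    have e1 : ∀ n, inner ℝ (G n) (hg.toLp _) = ∫ x in S, F n x := by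
      intro n
      rw [L2.inner_def, ← integral_indicator hS]
      refine integral_congr_ae ?_
      filter_upwards [(G_mem (hm n) (h0 n) (h1 n)).coeFn_toLp, hg.coeFn_toLp] with x hx hx'
      rw [hx, hx']
      have := (iw_pos x).ne'
      by_cases hxS : x ∈ S
      · simp only [hxS, Set.indicator_of_mem, RCLike.inner_apply, conj_trivial]
        field_simp
      · simp [hxS]
    have e2 : inner ℝ f0 (hg.toLp _) = ∫ x in S, f0 x * iw x := by
      rw [L2.inner_def, ← integral_indicator hS]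
      refine integral_congr_ae ?_
      filter_upwards [hg.coeFn_toLp] with x hx'
      rw [hx']
      by_cases hxS : x ∈ S
      · simp only [hxS, Set.indicator_of_mem, RCLike.inner_apply, conj_trivial]
        ring
      · simp [hxS]
    simpa only [e1, e2] using h6

theorem ae_of_balls {P : ℂ → Prop}
    (h : ∀ n : ℕ, ∀ᵐ x ∂(volume.restrict (Metric.closedBall (0 : ℂ) n)), P x) :
    ∀ᵐ x : ℂ, P x := by
  have h2 := (ae_restrict_iUnion_iff (μ := (volume : Measure ℂ))
    (fun n : ℕ => Metric.closedBall (0 : ℂ) n) P).2 h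
  rwa [Metric.iUnion_closedBall_nat, Measure.restrict_univ] at h2

theorem intOn {F : ℂ → ℝ} (hm : Measurable F) (h0 : ∀ x, 0 ≤ F x) (h1 : ∀ x, F x ≤ 1)
    {S : Set ℂ} (hb : Bornology.IsBounded S) : IntegrableOn F S := by
  refine Measure.integrableOn_of_bounded (M := 1) hb.measure_lt_top.ne hm.aestronglyMeasurable
    (Eventually.of_forall fun x => ?_)
  rw [Real.norm_eq_abs, abs_of_nonneg (h0 x)]; exact h1 x

end WLAux

open WLAux in
/-- weak limit along an ultrafilter -/
theorem exists_weak_limit (U : Ultrafilter ℕ) (F : ℕ → ℂ → ℝ) (hm : ∀ n, Measurable (F n))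
    (h0 : ∀ n x, 0 ≤ F n x) (h1 : ∀ n x, F n x ≤ 1) :
    ∃ f : ℂ → ℝ, Measurable f ∧ (∀ x, 0 ≤ f x) ∧ (∀ x, f x ≤ 1) ∧
      ∀ S : Set ℂ, MeasurableSet S → Bornology.IsBounded S →
        Tendsto (fun n => ∫ x in S, F n x) U (𝓝 (∫ x in S, f x)) := by
  obtain ⟨f, hf, H⟩ := exists_pre U F hm h0 h1
  have hB : ∀ n : ℕ, MeasurableSet (Metric.closedBall (0 : ℂ) n) := fun n =>
    measurableSet_closedBall
  have a0 : ∀ᵐ x : ℂ, 0 ≤ f x := by
    refine ae_of_balls fun n => ?_
    refine ae_nonneg_of_forall_setIntegral_nonneg (H _ (hB n) Metric.isBounded_closedBall).1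
      fun s hs _ => ?_
    rw [Measure.restrict_restrict hs]
    refine ge_of_tendsto' (H _ (hs.inter (hB n))
      (Metric.isBounded_closedBall.subset Set.inter_subset_right)).2 fun j => ?_
    exact integral_nonneg fun x => h0 j x
  have a1 : ∀ᵐ x : ℂ, f x ≤ 1 := by
    refine ae_of_balls fun n => ?_
    have i1 : IntegrableOn (fun _ : ℂ => (1 : ℝ)) (Metric.closedBall (0 : ℂ) n) :=
      intOn measurable_const (fun _ => zero_le_one) (fun _ => le_rfl) Metric.isBounded_closedBall
    refine ae_le_of_forall_setIntegral_le (H _ (hB n) Metric.isBounded_closedBall).1 i1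
      fun s hs _ => ?_
    rw [Measure.restrict_restrict hs]
    have hb : Bornology.IsBounded (s ∩ Metric.closedBall (0 : ℂ) n) :=
      Metric.isBounded_closedBall.subset Set.inter_subset_right
    refine le_of_tendsto' (H _ (hs.inter (hB n)) hb).2 fun j => ?_
    exact integral_mono (intOn (hm j) (h0 j) (h1 j) hb)
      (intOn measurable_const (fun _ => zero_le_one) (fun _ => le_rfl) hb) fun x => h1 j x
  refine ⟨fun x => max 0 (min 1 (f x)), measurable_const.max (measurable_const.min hf),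
    fun x => le_max_left _ _, fun x => max_le zero_le_one (min_le_left _ _), fun S hS hb => ?_⟩
  have e : ∫ x in S, max 0 (min 1 (f x)) = ∫ x in S, f x := by
    refine integral_congr_ae (ae_restrict_of_ae ?_)
    filter_upwards [a0, a1] with x x0 x1
    rw [min_eq_right x1, max_eq_right x0]
  rw [e]
  exact (H S hS hb).2

end Vale.Agent.P032
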