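import Vale.Agent.P032.Lim

open MeasureTheory Filter Topology

namespace Vale.Agent.P032

namespace TransAux

theorem intOn {F : ℂ → ℝ} (hm : Measurable F) (h0 : ∀ x, 0 ≤ F x) (h1 : ∀ x, F x ≤ 1)
    {S : Set ℂ} (hb : Bornology.IsBounded S) : IntegrableOn F S := by
  refine Measure.integrableOn_of_bounded (M := 1) hb.measure_lt_top.ne hm.aestronglyMeasurable
    (Eventually.of_forall fun x => ?_)
  rw [Real.norm_eq_abs, abs_of_nonneg (h0 x)]; exact h1 x

/-- translation as a continuous map -/
noncomputable def tr (v : ℂ) : C(ℂ, ℂ) := ⟨fun z => z + v, by fun_prop⟩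

theorem tr_cont : Continuous tr :=
  ContinuousMap.continuous_of_continuous_uncurry _ (by
    have : (Function.uncurry fun x y => tr x y) = fun p : ℂ × ℂ => p.2 + p.1 := rfl
    rw [this]; fun_prop)

theorem tr_mp (v : ℂ) : MeasurePreserving (tr v) volume volume :=
  measurePreserving_add_right volume v

theorem global {F : ℂ → ℝ} (hF : Integrable F) (u : ℂ) :
    Tendsto (fun v : ℂ => ∫ z, |F (z + v) - F (z + u)|) (𝓝 u) (𝓝 0) := by
  have hc : Continuous fun v : ℂ =>
      Lp.compMeasurePreserving (tr v) (tr_mp v) (hF.toL1 F) :=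
    Continuous.compMeasurePreservingLp continuous_const tr_cont tr_mp ENNReal.one_ne_top
  have h1 := tendsto_iff_norm_sub_tendsto_zero.1 (hc.tendsto u)
  refine h1.congr fun v => ?_
  rw [L1.norm_eq_integral_norm]
  refine integral_congr_ae ?_
  have e : ∀ y : ℂ, ⇑(Lp.compMeasurePreserving (tr y) (tr_mp y) (hF.toL1 F)) =ᵐ[volume]
      fun z => F (z + y) := by
    intro y
    refine (Lp.coeFn_compMeasurePreserving _ (tr_mp y)).trans ?_
    exact (tr_mp y).quasiMeasurePreserving.ae_eq_comp hF.coeFn_toL1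
  filter_upwards [Lp.coeFn_sub (Lp.compMeasurePreserving (tr v) (tr_mp v) (hF.toL1 F))
    (Lp.compMeasurePreserving (tr u) (tr_mp u) (hF.toL1 F)), e v, e u] with z h2 h3 h4
  rw [h2, Pi.sub_apply, h3, h4, Real.norm_eq_abs]

theorem DD_cont (δ : ℝ) (hδ : 0 < δ) {f : ℂ → ℝ} (hf : Measurable f) (hf0 : ∀ x, 0 ≤ f x)
    (hf1 : ∀ x, f x ≤ 1) : Continuous (DD δ f) := by
  rw [Metric.continuous_iff]
  intro z ε hε
  obtain ⟨ρ, hρ, H⟩ := DD_equicont δ hδ (ε / 2) (half_pos hε)
  refine ⟨ρ, hρ, fun z' hz' => ?_⟩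
  rw [Real.dist_eq]
  exact (H f hf hf0 hf1 z' z (by rw [← dist_eq_norm]; exact hz'.le)).trans_lt (half_lt_self hε)

end TransAux

open TransAux in
/-- local continuity of translation in L1 -/
theorem tendsto_translate {f : ℂ → ℝ} (hf : Measurable f) (hf0 : ∀ x, 0 ≤ f x)
    (hf1 : ∀ x, f x ≤ 1) (R : ℝ) (u : ℂ) :
    Tendsto (fun v : ℂ => ∫ z in Metric.closedBall (0 : ℂ) R, |f (z + v) - f (z + u)|) (𝓝 u)
      (𝓝 0) := by
  set B := Metric.closedBall (0 : ℂ) (R + ‖u‖ + 1) with hB
  have hF : Integrable (B.indicator f) :=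
    (integrable_indicator_iff measurableSet_closedBall).2
      (intOn hf hf0 hf1 Metric.isBounded_closedBall)
  refine squeeze_zero' (Eventually.of_forall fun v => integral_nonneg fun z => abs_nonneg _) ?_
    (global hF u)
  filter_upwards [Metric.ball_mem_nhds u zero_lt_one] with v hv
  have hv' : ‖v‖ ≤ ‖u‖ + 1 := by
    have := norm_le_norm_add_norm_sub' v u
    rw [mem_ball_iff_norm] at hv
    linarith
  have hi : Integrable fun z => |B.indicator f (z + v) - B.indicator f (z + u)| :=
    ((hF.comp_add_right v).sub (hF.comp_add_right u)).abs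
  calc ∫ z in Metric.closedBall (0 : ℂ) R, |f (z + v) - f (z + u)|
      = ∫ z in Metric.closedBall (0 : ℂ) R, |B.indicator f (z + v) - B.indicator f (z + u)| := by
        refine setIntegral_congr_fun measurableSet_closedBall fun z hz => ?_
        have hz' : ‖z‖ ≤ R := by simpa using hz
        have m1 : z + v ∈ B := by
          rw [hB, mem_closedBall_zero_iff]
          linarith [norm_add_le z v]
        have m2 : z + u ∈ B := by
          rw [hB, mem_closedBall_zero_iff]
          linarith [norm_add_le z u]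
        simp only [Set.indicator_of_mem m1, Set.indicator_of_mem m2]
    _ ≤ _ := setIntegral_le_integral hi (Eventually.of_forall fun z => abs_nonneg _)

open TransAux in
/-- Lebesgue differentiation in local L1 form -/
theorem tendsto_DD_L1 {f : ℂ → ℝ} (hf : Measurable f) (hf0 : ∀ x, 0 ≤ f x)
    (hf1 : ∀ x, f x ≤ 1) (R : ℝ) :
    Tendsto (fun δ : ℝ => ∫ z in Metric.closedBall (0 : ℂ) R, |DD δ f z - f z|) (𝓝[>] 0)
      (𝓝 0) := by
  have hloc : LocallyIntegrable f volume := by
    intro x
    exact ⟨Metric.ball x 1, Metric.ball_mem_nhds x zero_lt_one,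
      intOn hf hf0 hf1 Metric.isBounded_ball⟩
  have hae : ∀ᵐ z : ℂ, Tendsto (fun δ : ℝ => |DD δ f z - f z|) (𝓝[>] 0) (𝓝 0) := by
    filter_upwards [IsUnifLocDoublingMeasure.ae_tendsto_average (volume : Measure ℂ) hloc 1]
      with z hz
    have h1 := hz (l := 𝓝[>] (0 : ℝ)) (fun _ => z) (fun δ => δ) tendsto_id (by
      filter_upwards [self_mem_nhdsWithin] with δ hδ
      exact Metric.mem_closedBall_self (by simpa using le_of_lt hδ))
    have h2 : Tendsto (fun δ : ℝ => DD δ f z) (𝓝[>] 0) (𝓝 (f z)) := by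
      refine h1.congr' ?_
      filter_upwards [self_mem_nhdsWithin] with δ hδ
      have hδ' : 0 < δ := hδ
      rw [setAverage_eq, DD, measureReal_def, Complex.volume_closedBall, smul_eq_mul,
        ENNReal.toReal_mul, ENNReal.toReal_pow, ENNReal.toReal_ofReal hδ'.le]
      simp only [ENNReal.coe_toReal, NNReal.coe_real_pi]
      rw [div_eq_inv_mul, mul_comm Real.pi]
    simpa using (h2.sub_const (f z)).abs
  have := tendsto_integral_filter_of_dominated_convergence
    (μ := volume.restrict (Metric.closedBall (0 : ℂ) R)) (l := 𝓝[>] (0 : ℝ))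
    (F := fun δ z => |DD δ f z - f z|) (f := fun _ => 0) (fun _ => (1 : ℝ)) ?_ ?_ ?_
    (ae_restrict_of_ae hae)
  · simpa using this
  · filter_upwards [self_mem_nhdsWithin] with δ hδ
    exact (continuous_abs.measurable.comp
      ((DD_cont δ hδ hf hf0 hf1).measurable.sub hf)).aestronglyMeasurable
  · filter_upwards [self_mem_nhdsWithin] with δ hδ
    refine Eventually.of_forall fun z => ?_
    have h3 := DD_mem δ hδ hf hf0 hf1 z
    rw [Real.norm_eq_abs, abs_abs, abs_le]
    constructor <;> linarith [h3.1, h3.2, hf0 z, hf1 z]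
  · exact intOn measurable_const (fun _ => zero_le_one) (fun _ => le_rfl)
      Metric.isBounded_closedBall

end Vale.Agent.P032
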