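import Vale.Agent.P032.Lim
import Vale.Agent.P032.Trans

open MeasureTheory Filter Topology

namespace Vale.Agent.P032

theorem exists_dense_dirs : ∃ u : ℕ → ℂ, (∀ j, ‖u j‖ = 1) ∧
    ∀ v : ℂ, ‖v‖ = 1 → ∃ φ : ℕ → ℕ, StrictMono φ ∧ Tendsto (fun j => u (φ j)) atTop (𝓝 v) := by
  haveI : Nonempty (Metric.sphere (0 : ℂ) 1) := ⟨⟨1, by simp⟩⟩
  have hw := TopologicalSpace.denseRange_denseSeq (Metric.sphere (0 : ℂ) 1)
  generalize TopologicalSpace.denseSeq (Metric.sphere (0 : ℂ) 1) = w at hw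
  refine ⟨fun j => (w (Nat.unpair j).1 : ℂ), fun j => by simp, fun v hv => ?_⟩
  have h1 : ∀ n : ℕ, ∃ᶠ j in atTop, dist (w (Nat.unpair j).1 : ℂ) v < 1 / ((n : ℝ) + 1) := by
    intro n
    obtain ⟨i, hi⟩ := hw.exists_dist_lt ⟨v, by simpa using hv⟩ (Nat.one_div_pos_of_nat (n := n))
    rw [frequently_atTop]
    intro a
    refine ⟨Nat.pair i a, Nat.right_le_pair i a, ?_⟩
    rw [Nat.unpair_pair, dist_comm]
    exact hi
  obtain ⟨φ, hφ, h2⟩ := extraction_forall_of_frequently h1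
  refine ⟨φ, hφ, tendsto_iff_dist_tendsto_zero.2 ?_⟩
  exact squeeze_zero (fun j => dist_nonneg) (fun j => (h2 j).le)
    tendsto_one_div_add_atTop_nhds_zero_nat

namespace ZeroX

theorem integ {g : ℂ → ℝ} (hg : Measurable g) (hb : ∀ x, |g x| ≤ 1) (x : ℂ) (R : ℝ) :
    IntegrableOn g (Metric.closedBall x R) :=
  Measure.integrableOn_of_bounded (M := 1) measure_closedBall_lt_top.ne hg.aestronglyMeasurable
    (Eventually.of_forall hb)

theorem DD_meas {δ : ℝ} (hδ : 0 < δ) {f : ℂ → ℝ} (hf : Measurable f) (hf0 : ∀ x, 0 ≤ f x)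
    (hf1 : ∀ x, f x ≤ 1) : Measurable (DD δ f) := by
  refine Continuous.measurable (Metric.continuous_iff.2 fun z ε hε => ?_)
  obtain ⟨ρ, hρ, h⟩ := DD_equicont δ hδ (ε / 2) (by positivity)
  refine ⟨ρ, hρ, fun a ha => ?_⟩
  rw [dist_eq_norm] at ha
  have := h f hf hf0 hf1 a z ha.le
  rw [Real.dist_eq]; linarith

theorem shift {g : ℂ → ℝ} (hg : Measurable g) (h0 : ∀ x, 0 ≤ g x) (hb : ∀ x, |g x| ≤ 1)
    {u : ℂ} (hu : ‖u‖ = 1) (R : ℝ) :
    ∫ z in Metric.closedBall (0 : ℂ) R, g (z + u) ≤ ∫ z in Metric.closedBall (0 : ℂ) (R + 1), g z := by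
  have h1 := (measurePreserving_add_right (volume : Measure ℂ) u).setIntegral_preimage_emb
    (measurableEmbedding_addRight u) g (Metric.closedBall u R)
  have h2 : (fun z => z + u) ⁻¹' Metric.closedBall u R = Metric.closedBall (0 : ℂ) R := by
    ext z; simp
  rw [h2] at h1
  rw [h1]
  refine setIntegral_mono_set (integ hg hb _ _) (Eventually.of_forall h0)
    (HasSubset.Subset.eventuallyLE (Metric.closedBall_subset_closedBall' ?_))
  simp [hu]

theorem ab {a b : ℝ} (ha0 : 0 ≤ a) (ha1 : a ≤ 1) (hb0 : 0 ≤ b) (hb1 : b ≤ 1) : |(|a - b|)| ≤ 1 := by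
  rw [abs_abs, abs_le]; constructor <;> linarith

theorem mu {a b : ℝ} (ha0 : 0 ≤ a) (ha1 : a ≤ 1) (hb0 : 0 ≤ b) (hb1 : b ≤ 1) : |a * b| ≤ 1 := by
  rw [abs_of_nonneg (mul_nonneg ha0 hb0)]; exact mul_le_one₀ ha1 hb0 hb1

theorem est {f D : ℂ → ℝ} (hf : Measurable f) (hf0 : ∀ x, 0 ≤ f x) (hf1 : ∀ x, f x ≤ 1)
    (hD : Measurable D) (hD0 : ∀ x, 0 ≤ D x) (hD1 : ∀ x, D x ≤ 1) {u : ℂ} (hu : ‖u‖ = 1) (v : ℂ)
    {R R' : ℝ} (hR : R ≤ R') :
    ∫ z in Metric.closedBall (0 : ℂ) R, f z * f (z + v) ≤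
      (∫ z in Metric.closedBall (0 : ℂ) R', D z * D (z + u))
      + (∫ z in Metric.closedBall (0 : ℂ) R, |D z - f z|)
      + (∫ z in Metric.closedBall (0 : ℂ) (R + 1), |D z - f z|)
      + ∫ z in Metric.closedBall (0 : ℂ) R, |f (z + u) - f (z + v)| := by
  have a : ∀ w : ℂ, Measurable fun z : ℂ => z + w := fun w => measurable_add_const w
  have m1 : Measurable fun z => D z * D (z + u) := hD.mul (hD.comp (a u))
  have b1 : ∀ z, |D z * D (z + u)| ≤ 1 := fun z => mu (hD0 _) (hD1 _) (hD0 _) (hD1 _)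
  have m2 : Measurable fun z => |D z - f z| := (hD.sub hf).abs
  have b2 : ∀ z, |(|D z - f z|)| ≤ 1 := fun z => ab (hD0 _) (hD1 _) (hf0 _) (hf1 _)
  have i1 := integ m1 b1 0 R
  have i2 := integ m2 b2 0 R
  have i3 : IntegrableOn (fun z => |D (z + u) - f (z + u)|) (Metric.closedBall (0 : ℂ) R) :=
    integ (m2.comp (a u)) (fun z => b2 _) 0 R
  have i4 : IntegrableOn (fun z => |f (z + u) - f (z + v)|) (Metric.closedBall (0 : ℂ) R) :=
    integ ((hf.comp (a u)).sub (hf.comp (a v))).abs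
      (fun z => ab (hf0 _) (hf1 _) (hf0 _) (hf1 _)) 0 R
  have h1 : ∫ z in Metric.closedBall (0 : ℂ) R, f z * f (z + v) ≤
      ∫ z in Metric.closedBall (0 : ℂ) R, (D z * D (z + u) + |D z - f z|
        + |D (z + u) - f (z + u)| + |f (z + u) - f (z + v)|) := by
    refine integral_mono (integ (hf.mul (hf.comp (a v)))
      (fun z => mu (hf0 _) (hf1 _) (hf0 _) (hf1 _)) 0 R) (((i1.add i2).add i3).add i4) fun z => ?_
    simp only
    have e1 : (f z - D z) * f (z + v) ≤ |D z - f z| := by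
      have := neg_abs_le (D z - f z)
      nlinarith [hf0 (z + v), hf1 (z + v), abs_nonneg (D z - f z)]
    have e2 : D z * (f (z + v) - f (z + u)) ≤ |f (z + u) - f (z + v)| := by
      have := neg_abs_le (f (z + u) - f (z + v))
      nlinarith [hD0 z, hD1 z, abs_nonneg (f (z + u) - f (z + v))]
    have e3 : D z * (f (z + u) - D (z + u)) ≤ |D (z + u) - f (z + u)| := by
      have := neg_abs_le (D (z + u) - f (z + u))
      nlinarith [hD0 z, hD1 z, abs_nonneg (D (z + u) - f (z + u))]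
    linarith
  have i12 : IntegrableOn (fun z => D z * D (z + u) + |D z - f z|) (Metric.closedBall (0 : ℂ) R) :=
    i1.add i2
  have i123 : IntegrableOn (fun z => D z * D (z + u) + |D z - f z| + |D (z + u) - f (z + u)|)
      (Metric.closedBall (0 : ℂ) R) := i12.add i3
  rw [integral_add i123 i4, integral_add i12 i3, integral_add i1 i2] at h1
  have h2 := shift m2 (fun z => abs_nonneg _) b2 hu R
  have h3 : ∫ z in Metric.closedBall (0 : ℂ) R, D z * D (z + u)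
      ≤ ∫ z in Metric.closedBall (0 : ℂ) R', D z * D (z + u) :=
    setIntegral_mono_set (integ m1 b1 0 R')
      (Eventually.of_forall fun z => mul_nonneg (hD0 _) (hD0 _))
      (HasSubset.Subset.eventuallyLE (Metric.closedBall_subset_closedBall hR))
  linarith

end ZeroX

theorem ind_of_small {f : ℂ → ℝ} (hf : Measurable f) (hf0 : ∀ x, 0 ≤ f x) (hf1 : ∀ x, f x ≤ 1)
    (u : ℕ → ℂ) (hu : ∀ j, ‖u j‖ = 1)
    (hd : ∀ v : ℂ, ‖v‖ = 1 → ∃ φ : ℕ → ℕ, StrictMono φ ∧ Tendsto (fun j => u (φ j)) atTop (𝓝 v))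
    (δ : ℕ → ℝ) (hδ : ∀ j, 0 < δ j ∧ δ j ≤ 1 / (j + 1))
    (h : ∀ j : ℕ, ∫ z in Metric.closedBall (0 : ℂ) j,
      DD (δ j) f z * DD (δ j) f (z + u j) ≤ 3 / 2 ^ j) :
    Ind {x | 0 < f x} := by
  intro v hv
  obtain ⟨φ, hφ, hlim⟩ := hd v hv
  have hφt : Tendsto φ atTop atTop := hφ.tendsto_atTop
  have hδt : Tendsto (fun j => δ (φ j)) atTop (𝓝[>] 0) := by
    refine tendsto_nhdsWithin_iff.2 ⟨?_, Eventually.of_forall fun j => (hδ _).1⟩
    exact (squeeze_zero (fun j => (hδ j).1.le) (fun j => (hδ j).2)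
      tendsto_one_div_add_atTop_nhds_zero_nat).comp hφt
  have h3 : Tendsto (fun j => (3 : ℝ) / 2 ^ φ j) atTop (𝓝 0) :=
    (tendsto_const_nhds.div_atTop (tendsto_pow_atTop_atTop_of_one_lt one_lt_two)).comp hφt
  have key : ∀ N : ℕ, ∀ᵐ z : ℂ, z ∈ Metric.closedBall (0 : ℂ) N → f z * f (z + v) = 0 := by
    intro N
    have t := ((h3.add ((tendsto_DD_L1 hf hf0 hf1 N).comp hδt)).add
      ((tendsto_DD_L1 hf hf0 hf1 (N + 1)).comp hδt)).add
      ((tendsto_translate hf hf0 hf1 N v).comp hlim)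
    simp only [add_zero] at t
    have h1 : ∫ z in Metric.closedBall (0 : ℂ) N, f z * f (z + v) ≤ 0 := by
      refine ge_of_tendsto t ?_
      filter_upwards [hφt.eventually_ge_atTop N] with j hj
      have p := (hδ (φ j)).1
      have h2 := ZeroX.est hf hf0 hf1 (ZeroX.DD_meas p hf hf0 hf1)
        (fun x => (DD_mem _ p hf hf0 hf1 x).1) (fun x => (DD_mem _ p hf hf0 hf1 x).2) (hu (φ j)) v
        (R := N) (R' := φ j) (by exact_mod_cast hj)
      have h4 := h (φ j)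
      simp only [Function.comp]
      linarith
    have hi := ZeroX.integ (hf.mul (hf.comp (measurable_add_const v)))
      (fun z => ZeroX.mu (hf0 _) (hf1 _) (hf0 _) (hf1 _)) 0 N
    have hn : ∀ z, 0 ≤ f z * f (z + v) := fun z => mul_nonneg (hf0 _) (hf0 _)
    have h5 := (integral_eq_zero_iff_of_nonneg hn hi).1 (le_antisymm h1 (integral_nonneg hn))
    exact (ae_restrict_iff' measurableSet_closedBall).1 h5
  filter_upwards [ae_all_iff.2 key] with z hz
  rintro ⟨h1, h2⟩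
  obtain ⟨N, hN⟩ := exists_nat_ge ‖z‖
  exact (mul_pos h1 h2).ne' (hz N (by simpa using hN))

end Vale.Agent.P032
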