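import Vale.Agent.P032.Pick2
import Vale.Agent.P032.WL
import Vale.Agent.P032.Zero

open MeasureTheory Filter Topology

namespace Vale.Agent.P032

theorem thmA {k : ℕ} (c : ℂ → Fin k) (hc : Proper c) :
    ∃ A : Fin k → Set ℂ, (∀ i, MeasurableSet (A i)) ∧ (∀ i, Ind (A i)) ∧
      ∀ᵐ x : ℂ, ∃ i, x ∈ A i := by
  obtain ⟨u, hu, hd⟩ := exists_dense_dirs
  obtain ⟨δ, hδ, H⟩ := pick_seq c hc u hu
  choose c' hm hb using H
  have im : ∀ n i, Measurable (ind (c' n) i) := fun n i =>
    Measurable.ite (hm n i) measurable_const measurable_const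
  have i0 : ∀ n i x, 0 ≤ ind (c' n) i x := fun n i x => by
    unfold ind; split_ifs <;> norm_num
  have i1 : ∀ n i x, ind (c' n) i x ≤ 1 := fun n i x => by
    unfold ind; split_ifs <;> norm_num
  choose f fm f0 f1 fl using fun i => exists_weak_limit (hyperfilter ℕ) (fun n => ind (c' n) i)
    (fun n => im n i) (fun n => i0 n i) (fun n => i1 n i)
  refine ⟨fun i => {x | 0 < f i x}, fun i => measurableSet_lt measurable_const (fm i),
    fun i => ind_of_small (fm i) (f0 i) (f1 i) u hu hd δ hδ fun j => ?_, ?_⟩
  · refine le_of_tendsto (tendsto_DD_integral _ _ (fun n => im n i) (fun n => i0 n i)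
      (fun n => i1 n i) (f i) (fm i) (f0 i) (f1 i) (fl i) (δ j) (hδ j).1 j (u j)) ?_
    filter_upwards [Nat.hyperfilter_le_atTop (eventually_ge_atTop j)] with n hn
    exact hb n j hn i
  · have key : ∀ R : ℕ, volume ({x | ∀ i, f i x ≤ 0} ∩ Metric.closedBall (0 : ℂ) R) = 0 := by
      intro R
      obtain ⟨S, hS⟩ : ∃ S, S = {x | ∀ i, f i x ≤ 0} ∩ Metric.closedBall (0 : ℂ) R := ⟨_, rfl⟩
      have hSm : MeasurableSet S := by
        rw [hS, Set.setOf_forall]
        exact (MeasurableSet.iInter fun i => measurableSet_le (fm i) measurable_const).inter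
          measurableSet_closedBall
      have hSb : Bornology.IsBounded S :=
        Metric.isBounded_closedBall.subset (hS ▸ Set.inter_subset_right)
      have hfin := hSb.measure_lt_top (μ := volume)
      have h1 := tendsto_finset_sum Finset.univ fun i _ => fl i S hSm hSb
      have h2 : ∀ n, ∑ i, ∫ x in S, ind (c' n) i x = volume.real S := by
        intro n
        rw [← integral_finset_sum]
        · simp [ind]
        · intro i _
          refine Measure.integrableOn_of_bounded (M := 1) hfin.ne (im n i).aestronglyMeasurable ?_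
          exact Eventually.of_forall fun x => by
            rw [Real.norm_of_nonneg (i0 n i x)]; exact i1 n i x
      have h3 : ∑ i, ∫ x in S, f i x = 0 := Finset.sum_eq_zero fun i _ =>
        setIntegral_eq_zero_of_forall_eq_zero fun x hx =>
          le_antisymm ((hS ▸ hx).1 i) (f0 i x)
      simp only [h2, h3] at h1
      rw [← hS]
      exact (measureReal_eq_zero_iff hfin.ne).1 (tendsto_nhds_unique tendsto_const_nhds h1)
    filter_upwards [ae_all_iff.2 fun R => measure_eq_zero_iff_ae_notMem.1 (key R)] with x hx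
    by_contra h1
    obtain ⟨R, hR⟩ := exists_nat_ge ‖x‖
    exact hx R ⟨fun i => not_lt.1 fun h2 => h1 ⟨i, h2⟩, mem_closedBall_zero_iff.2 hR⟩

end Vale.Agent.P032
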