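import Vale.Agent.P032.Trans

open MeasureTheory Filter Topology

namespace Vale.Agent.P032

namespace TwoX

theorem intOn {g : ℂ → ℝ} (hg : Measurable g) (hb : ∀ z, |g z| ≤ 1) (R : ℝ) :
    IntegrableOn g (Metric.closedBall (0 : ℂ) R) :=
  Measure.integrableOn_of_bounded (M := 1) MeasureTheory.measure_closedBall_lt_top.ne
    hg.aestronglyMeasurable (Eventually.of_forall hb)

theorem claim {D S : Set ℂ} (hD : MeasurableSet D) (hS : MeasurableSet S) {R : ℝ}
    (hSR : S ⊆ Metric.closedBall 0 R)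
    (hn : ∀ w ∈ S, ∀ q q' : ℚ, Real.sin (q - q') ≠ 0 → w + ee q ∈ D → w + ee q' ∉ D)
    (u : ℂ) (hu : ‖u‖ = 1) : ∀ᵐ z : ℂ, ¬ (z ∈ S ∧ z + u ∈ D) := by
  classical
  obtain ⟨a, ha⟩ := exists_ee u
  rw [hu, Complex.ofReal_one, one_mul] at ha
  obtain ⟨f, hf⟩ : ∃ f : ℂ → ℝ, f = D.indicator 1 := ⟨_, rfl⟩
  have hfm : Measurable f := hf ▸ measurable_one.indicator hD
  have f1 : ∀ z, z ∈ D → f z = 1 := fun z hz => by rw [hf, Set.indicator_of_mem hz]; rfl
  have f0 : ∀ z, z ∉ D → f z = 0 := fun z hz => by rw [hf, Set.indicator_of_notMem hz]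
  have hf0 : ∀ z, 0 ≤ f z := fun z => by
    by_cases hz : z ∈ D
    · rw [f1 z hz]; exact zero_le_one
    · rw [f0 z hz]
  have hf1 : ∀ z, f z ≤ 1 := fun z => by
    by_cases hz : z ∈ D
    · rw [f1 z hz]
    · rw [f0 z hz]; exact zero_le_one
  obtain ⟨T, hT⟩ : ∃ T : Set ℂ, T = S ∩ (fun z => z + u) ⁻¹' D := ⟨_, rfl⟩
  have hTm : MeasurableSet T := hT ▸ hS.inter (measurable_add_const u hD)
  have hTR : T ⊆ Metric.closedBall 0 R := hT ▸ Set.inter_subset_left.trans hSR
  have hint : ∀ v : ℂ, IntegrableOn (fun z => |f (z + v) - f (z + u)|) (Metric.closedBall 0 R) :=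
    fun v => intOn (g := fun z => |f (z + v) - f (z + u)|) ((hfm.comp (measurable_add_const v)).sub
      (hfm.comp (measurable_add_const u))).abs (fun z => by
        rw [abs_abs, abs_le]
        constructor <;> linarith [hf0 (z + v), hf1 (z + v), hf0 (z + u), hf1 (z + u)]) R
  have key : ∀ ε > 0, volume.real T ≤ 0 + ε := by
    intro ε hε
    have h1 : Tendsto ee (𝓝 a) (𝓝 u) := ha ▸ continuous_ee.tendsto a
    have h2 := ((tendsto_translate hfm hf0 hf1 R u).comp h1).eventually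
      (gt_mem_nhds (half_pos hε))
    obtain ⟨δ, hδ, hb⟩ := Metric.eventually_nhds_iff.1 h2
    have hm : 0 < min δ 1 := lt_min hδ one_pos
    obtain ⟨q, q1, q2⟩ := exists_rat_btwn (lt_add_of_pos_right a hm)
    obtain ⟨q', q3, q4⟩ := exists_rat_btwn q1
    have m1 := min_le_left δ 1
    have m2 := min_le_right δ 1
    have hs : Real.sin (q - q') ≠ 0 := (Real.sin_pos_of_pos_of_lt_pi (by linarith)
      (by linarith [Real.pi_gt_three])).ne'
    have b1 := hb (y := q) (by rw [Real.dist_eq, abs_lt]; constructor <;> linarith)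
    have b2 := hb (y := q') (by rw [Real.dist_eq, abs_lt]; constructor <;> linarith)
    simp only [Function.comp_apply] at b1 b2
    have h3 : ∫ z in Metric.closedBall (0 : ℂ) R, T.indicator (1 : ℂ → ℝ) z = volume.real T := by
      rw [setIntegral_indicator hTm, Set.inter_eq_self_of_subset_right hTR]
      simp
    have h4 : ∫ z in Metric.closedBall (0 : ℂ) R, T.indicator (1 : ℂ → ℝ) z ≤
        ∫ z in Metric.closedBall (0 : ℂ) R,
          (|f (z + ee q) - f (z + u)| + |f (z + ee q') - f (z + u)|) := by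
      refine integral_mono_of_nonneg (Eventually.of_forall fun z => ?_)
        ((hint _).add (hint _)) (Eventually.of_forall fun z => ?_)
      · exact Set.indicator_nonneg (fun _ _ => zero_le_one) z
      · beta_reduce
        by_cases hz : z ∈ T
        · rw [Set.indicator_of_mem hz, Pi.one_apply]
          rw [hT] at hz
          rw [f1 _ hz.2]
          by_cases h5 : z + ee q ∈ D
          · rw [f0 _ (hn z hz.1 q q' hs h5), zero_sub, abs_neg, abs_one]
            linarith [abs_nonneg (f (z + ee q) - 1)]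
          · rw [f0 _ h5, zero_sub, abs_neg, abs_one]
            linarith [abs_nonneg (f (z + ee q') - 1)]
        · rw [Set.indicator_of_notMem hz]
          positivity
    rw [integral_add (hint _) (hint _), h3] at h4
    linarith
  have h0 : volume.real T = 0 :=
    le_antisymm (le_of_forall_pos_le_add key) measureReal_nonneg
  rw [measureReal_eq_zero_iff (((measure_mono hTR).trans_lt
    MeasureTheory.measure_closedBall_lt_top).ne)] at h0
  filter_upwards [measure_eq_zero_iff_ae_notMem.1 h0] with z hz h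
  exact hz (hT ▸ h)

end TwoX

theorem ae_mem_dens {A : Set ℂ} (hA : MeasurableSet A) : ∀ᵐ x : ℂ, x ∈ A → x ∈ dens A := by
  exact (ae_restrict_iff' hA).1 (Besicovitch.ae_tendsto_measure_inter_div volume A)

/-- almost every point outside a maximal set sees it in two directions -/
theorem MaxInd.two_dirs {A : Set ℂ} (h : MaxInd A) :
    ∀ᵐ w : ℂ, w ∉ A → ∃ a b : ℝ, Real.sin (a - b) ≠ 0 ∧ w + ee a ∈ dens A ∧ w + ee b ∈ dens A := by
  obtain ⟨hA, hI, hmax⟩ := h
  obtain ⟨N, hN1, hNm, hN0⟩ := exists_measurable_superset_of_null (ae_iff.1 (ae_mem_dens hA))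
  have hD : MeasurableSet (A \ N) := hA.diff hNm
  have hDd : ∀ x ∈ A \ N, x ∈ dens A := fun x hx => by
    by_contra hn
    exact hx.2 (hN1 fun h => hn (h hx.1))
  obtain ⟨G, hG⟩ : ∃ G : Set ℂ, G = ⋃ q : ℚ, ⋃ q' : ℚ, ⋃ (_ : Real.sin (q - q') ≠ 0),
      (fun z => z + ee q) ⁻¹' (A \ N) ∩ (fun z => z + ee q') ⁻¹' (A \ N) := ⟨_, rfl⟩
  have hGm : MeasurableSet G := by
    rw [hG]
    exact MeasurableSet.iUnion fun q => MeasurableSet.iUnion fun q' =>
      MeasurableSet.iUnion fun _ => (measurable_add_const _ hD).inter (measurable_add_const _ hD)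
  have hN' : ∀ᵐ z : ℂ, z ∉ N := measure_eq_zero_iff_ae_notMem.1 hN0
  have key : ∀ x₀ : ℂ, ∀ᵐ z : ℂ, z ∈ Gᶜ ∩ Metric.ball x₀ (1 / 2) → z ∈ A := by
    intro x₀
    have hSm : MeasurableSet (Gᶜ ∩ Metric.ball x₀ (1 / 2)) := hGm.compl.inter measurableSet_ball
    have hcl := TwoX.claim hD hSm (R := ‖x₀‖ + 1 / 2) (fun z hz => by
      have h1 := mem_ball_iff_norm.1 hz.2
      have h2 := norm_sub_norm_le z x₀
      rw [mem_closedBall_zero_iff]
      linarith) (fun w hw q q' hs h1 h2 => hw.1 (by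
        rw [hG]
        exact Set.mem_iUnion.2 ⟨q, Set.mem_iUnion.2 ⟨q', Set.mem_iUnion.2 ⟨hs, h1, h2⟩⟩⟩))
    refine hmax _ hSm fun u hu => ?_
    have hq := (measurePreserving_add_right (volume : Measure ℂ) u).quasiMeasurePreserving
    filter_upwards [hI u hu, hcl u hu, hq.ae (hcl (-u) (by rw [norm_neg, hu])), hN', hq.ae hN']
      with z h1 h2 h3 h4 h5
    rw [add_neg_cancel_right] at h3
    rintro ⟨a | a, b | b⟩
    · exact h1 ⟨a, b⟩
    · exact h3 ⟨b, a, h4⟩
    · exact h2 ⟨a, b, h5⟩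
    · have h6 := mem_ball_iff_norm.1 a.2
      have h7 := mem_ball_iff_norm.1 b.2
      have h8 := norm_sub_le (z + u - x₀) (z - x₀)
      rw [show z + u - x₀ - (z - x₀) = u by ring, hu] at h8
      linarith
  filter_upwards [ae_all_iff.2 fun n => key (TopologicalSpace.denseSeq ℂ n)] with w hw hwA
  obtain ⟨n, hn⟩ := (TopologicalSpace.denseRange_denseSeq ℂ).exists_dist_lt w
    (by norm_num : (0 : ℝ) < 1 / 2)
  have hwG : w ∈ G := by
    by_contra hc
    exact hwA (hw n ⟨hc, hn⟩)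
  rw [hG] at hwG
  obtain ⟨q, hq⟩ := Set.mem_iUnion.1 hwG
  obtain ⟨q', hq'⟩ := Set.mem_iUnion.1 hq
  obtain ⟨hs, h1, h2⟩ := Set.mem_iUnion.1 hq'
  exact ⟨q, q', hs, hDd _ h1, hDd _ h2⟩

end Vale.Agent.P032
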