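import Vale.Agent.P032.MaxI
import Vale.Agent.P032.Two
import Vale.Agent.P032.Gp

open MeasureTheory Filter Topology

namespace Vale.Agent.P032

theorem exists_full_ball {k : ℕ} (A : Fin k → Set ℂ) (hA : ∀ i, MaxInd (A i))
    (hc : ∀ᵐ x : ℂ, ∃ i, x ∈ A i) (x : ℂ) (ρ : ℝ) (hρ : 0 < ρ) :
    ∃ (i : Fin k) (w : ℂ) (r : ℝ), 0 < r ∧ w ∈ Metric.ball x ρ ∧
      ∀ᵐ z : ℂ, z ∈ Metric.ball w r → z ∈ A i := by
  classical
  obtain ⟨M, hM⟩ : ∃ M : ℂ → Finset (Fin k), ∀ y i, i ∈ M y ↔ y ∈ A i :=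
    ⟨fun y => Finset.univ.filter fun i => y ∈ A i, fun y i => by simp⟩
  have hex : ∃ n, ∃ᶠ y in ae (volume : Measure ℂ), y ∈ Metric.ball x ρ ∧ (M y).card = n := by
    by_contra h1
    have h2 : ∀ᵐ y : ℂ, y ∉ Metric.ball x ρ := by
      filter_upwards [ae_all_iff.2 fun n => not_frequently.1 (not_exists.1 h1 n)] with y hy hb
      exact hy _ ⟨hb, rfl⟩
    exact (Metric.measure_ball_pos volume x hρ).ne' (measure_eq_zero_iff_ae_notMem.2 h2)
  have hm : ∀ᵐ y : ℂ, y ∈ Metric.ball x ρ → Nat.find hex ≤ (M y).card := by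
    have h1 : ∀ n, ∀ᵐ y : ℂ, n < Nat.find hex → ¬ (y ∈ Metric.ball x ρ ∧ (M y).card = n) := by
      intro n
      by_cases hn : n < Nat.find hex
      · filter_upwards [not_frequently.1 (Nat.find_min hex hn)] with y hy _ using hy
      · exact Eventually.of_forall fun y h => absurd h hn
    filter_upwards [ae_all_iff.2 h1] with y hy hb
    exact not_lt.1 fun h2 => hy _ h2 ⟨hb, rfl⟩
  obtain ⟨w, ⟨hw, hwm⟩, ⟨i, hi⟩, h2d⟩ := ((Nat.find_spec hex).and_eventually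
    (hc.and (ae_all_iff.2 fun j => (hA j).two_dirs))).exists
  have hκ : (0 : ℝ) < 1 / (k + 1) := by positivity
  have h1 : ∀ᶠ r : ℝ in 𝓝[>] 0, ∀ j, ∀ᵐ g : ℂ, w ∉ A j → ∀ a : ℝ, ‖g + ee a - w‖ ≤ r →
      volume {t : ℝ | t ∈ Set.Icc (a - r) (a + r) ∧ g + ee t ∈ A j} ≤
        ENNReal.ofReal (1 / (k + 1) * r) := by
    refine eventually_all.2 fun j => ?_
    by_cases hj : w ∈ A j
    · exact Eventually.of_forall fun r => Eventually.of_forall fun g h => absurd hj h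
    · obtain ⟨a, b, h1, h2, h3⟩ := h2d j hj
      filter_upwards [arc_small (hA j).1 (hA j).2.1 w a b h1 h2 h3 _ hκ] with r hr
      filter_upwards [hr] with g hg _ using hg
  have hw' := mem_ball_iff_norm.1 hw
  obtain ⟨r, ⟨h2, h3⟩, h4⟩ := ((h1.and (Ioo_mem_nhdsGT (show (0 : ℝ) < (ρ - ‖w - x‖) / 2 by
    linarith))).and (Ioo_mem_nhdsGT (show (0 : ℝ) < 1 / 2 by norm_num))).exists
  refine ⟨i, w, r, h3.1, hw, (hA i).ball_sub w r h4.2.le ?_⟩
  filter_upwards [ae_all_iff.2 h2, (hA i).2.1.ae_circle (hA i).1, ae_circle hm]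
    with g g1 g2 g3 hg hgi
  obtain ⟨a, ha⟩ := exists_ee (w - g)
  have h5 : ‖g + ee a - w‖ ≤ r := by
    have : g + ee a - w = ((1 - ‖w - g‖ : ℝ) : ℂ) * ee a := by
      push_cast
      linear_combination -ha
    rw [this, norm_mul, norm_ee, mul_one, Complex.norm_real, Real.norm_eq_abs, abs_sub_comm]
    exact hg.le
  have h6 : ∀ᵐ t : ℝ, t ∈ Set.Icc (a - r) (a + r) →
      t ∈ ⋃ j, {t : ℝ | w ∉ A j ∧ t ∈ Set.Icc (a - r) (a + r) ∧ g + ee t ∈ A j} := by
    filter_upwards [g2, g3] with t t1 t2 ht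
    have h7 : ‖ee t - ee a‖ ≤ r := (norm_ee_sub_le t a).trans
      (abs_le.2 ⟨by linarith [ht.1], by linarith [ht.2]⟩)
    have h8 : g + ee t ∈ Metric.ball x ρ := by
      rw [mem_ball_iff_norm, show g + ee t - x = (ee t - ee a) + (g + ee a - w) + (w - x) by ring]
      linarith [norm_add₃_le (a := ee t - ee a) (b := g + ee a - w) (c := w - x), h3.2]
    by_contra h9
    have h10 : M (g + ee t) ⊆ (M w).erase i := fun j hj => by
      rw [hM] at hj
      refine Finset.mem_erase.2 ⟨fun h => t1 ⟨hgi, h ▸ hj⟩, (hM _ _).2 ?_⟩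
      by_contra h11
      exact h9 (Set.mem_iUnion.2 ⟨j, h11, ht, hj⟩)
    have h11 := (Finset.card_le_card h10).trans_lt (Finset.card_erase_lt_of_mem ((hM _ _).2 hi))
    exact absurd (t2 h8) (not_le.2 (hwm ▸ h11))
  have h7 : ∀ j, volume {t : ℝ | w ∉ A j ∧ t ∈ Set.Icc (a - r) (a + r) ∧ g + ee t ∈ A j} ≤
      ENNReal.ofReal (1 / (k + 1) * r) := fun j => by
    by_cases hj : w ∈ A j
    · simp [hj]
    · exact (measure_mono fun t ht => ht.2).trans (g1 j hj a h5)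
  have h8 : volume (Set.Icc (a - r) (a + r)) ≤ ∑ _j : Fin k, ENNReal.ofReal (1 / (k + 1) * r) :=
    ((measure_mono_ae h6).trans (measure_iUnion_fintype_le _ _)).trans
    (Finset.sum_le_sum fun j _ => h7 j)
  have hr := h3.1
  rw [Real.volume_Icc, ← ENNReal.ofReal_sum_of_nonneg (fun _ _ => by positivity),
    ENNReal.ofReal_le_ofReal_iff (Finset.sum_nonneg fun _ _ => by positivity), Finset.sum_const,
    Finset.card_univ, Fintype.card_fin, nsmul_eq_mul] at h8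
  have h9 : (k : ℝ) * (1 / (k + 1)) ≤ 1 := by
    rw [mul_one_div, div_le_one (by positivity)]
    linarith
  nlinarith

end Vale.Agent.P032
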