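import Vale.Agent.P032.ThmA
import Vale.Agent.P032.ThmB

open MeasureTheory Filter Topology

namespace Vale.Agent.P032

theorem ess_interior {A : Set ℂ} (h : Ind A) :
    IsOpen {x : ℂ | ∃ r : ℝ, 0 < r ∧ ∀ᵐ z : ℂ, z ∈ Metric.ball x r → z ∈ A} ∧
      Free {x : ℂ | ∃ r : ℝ, 0 < r ∧ ∀ᵐ z : ℂ, z ∈ Metric.ball x r → z ∈ A} := by
  constructor
  · rw [Metric.isOpen_iff]
    rintro x ⟨r, hr, hx⟩
    refine ⟨r, hr, fun y hy => ⟨r - dist y x, sub_pos.2 hy, ?_⟩⟩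
    filter_upwards [hx] with z hz hz'
    exact hz (Metric.ball_subset_ball' (by linarith) hz')
  · rintro x ⟨r, hr, hx⟩ y ⟨s, hs, hy⟩ hxy
    have h1 : ∀ᵐ z : ℂ, z + (x - y) ∈ Metric.ball x r → z + (x - y) ∈ A :=
      (measurePreserving_add_right (volume : Measure ℂ) (x - y)).quasiMeasurePreserving.ae hx
    have h2 : ∀ᵐ z : ℂ, z ∉ Metric.ball y (min r s) := by
      filter_upwards [h1, hy, h (x - y) hxy] with z a b c hz
      refine c ⟨b (Metric.ball_subset_ball (min_le_right _ _) hz), a ?_⟩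
      have := Metric.ball_subset_ball (min_le_left r s) hz
      rw [Metric.mem_ball, dist_eq_norm] at this ⊢
      rwa [show z + (x - y) - x = z - y by ring]
    exact (Metric.measure_ball_pos volume y (lt_min hr hs)).ne'
      (measure_eq_zero_iff_ae_notMem.2 h2)

theorem open_of_proper {k : ℕ} (c : ℂ → Fin k) (hc : Proper c) :
    ∃ O : Fin k → Set ℂ, (∀ i, IsOpen (O i)) ∧ (∀ i, Free (O i)) ∧ Dense (⋃ i, O i) := by
  obtain ⟨A, hm, hI, hcov⟩ := thmA c hc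
  choose B hAB hB using fun i => exists_maxInd (hm i) (hI i)
  refine ⟨fun i => {x : ℂ | ∃ r : ℝ, 0 < r ∧ ∀ᵐ z : ℂ, z ∈ Metric.ball x r → z ∈ B i},
    fun i => (ess_interior (hB i).2.1).1, fun i => (ess_interior (hB i).2.1).2, ?_⟩
  rw [Metric.dense_iff]
  intro x ρ hρ
  obtain ⟨i, w, r, hr, hw, h⟩ := exists_full_ball B hB
    (hcov.mono fun x ⟨i, hi⟩ => ⟨i, hAB i hi⟩) x ρ hρ
  exact ⟨w, hw, Set.mem_iUnion.2 ⟨i, r, hr, h⟩⟩

end Vale.Agent.P032
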